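import Vale.Agent.Lib.P162.Link

/-!
# Assembling the total variation bound
-/

open scoped InnerProductSpace

namespace Vale.Agent.Lib.P162

open Equiv Finset

section convolution

variable {G : Type*} [Group G] [Fintype G]

lemma conv_assoc (a b c : G → ℝ) : conv (conv a b) c = conv a (conv b c) := by
  funext g
  simp only [conv, Finset.sum_mul, Finset.mul_sum]
  rw [Finset.sum_comm]
  refine Finset.sum_congr rfl ?_
  intro h _
  refine Fintype.sum_equiv (Equiv.mulLeft h⁻¹) _ _ ?_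
  intro k
  simp [mul_assoc]

variable [DecidableEq G]

lemma conv_delta_left (μ : G → ℝ) : conv (fun g => if g = 1 then (1 : ℝ) else 0) μ = μ := by
  funext g
  simp [conv]

lemma conv_delta_right (μ : G → ℝ) : conv μ (fun g => if g = 1 then (1 : ℝ) else 0) = μ := by
  funext g
  simp only [conv, mul_ite, mul_one, mul_zero]
  rw [Finset.sum_eq_single g]
  · simp
  · intro b _ hb
    rw [if_neg]
    intro h
    apply hb
    rw [inv_mul_eq_one] at h
    exact h
  · simp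

/-- Convolution powers commute with the generator. -/
lemma convPow_comm (μ : G → ℝ) (t : ℕ) : conv (convPow μ t) μ = conv μ (convPow μ t) := by
  induction t with
  | zero =>
    show conv (fun g => if g = 1 then (1 : ℝ) else 0) μ = conv μ (fun g => if g = 1 then (1 : ℝ) else 0)
    rw [conv_delta_left, conv_delta_right]
  | succ t ih =>
    show conv (conv (convPow μ t) μ) μ = conv μ (conv (convPow μ t) μ)
    rw [ih, conv_assoc, ih]

/-- Convolving with a probability vector does not increase the distance to uniform. -/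
lemma sum_abs_conv_le (P μ : G → ℝ) (h0 : ∀ g, 0 ≤ μ g) (h1 : ∑ g, μ g = 1) (u : ℝ) :
    ∑ g, |conv P μ g - u| ≤ ∑ g, |P g - u| := by
  have hshift : ∀ g : G, ∑ h, μ (h⁻¹ * g) = 1 := by
    intro g
    rw [← h1]
    exact Fintype.sum_equiv ((Equiv.inv G).trans (Equiv.mulRight g)) _ _ (fun _ => rfl)
  have hshift2 : ∀ h : G, ∑ g, μ (h⁻¹ * g) = 1 := by
    intro h
    rw [← h1]
    exact Fintype.sum_equiv (Equiv.mulLeft h⁻¹) _ _ (fun _ => rfl)
  have key : ∀ g, |conv P μ g - u| ≤ ∑ h, |P h - u| * μ (h⁻¹ * g) := by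
    intro g
    have h2 : conv P μ g - u = ∑ h, (P h - u) * μ (h⁻¹ * g) := by
      simp only [conv, sub_mul, Finset.sum_sub_distrib]
      rw [← Finset.mul_sum, hshift, mul_one]
    rw [h2]
    refine (Finset.abs_sum_le_sum_abs _ _).trans (le_of_eq ?_)
    refine Finset.sum_congr rfl ?_
    intro h _
    rw [abs_mul, abs_of_nonneg (h0 _)]
  refine (Finset.sum_le_sum (fun g _ => key g)).trans (le_of_eq ?_)
  rw [Finset.sum_comm]
  refine Finset.sum_congr rfl ?_
  intro h _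
  rw [← Finset.mul_sum, hshift2, mul_one]

lemma tv_antitone (μ : G → ℝ) (h0 : ∀ g, 0 ≤ μ g) (h1 : ∑ g, μ g = 1) :
    Antitone (fun t => tvDist (convPow μ t) (unif G)) := by
  refine antitone_nat_of_succ_le ?_
  intro t
  unfold tvDist
  refine mul_le_mul_of_nonneg_left ?_ (by norm_num)
  exact sum_abs_conv_le (convPow μ t) μ h0 h1 (1 / (Fintype.card G : ℝ))

end convolution

/-- The two convolution power recursions agree. -/
lemma convPow_eq_thorpL2 {α : Type*} [DecidableEq α] [Fintype α] (μ : Perm α → ℝ) (t : ℕ) :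
    convPow μ t = ThorpL2.convPow μ t := by
  induction t with
  | zero => rfl
  | succ t ih =>
    show conv (convPow μ t) μ = ThorpL2.conv μ (ThorpL2.convPow μ t)
    rw [convPow_comm, ih]
    rfl

/-- The numerical condition. -/
lemma numeric_cond (D : ℕ) (σ : ℝ) (hs : 1 / 2048 ≤ σ * 2 ^ D) :
    (((2 : ℝ) ^ D)) ^ 2 * Real.exp (-(((4096 * (D + 1) : ℕ) * (2 * σ)) * (2 : ℝ) ^ D / 2)) ≤ 1 / 5 := by
  have h1 : (2 : ℝ) * D + 2 ≤ ((4096 * (D + 1) : ℕ) * (2 * σ)) * (2 : ℝ) ^ D / 2 := by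
    push_cast
    have h2 : (0 : ℝ) ≤ (D : ℝ) + 1 := by positivity
    have h3 : ((4096 * ((D : ℝ) + 1)) * (2 * σ)) * (2 : ℝ) ^ D / 2
        = 4096 * ((D : ℝ) + 1) * (σ * 2 ^ D) := by ring
    rw [h3]
    nlinarith
  have h4 : Real.exp (-(((4096 * (D + 1) : ℕ) * (2 * σ)) * (2 : ℝ) ^ D / 2))
      ≤ Real.exp (-((2 : ℝ) * D + 2)) := Real.exp_le_exp.2 (by linarith)
  have he1 : (2 : ℝ) ≤ Real.exp 1 := by
    have := Real.add_one_le_exp (1 : ℝ)
    linarith
  have he2 : Real.exp 2 = Real.exp 1 * Real.exp 1 := by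
    rw [← Real.exp_add]; norm_num
  have he3 : (7 : ℝ) ≤ Real.exp 2 := by
    have := Real.exp_one_gt_d9
    rw [he2]
    nlinarith
  have h5 : ((2 : ℝ) ^ D) ^ 2 ≤ Real.exp (2 * D) := by
    have h6 : ((2 : ℝ) ^ D) ^ 2 = (4 : ℝ) ^ D := by
      rw [← pow_mul, mul_comm, pow_mul]; norm_num
    rw [h6]
    have h7 : Real.exp (2 * D) = (Real.exp 2) ^ D := by
      rw [← Real.exp_nat_mul]; ring_nf
    rw [h7]
    exact pow_le_pow_left₀ (by norm_num) (by linarith) D
  calc ((2 : ℝ) ^ D) ^ 2 * Real.exp (-(((4096 * (D + 1) : ℕ) * (2 * σ)) * (2 : ℝ) ^ D / 2))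
      ≤ Real.exp (2 * D) * Real.exp (-((2 : ℝ) * D + 2)) := by
        exact mul_le_mul h5 h4 (Real.exp_pos _).le (Real.exp_pos _).le
    _ = Real.exp (-2) := by
        rw [← Real.exp_add]; ring_nf
    _ ≤ 1 / 5 := by
        rw [Real.exp_neg, ← one_div]
        exact one_div_le_one_div_of_le (by norm_num) (by linarith)

/-- **Assembly**: the total variation bound from the comparison inequality. -/
theorem tv_thorp_of_compare (d : ℕ) (σ : ℝ) (hs : 1 / 2048 ≤ σ * 2 ^ (d + 1))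
    (hW : ∀ f : ThorpL2.Fn (Fin (2 * 2 ^ d)),
      ‖W (d + 1) (piE d) f‖ ≤ ‖heat (lap univ (piE d)) (-σ) f‖) :
    tvDist (convPow (thorpLaw (2 ^ d)) ((d + 1) * (4096 * (d + 1 + 1)))) (unif _) ≤ 1 / 4 := by
  have : Nonempty (Fin (2 * 2 ^ d)) := ⟨⟨0, by positivity⟩⟩
  have hσ : 0 ≤ σ := by
    by_contra h
    push Not at h
    have h2 : σ * 2 ^ (d + 1) < 0 := mul_neg_of_neg_of_pos h (by positivity)
    have h3 : (0 : ℝ) < 1 / 2048 := by norm_num
    linarith
  have hcard : Fintype.card (Fin (2 * 2 ^ d)) = 2 ^ (d + 1) := by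
    rw [Fintype.card_fin, pow_succ]; ring
  have hyp : ∀ (l : ℝ) (f : ThorpL2.Fn (Fin (2 * 2 ^ d))), ThorpL2.Dl f = l • f →
      ‖((ThorpL2.convOp (thorpLaw (2 ^ d))) ^ (d + 1)) f‖ ^ 2
        ≤ Real.exp (-((2 * σ) * l)) * ‖f‖ ^ 2 := by
    intro l f hf
    rw [convOp_pow_eq, theta_pow]
    have h1 := hW f
    have h2 : lap univ (piE d) f = l • f := by rw [lap_piE, hf]
    rw [heat_eigen _ f l (-σ) h2, norm_smul, Real.norm_eq_abs, abs_of_pos (Real.exp_pos _)] at h1
    have h3 : Real.exp (-((2 * σ) * l)) = Real.exp (-σ * l) ^ 2 := by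
      rw [← Real.exp_nat_mul]; congr 1; push_cast; ring
    rw [h3, ← mul_pow]
    exact pow_le_pow_left₀ (norm_nonneg _) h1 2
  have hnum := numeric_cond (d + 1) σ hs
  have hmain := ThorpL2.tv_le_quarter (thorpLaw_sum (2 ^ d)) (b := 2 * σ) (by positivity) (d + 1) hyp
    (4096 * (d + 1 + 1)) (by
      rw [hcard]
      push_cast at hnum ⊢
      exact hnum)
  unfold tvDist unif
  rw [convPow_eq_thorpL2, Fintype.card_perm]
  exact hmain

/-- Final form. -/
theorem tv_thorp_all (d t : ℕ) (σ : ℝ) (hs : 1 / 2048 ≤ σ * 2 ^ (d + 1))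
    (hW : ∀ f : ThorpL2.Fn (Fin (2 * 2 ^ d)),
      ‖W (d + 1) (piE d) f‖ ≤ ‖heat (lap univ (piE d)) (-σ) f‖)
    (ht : (d + 1) * (4096 * (d + 1 + 1)) ≤ t) :
    tvDist (convPow (thorpLaw (2 ^ d)) t) (unif _) ≤ 1 / 4 :=
  (tv_antitone (thorpLaw (2 ^ d)) (thorpLaw_nonneg _) (thorpLaw_sum _) ht).trans
    (tv_thorp_of_compare d σ hs hW)

end Vale.Agent.Lib.P162
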