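import Vale.Agent.Lib.P162.Rep

/-!
# The column step and the layered operator `W`

`Q = Fin 2 × C`.  Coins `c : C → Fin 2`, `flip c (b, x) = (b + c x, x)`.
`Col π` is the average of `π (flip c)`.  `iota b` is the extension of a permutation of `C` to the
slice `{b} × C`.  `W d π` is defined by recursion on the number of bits `d`, for a representation
of the permutations of the cube `Fin d → Fin 2`:

`W (d+1) π = W d π₀ * W d π₁ * Col π'`, where `π' = π ∘ (conjugation by the bit-0 splitting)`
and `π_b = π' ∘ iota b`.
-/

namespace Vale.Agent.Lib.P162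

open Equiv Finset

variable {H : Type*} [NormedAddCommGroup H] [InnerProductSpace ℝ H]

section column

set_option linter.unusedSectionVars false
set_option linter.unusedDecidableInType false

variable {C : Type*} [DecidableEq C]

/-- The column flip with coins `c`. -/
def flip (c : C → Fin 2) : Perm (Fin 2 × C) where
  toFun p := (p.1 + c p.2, p.2)
  invFun p := (p.1 + c p.2, p.2)
  left_inv p := by
    obtain ⟨b, x⟩ := p
    ext1
    · have : ∀ a e : Fin 2, a + e + e = a := by decide
      exact this _ _
    · rfl
  right_inv p := by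
    obtain ⟨b, x⟩ := p
    ext1
    · have : ∀ a e : Fin 2, a + e + e = a := by decide
      exact this _ _
    · rfl

@[simp] theorem flip_apply (c : C → Fin 2) (b : Fin 2) (x : C) : flip c (b, x) = (b + c x, x) := rfl

/-- Extension of a permutation of `C` to the slice `{b} × C`, identity elsewhere. -/
def iota (b : Fin 2) : Perm C →* Perm (Fin 2 × C) where
  toFun g :=
    { toFun := fun p => if p.1 = b then (p.1, g p.2) else p
      invFun := fun p => if p.1 = b then (p.1, g⁻¹ p.2) else p
      left_inv := fun p => by
        obtain ⟨a, x⟩ := p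
        by_cases h : a = b
        · simp [h]
        · simp [h]
      right_inv := fun p => by
        obtain ⟨a, x⟩ := p
        by_cases h : a = b
        · simp [h]
        · simp [h] }
  map_one' := by
    ext1 p
    obtain ⟨a, x⟩ := p
    by_cases h : a = b
    · simp [h]
    · simp
  map_mul' g k := by
    ext1 p
    obtain ⟨a, x⟩ := p
    by_cases h : a = b
    · simp [h]
    · simp [h]

@[simp] theorem iota_apply_same (b : Fin 2) (g : Perm C) (x : C) : iota b g (b, x) = (b, g x) := by
  simp [iota]

theorem iota_apply_ne {b b' : Fin 2} (h : b' ≠ b) (g : Perm C) (x : C) :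
    iota b g (b', x) = (b', x) := by
  simp [iota, h]

variable [Fintype C]

/-- The column average: the average of `π (flip c)` over all coins. -/
noncomputable def Col (π : Perm (Fin 2 × C) →* (H →L[ℝ] H)) : H →L[ℝ] H :=
  ((1 : ℝ) / 2 ^ Fintype.card C) • ∑ c : C → Fin 2, π (flip c)

end column

/-- The splitting of the cube `Fin (d+1) → Fin 2` into the bit `0` and the rest. -/
def split (d : ℕ) : Fin 2 × (Fin d → Fin 2) ≃ (Fin (d + 1) → Fin 2) :=
  Fin.consEquiv (fun _ => Fin 2)

/-- Conjugation by the splitting of the cube. -/
def splitHom (d : ℕ) : Perm (Fin 2 × (Fin d → Fin 2)) →* Perm (Fin (d + 1) → Fin 2) :=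
  (split d).permCongrHom.toMonoidHom

theorem splitHom_swap (d : ℕ) (p q : Fin 2 × (Fin d → Fin 2)) :
    splitHom d (swap p q) = swap (split d p) (split d q) := by
  exact Equiv.symm_trans_swap_trans p q (split d)

/-- The layered operator. -/
noncomputable def W : (d : ℕ) → (Perm (Fin d → Fin 2) →* (H →L[ℝ] H)) → (H →L[ℝ] H)
  | 0, _ => 1
  | d + 1, π =>
    let π' : Perm (Fin 2 × (Fin d → Fin 2)) →* (H →L[ℝ] H) := π.comp (splitHom d)
    W d (π'.comp (iota 0)) * W d (π'.comp (iota 1)) * Col π'

/-- The time scale of the comparison. -/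
noncomputable def sig : ℕ → ℝ
  | 0 => 1 / 128
  | d + 1 => sig d * (1 / 2 - 3 / (8 * 2 ^ d))

end Vale.Agent.Lib.P162
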