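import Vale.Agent.Lib.P162.Gronwall
import Vale.Agent.Lib.P162.Layer

/-!
# The sector decomposition of the column step
-/

namespace Vale.Agent.Lib.P162

open Equiv Finset
open scoped RealInnerProductSpace

set_option linter.unusedSectionVars false
set_option linter.unusedDecidableInType false

/-- The sign of a bit. -/
noncomputable def eps (b : Fin 2) : ℝ := 1 - 2 * bitR b

@[simp] theorem eps_zero : eps 0 = 1 := by simp [eps]
@[simp] theorem eps_one : eps 1 = -1 := by simp [eps]; norm_num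

theorem eps_add (a b : Fin 2) : eps (a + b) = eps a * eps b := by
  rcases fin2_cases a with rfl | rfl <;> rcases fin2_cases b with rfl | rfl
  · simp
  · simp
  · simp
  · have : (1 : Fin 2) + 1 = 0 := by decide
    rw [this]
    simp

theorem eps_mul_self (a : Fin 2) : eps a * eps a = 1 := by
  rcases fin2_cases a with rfl | rfl <;> simp

theorem eps_abs (a : Fin 2) : |eps a| = 1 := by
  rcases fin2_cases a with rfl | rfl <;> simp

variable {C : Type*} [Fintype C] [DecidableEq C]

/-- The character of `(Z/2)^C`. -/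
noncomputable def chi (s c : C → Fin 2) : ℝ := ∏ x, eps (s x * c x)

theorem chi_comm (s c : C → Fin 2) : chi s c = chi c s := by
  unfold chi
  refine Finset.prod_congr rfl fun x _ => ?_
  rw [mul_comm]

theorem chi_add_left (s s' c : C → Fin 2) : chi (s + s') c = chi s c * chi s' c := by
  unfold chi
  rw [← Finset.prod_mul_distrib]
  refine Finset.prod_congr rfl fun x _ => ?_
  rw [Pi.add_apply, add_mul, eps_add]

theorem chi_add_right (s c c' : C → Fin 2) : chi s (c + c') = chi s c * chi s c' := by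
  rw [chi_comm, chi_add_left, chi_comm c, chi_comm c']

theorem chi_zero_left (c : C → Fin 2) : chi 0 c = 1 := by
  simp [chi]

theorem chi_mul_self (s c : C → Fin 2) : chi s c * chi s c = 1 := by
  unfold chi
  rw [← Finset.prod_mul_distrib]
  exact Finset.prod_eq_one fun x _ => eps_mul_self _

theorem sum_chi (s : C → Fin 2) :
    ∑ c, chi s c = if s = 0 then (2 : ℝ) ^ Fintype.card C else 0 := by
  have h : ∑ c : C → Fin 2, ∏ x, eps (s x * c x) = ∏ x, ∑ b : Fin 2, eps (s x * b) := by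
    rw [Finset.prod_univ_sum, Fintype.piFinset_univ]
  unfold chi
  rw [h]
  split_ifs with hs
  · subst hs
    simp [Finset.card_univ]
  · obtain ⟨x, hx⟩ := Function.ne_iff.mp hs
    apply Finset.prod_eq_zero (Finset.mem_univ x)
    have h1 : s x = 1 := by
      rcases fin2_cases (s x) with h0 | h0
      · exact absurd h0 hx
      · exact h0
    rw [h1]
    simp [Fin.sum_univ_two]

theorem sum_chi' (c : C → Fin 2) :
    ∑ s, chi s c = if c = 0 then (2 : ℝ) ^ Fintype.card C else 0 := by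
  simp_rw [chi_comm _ c]
  exact sum_chi c

theorem chi_kk {x y : C} (h : x ≠ y) (c : C → Fin 2) : chi (kk x y) c = eps (c x) * eps (c y) := by
  unfold chi
  rw [← Finset.mul_prod_erase _ _ (Finset.mem_univ x),
    ← Finset.mul_prod_erase _ _ (Finset.mem_erase.mpr ⟨h.symm, Finset.mem_univ y⟩)]
  rw [kk_apply_left h, kk_apply_right h, one_mul, one_mul]
  have : ∏ z ∈ ((univ : Finset C).erase x).erase y, eps (kk x y z * c z) = 1 := by
    refine Finset.prod_eq_one fun z hz => ?_
    have h1 : z ≠ y := Finset.ne_of_mem_erase hz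
    have h2 : z ≠ x := Finset.ne_of_mem_erase (Finset.mem_of_mem_erase hz)
    rw [kk_apply_other h2 h1]
    simp
  rw [this, mul_one]

theorem chi_single (s : C → Fin 2) (x : C) : chi s (Pi.single x 1) = eps (s x) := by
  unfold chi
  rw [← Finset.mul_prod_erase _ _ (Finset.mem_univ x)]
  have : ∏ z ∈ (univ : Finset C).erase x, eps (s z * (Pi.single x 1 : C → Fin 2) z) = 1 := by
    refine Finset.prod_eq_one fun z hz => ?_
    rw [Pi.single_eq_of_ne (Finset.ne_of_mem_erase hz)]
    simp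
  rw [this, mul_one, Pi.single_eq_same, mul_one]

/-! ### flips -/

theorem flip_add (c c' : C → Fin 2) : flip (c + c') = flip c * flip c' := by
  ext1 p
  obtain ⟨b, x⟩ := p
  simp only [Perm.coe_mul, Function.comp_apply, flip_apply, Pi.add_apply]
  ext1
  · have : ∀ a e e' : Fin 2, a + (e + e') = a + e' + e := by decide
    exact this _ _ _
  · rfl

theorem flip_zero : flip (0 : C → Fin 2) = 1 := by
  ext1 p
  obtain ⟨b, x⟩ := p
  simp

theorem flip_inv (c : C → Fin 2) : (flip c)⁻¹ = flip c := rfl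

theorem flip_single (x : C) : flip (Pi.single x 1 : C → Fin 2) = swap ((0 : Fin 2), x) ((1 : Fin 2), x) := by
  ext1 p
  obtain ⟨b, z⟩ := p
  by_cases hz : z = x
  · subst hz
    rcases fin2_cases b with rfl | rfl
    · simp
    · have : (1 : Fin 2) + 1 = 0 := by decide
      simp [this]
  · have h1 : (b, z) ≠ ((0 : Fin 2), x) := fun h => hz (Prod.ext_iff.mp h).2
    have h2 : (b, z) ≠ ((1 : Fin 2), x) := fun h => hz (Prod.ext_iff.mp h).2
    rw [Equiv.swap_apply_of_ne_of_ne h1 h2]
    simp [Pi.single_eq_of_ne hz]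

theorem iota_swap (b : Fin 2) (x y : C) : iota b (swap x y) = swap (b, x) (b, y) := by
  ext1 p
  obtain ⟨a, z⟩ := p
  by_cases h : a = b
  · subst h
    rw [iota_apply_same]
    exact ((Prod.mk_right_injective a).swap_apply x y z).symm
  · rw [iota_apply_ne h]
    have h1 : (a, z) ≠ (b, x) := fun e => h (Prod.ext_iff.mp e).1
    have h2 : (a, z) ≠ (b, y) := fun e => h (Prod.ext_iff.mp e).1
    rw [Equiv.swap_apply_of_ne_of_ne h1 h2]

variable {H : Type*} [NormedAddCommGroup H] [InnerProductSpace ℝ H]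

/-! ### sector projections -/

/-- The sector projection. -/
noncomputable def PP (π : Perm (Fin 2 × C) →* (H →L[ℝ] H)) (s : C → Fin 2) : H →L[ℝ] H :=
  ((1 : ℝ) / 2 ^ Fintype.card C) • ∑ c : C → Fin 2, chi s c • π (flip c)

theorem Col_eq_PP (π : Perm (Fin 2 × C) →* (H →L[ℝ] H)) : Col π = PP π 0 := by
  simp [Col, PP, chi_zero_left]

theorem rep_flip_mul_PP (π : Perm (Fin 2 × C) →* (H →L[ℝ] H)) (e s : C → Fin 2) :
    π (flip e) * PP π s = chi s e • PP π s := by
  have key : ∑ c : C → Fin 2, π (flip e) * (chi s c • π (flip c))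
      = chi s e • ∑ c : C → Fin 2, chi s c • π (flip c) := by
    rw [Finset.smul_sum]
    have h : ∀ c : C → Fin 2, π (flip e) * (chi s c • π (flip c))
        = (fun c' : C → Fin 2 => chi s e • chi s c' • π (flip c')) (e + c) := by
      intro c
      simp only
      rw [mul_smul_comm, flip_add, map_mul, chi_add_right, smul_smul, ← mul_assoc, chi_mul_self,
        one_mul]
    simp_rw [h]
    exact Equiv.sum_comp (Equiv.addLeft e) (fun c' : C → Fin 2 => chi s e • chi s c' • π (flip c'))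
  unfold PP
  rw [mul_smul_comm, Finset.mul_sum, key, smul_comm]

theorem PP_mul (π : Perm (Fin 2 × C) →* (H →L[ℝ] H)) (s s' : C → Fin 2) :
    PP π s * PP π s' = if s = s' then PP π s' else 0 := by
  have h1 : PP π s * PP π s' = ((1 : ℝ) / 2 ^ Fintype.card C) • ∑ c : C → Fin 2,
      (chi s c * chi s' c) • PP π s' := by
    conv_lhs => rw [PP]
    rw [smul_mul_assoc, Finset.sum_mul]
    congr 1
    refine Finset.sum_congr rfl fun c _ => ?_
    rw [smul_mul_assoc, rep_flip_mul_PP, smul_smul]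
  rw [h1, ← Finset.sum_smul]
  have h2 : ∑ c : C → Fin 2, chi s c * chi s' c = if s = s' then (2 : ℝ) ^ Fintype.card C else 0 := by
    simp_rw [← chi_add_left]
    rw [sum_chi]
    have h3 : s + s' = 0 ↔ s = s' := by
      constructor
      · intro h
        funext z
        have h4 := congrFun h z
        have : ∀ a b : Fin 2, a + b = 0 → a = b := by decide
        exact this _ _ h4
      · intro h
        subst h
        funext z
        have : ∀ a : Fin 2, a + a = 0 := by decide
        exact this _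
    simp only [h3]
  rw [h2]
  split_ifs
  · rw [smul_smul]
    norm_num
  · simp

theorem PP_sum (π : Perm (Fin 2 × C) →* (H →L[ℝ] H)) : ∑ s, PP π s = 1 := by
  unfold PP
  rw [← Finset.smul_sum]
  have h : ∑ s : C → Fin 2, ∑ c : C → Fin 2, chi s c • π (flip c)
      = ∑ c : C → Fin 2, (∑ s : C → Fin 2, chi s c) • π (flip c) := by
    rw [Finset.sum_comm]
    refine Finset.sum_congr rfl fun c _ => ?_
    rw [Finset.sum_smul]
  rw [h]
  simp_rw [sum_chi', ite_smul, zero_smul]
  rw [Finset.sum_ite_eq' Finset.univ (0 : C → Fin 2)]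
  simp only [Finset.mem_univ, if_true, flip_zero, map_one]
  rw [smul_smul]
  norm_num

theorem PP_symm {π : Perm (Fin 2 × C) →* (H →L[ℝ] H)} (hπ : IsOrth π) (s : C → Fin 2) (u v : H) :
    ⟪PP π s u, v⟫ = ⟪u, PP π s v⟫ := by
  unfold PP
  simp only [smul_apply, _root_.sum_apply]
  rw [inner_smul_left, inner_smul_right, sum_inner, inner_sum]
  congr 1
  refine Finset.sum_congr rfl fun c _ => ?_
  rw [inner_smul_left, inner_smul_right, hπ.symm_of_invol _ (flip_inv c)]
  simp

theorem PP_idem (π : Perm (Fin 2 × C) →* (H →L[ℝ] H)) (s : C → Fin 2) (u : H) :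
    PP π s (PP π s u) = PP π s u := by
  rw [← mul_apply_eq_comp, PP_mul, if_pos rfl]

theorem PP_parseval {π : Perm (Fin 2 × C) →* (H →L[ℝ] H)} (hπ : IsOrth π) (u : H) :
    ∑ s, ‖PP π s u‖ ^ 2 = ‖u‖ ^ 2 := by
  have h1 : ∀ s, ‖PP π s u‖ ^ 2 = ⟪u, PP π s u⟫ := by
    intro s
    rw [← real_inner_self_eq_norm_sq, PP_symm hπ, PP_idem]
  simp_rw [h1]
  rw [← inner_sum, ← real_inner_self_eq_norm_sq]
  congr 1
  have := congrArg (fun T : H →L[ℝ] H => T u) (PP_sum π)
  simpa using this

/-! ### the pair operators -/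

/-- The pair operator. -/
noncomputable def AA (π : Perm (Fin 2 × C) →* (H →L[ℝ] H)) (x y : C) : H →L[ℝ] H :=
  (1 / 2 : ℝ) • ∑ b : Fin 2, ∑ b' : Fin 2, (eps b * eps b') • π (swap (b, x) (b', y))

theorem AA_conj (π : Perm (Fin 2 × C) →* (H →L[ℝ] H)) (c : C → Fin 2) (x y : C) :
    π (flip c) * AA π x y = (eps (c x) * eps (c y)) • (AA π x y * π (flip c)) := by
  have key : ∑ b : Fin 2, ∑ b' : Fin 2, (eps b * eps b') • (π (flip c) * π (swap (b, x) (b', y)))
      = (eps (c x) * eps (c y)) •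
        ∑ b : Fin 2, ∑ b' : Fin 2, (eps b * eps b') • (π (swap (b, x) (b', y)) * π (flip c)) := by
    rw [Finset.smul_sum]
    conv_rhs => rw [← Equiv.sum_comp (Equiv.addRight (c x))]
    refine Finset.sum_congr rfl fun b _ => ?_
    simp only [Equiv.coe_addRight]
    rw [Finset.smul_sum]
    conv_rhs => rw [← Equiv.sum_comp (Equiv.addRight (c y))]
    refine Finset.sum_congr rfl fun b' _ => ?_
    simp only [Equiv.coe_addRight]
    rw [rep_conj_swap, smul_smul]
    simp only [flip_apply]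
    congr 1
    rw [eps_add b, eps_add b']
    have h1 := eps_mul_self (c x)
    have h2 := eps_mul_self (c y)
    calc eps b * eps b' = (eps (c x) * eps (c x)) * (eps (c y) * eps (c y)) * (eps b * eps b') := by
          rw [h1, h2]; ring
      _ = _ := by ring
  unfold AA
  rw [mul_smul_comm, smul_mul_assoc, smul_comm]
  congr 1
  rw [Finset.mul_sum, Finset.sum_mul]
  simp_rw [Finset.mul_sum, Finset.sum_mul, mul_smul_comm, smul_mul_assoc]
  exact key

theorem PP_AA (π : Perm (Fin 2 × C) →* (H →L[ℝ] H)) {x y : C} (hxy : x ≠ y) (s : C → Fin 2) :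
    PP π s * AA π x y = AA π x y * PP π (s + kk x y) := by
  unfold PP
  rw [smul_mul_assoc, mul_smul_comm]
  congr 1
  rw [Finset.sum_mul, Finset.mul_sum]
  refine Finset.sum_congr rfl fun c _ => ?_
  rw [smul_mul_assoc, AA_conj, chi_add_left, chi_kk hxy, mul_smul_comm, smul_smul]

theorem AA_symm {π : Perm (Fin 2 × C) →* (H →L[ℝ] H)} (hπ : IsOrth π) (x y : C) (u v : H) :
    ⟪AA π x y u, v⟫ = ⟪u, AA π x y v⟫ := by
  unfold AA
  simp only [smul_apply, _root_.sum_apply]
  rw [inner_smul_left, inner_smul_right, sum_inner, inner_sum]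
  congr 1
  refine Finset.sum_congr rfl fun b _ => ?_
  rw [sum_inner, inner_sum]
  refine Finset.sum_congr rfl fun b' _ => ?_
  rw [inner_smul_left, inner_smul_right, hπ.symm_swap]
  simp

theorem AA_apply (π : Perm (Fin 2 × C) →* (H →L[ℝ] H)) (x y : C) (u : H) :
    AA π x y u = (1 / 2 : ℝ) • (π (swap (0, x) (0, y)) u - π (swap (0, x) (1, y)) u
      - π (swap (1, x) (0, y)) u + π (swap (1, x) (1, y)) u) := by
  unfold AA
  rw [smul_apply]
  congr 1
  simp only [Fin.sum_univ_two, add_apply, smul_apply, eps_zero, eps_one]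
  module

theorem AA_norm {π : Perm (Fin 2 × C) →* (H →L[ℝ] H)} (hπ : IsOrth π) (x y : C) (u : H) :
    ‖AA π x y u‖ ≤ 2 * ‖u‖ := by
  rw [AA_apply, norm_smul]
  have h1 : ‖π (swap (0, x) (0, y)) u - π (swap (0, x) (1, y)) u
      - π (swap (1, x) (0, y)) u + π (swap (1, x) (1, y)) u‖ ≤ 4 * ‖u‖ := by
    refine (norm_add_le _ _).trans ?_
    rw [hπ.norm]
    have h2 := norm_sub_le (π (swap (0, x) (0, y)) u - π (swap (0, x) (1, y)) u)
      (π (swap (1, x) (0, y)) u)
    have h3 := norm_sub_le (π (swap (0, x) (0, y)) u) (π (swap (0, x) (1, y)) u)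
    rw [hπ.norm] at h2 h3
    rw [hπ.norm] at h3
    linarith
  simp only [one_div, norm_inv, Real.norm_ofNat]
  linarith

theorem AA_diag (π : Perm (Fin 2 × C) →* (H →L[ℝ] H)) (x : C) (s : C → Fin 2) (u : H) :
    AA π x x (PP π s u) = (2 * bitR (s x)) • PP π s u := by
  rw [AA_apply]
  have h0 : ∀ b : Fin 2, swap ((b, x) : Fin 2 × C) (b, x) = 1 := fun b => Equiv.swap_self _
  have h1 : swap ((1 : Fin 2), x) ((0 : Fin 2), x) = swap ((0 : Fin 2), x) ((1 : Fin 2), x) :=
    Equiv.swap_comm _ _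
  have h2 : π (swap ((0 : Fin 2), x) ((1 : Fin 2), x)) (PP π s u) = eps (s x) • PP π s u := by
    rw [← flip_single, ← mul_apply_eq_comp, rep_flip_mul_PP, chi_single, smul_apply]
  rw [h0, h0, h1, h2]
  simp only [map_one, one_apply_eq_self]
  have : (1 / 2 : ℝ) • (PP π s u - eps (s x) • PP π s u - eps (s x) • PP π s u + PP π s u)
      = (1 - eps (s x)) • PP π s u := by
    module
  rw [this]
  congr 1
  unfold eps
  ring

theorem PP_lap {π : Perm (Fin 2 × C) →* (H →L[ℝ] H)} (s : C → Fin 2) (u : H) :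
    PP π s (lap univ π u) = lap univ π (PP π s u) := by
  have h : Commute (PP π s) (lap univ π) := by
    unfold PP
    apply Commute.smul_left
    apply Commute.sum_left
    intro c _
    apply Commute.smul_left
    exact lap_comm univ (flip c) (by simp)
  have := congrArg (fun T : H →L[ℝ] H => T u) h.eq
  simpa using this

theorem AA_energy_term {π : Perm (Fin 2 × C) →* (H →L[ℝ] H)} (x y : C) (v : H) :
    ‖AA π x y v‖ ^ 2 ≤ ∑ b : Fin 2, ∑ b' : Fin 2, ‖v - π (swap (b, x) (b', y)) v‖ ^ 2 := by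
  rw [AA_apply]
  simp only [Fin.sum_univ_two]
  set a := v - π (swap (0, x) (0, y)) v
  set b := v - π (swap (0, x) (1, y)) v
  set c := v - π (swap (1, x) (0, y)) v
  set d := v - π (swap (1, x) (1, y)) v
  have e : π (swap (0, x) (0, y)) v - π (swap (0, x) (1, y)) v
      - π (swap (1, x) (0, y)) v + π (swap (1, x) (1, y)) v = -a + b + c - d := by
    simp only [a, b, c, d]
    abel
  rw [e, norm_smul]
  have h1 : ‖-a + b + c - d‖ ≤ ‖a‖ + ‖b‖ + ‖c‖ + ‖d‖ := by
    refine (norm_sub_le _ _).trans ?_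
    have h2 := norm_add_le (-a + b) c
    have h3 := norm_add_le (-a) b
    rw [norm_neg] at h3
    linarith
  have h0 : 0 ≤ ‖-a + b + c - d‖ := norm_nonneg _
  have h2 : ‖(1 / 2 : ℝ)‖ = 1 / 2 := by norm_num
  rw [h2]
  have ha := norm_nonneg a
  have hb := norm_nonneg b
  have hc := norm_nonneg c
  have hd := norm_nonneg d
  have h3 : ‖-a + b + c - d‖ ^ 2 ≤ (‖a‖ + ‖b‖ + ‖c‖ + ‖d‖) ^ 2 := by
    apply pow_le_pow_left₀ h0 h1
  nlinarith [sq_nonneg (‖a‖ - ‖b‖), sq_nonneg (‖a‖ - ‖c‖), sq_nonneg (‖a‖ - ‖d‖),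
    sq_nonneg (‖b‖ - ‖c‖), sq_nonneg (‖b‖ - ‖d‖), sq_nonneg (‖c‖ - ‖d‖)]

theorem sum_prod_prod {E : Type*} [AddCommMonoid E] (f : Fin 2 × C → Fin 2 × C → E) :
    ∑ p, ∑ q, f p q = ∑ x, ∑ y, ∑ b : Fin 2, ∑ b' : Fin 2, f (b, x) (b', y) := by
  simp_rw [Fintype.sum_prod_type]
  rw [Finset.sum_comm]
  refine Finset.sum_congr rfl fun x _ => ?_
  calc ∑ b : Fin 2, ∑ b' : Fin 2, ∑ y, f (b, x) (b', y)
      = ∑ b : Fin 2, ∑ y, ∑ b' : Fin 2, f (b, x) (b', y) :=
        Finset.sum_congr rfl fun b _ => Finset.sum_comm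
    _ = _ := Finset.sum_comm

theorem AA_energy {π : Perm (Fin 2 × C) →* (H →L[ℝ] H)} (hπ : IsOrth π) (v : H) :
    ∑ x, ∑ y ∈ univ.erase x, ‖AA π x y v‖ ^ 2 ≤ 4 * ⟪v, lap univ π v⟫ := by
  have h1 : 4 * ⟪v, lap univ π v⟫
      = ∑ x, ∑ y, ∑ b : Fin 2, ∑ b' : Fin 2, ‖v - π (swap (b, x) (b', y)) v‖ ^ 2 := by
    rw [inner_lap hπ, sum_prod_prod]
    simp only [Finset.mul_sum]
    refine Finset.sum_congr rfl fun x _ => Finset.sum_congr rfl fun y _ =>
      Finset.sum_congr rfl fun b _ => Finset.sum_congr rfl fun b' _ => ?_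
    ring
  rw [h1]
  calc ∑ x, ∑ y ∈ univ.erase x, ‖AA π x y v‖ ^ 2
      ≤ ∑ x, ∑ y ∈ univ.erase x, ∑ b : Fin 2, ∑ b' : Fin 2, ‖v - π (swap (b, x) (b', y)) v‖ ^ 2 :=
        Finset.sum_le_sum fun x _ => Finset.sum_le_sum fun y _ => AA_energy_term x y v
    _ ≤ _ := Finset.sum_le_sum fun x _ => Finset.sum_le_sum_of_subset_of_nonneg
        (Finset.erase_subset _ _) fun y _ _ =>
          Finset.sum_nonneg fun _ _ => Finset.sum_nonneg fun _ _ => by positivity

theorem lap_le_card {π : Perm (Fin 2 × C) →* (H →L[ℝ] H)} (hπ : IsOrth π) (v : H) :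
    ⟪v, lap univ π v⟫ ≤ 4 * (Fintype.card C : ℝ) ^ 2 * ‖v‖ ^ 2 := by
  have h := inner_lap_le hπ univ v
  have hc : (((univ : Finset (Fin 2 × C)).card : ℕ) : ℝ) = 2 * (Fintype.card C : ℝ) := by
    simp [Finset.card_univ, Fintype.card_prod]
  rw [hc] at h
  refine h.trans (le_of_eq ?_)
  ring

/-- The sector data of the column step. -/
theorem sectorData {π : Perm (Fin 2 × C) →* (H →L[ℝ] H)} (hπ : IsOrth π) :
    SectorData (PP π) (AA π) (lap univ π) where
  P_symm := PP_symm hπ
  P_idem := PP_idem π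
  A_symm := AA_symm hπ
  A_norm := AA_norm hπ
  P_A := fun x y s u hxy => by
    rw [← mul_apply_eq_comp, PP_AA π hxy, mul_apply_eq_comp]
  A_diag := AA_diag π
  P_D := PP_lap
  energy := AA_energy hπ
  D_le := lap_le_card hπ

/-- The Laplacian of a slice representation. -/
theorem lap_slice (π : Perm (Fin 2 × C) →* (H →L[ℝ] H)) (b : Fin 2) :
    lap univ (π.comp (iota b))
      = ∑ x, ∑ y, (1 / 2 : ℝ) • (1 - π (swap (b, x) (b, y))) := by
  unfold lap
  refine Finset.sum_congr rfl fun x _ => Finset.sum_congr rfl fun y _ => ?_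
  simp [iota_swap]

/-- The energy identity. -/
theorem lap_identity (π : Perm (Fin 2 × C) →* (H →L[ℝ] H)) :
    (1 / 2 : ℝ) • lap univ π - (lap univ (π.comp (iota 0)) + lap univ (π.comp (iota 1)))
      = (1 / 2 : ℝ) • ∑ x, ∑ y, AA π x y := by
  rw [lap_slice, lap_slice]
  unfold lap
  rw [sum_prod_prod]
  simp only [← Finset.sum_add_distrib, Finset.smul_sum, ← Finset.sum_sub_distrib]
  refine Finset.sum_congr rfl fun x _ => Finset.sum_congr rfl fun y _ => ?_
  unfold AA
  simp only [Fin.sum_univ_two, eps_zero, eps_one]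
  module

end Vale.Agent.Lib.P162
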