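import Vale.Agent.Lib.P162.Column

/-!
# The key lemma and the comparison with the heat semigroup of random transpositions
-/

namespace Vale.Agent.Lib.P162

open Equiv Finset
open scoped RealInnerProductSpace

set_option linter.unusedSectionVars false
set_option linter.unusedDecidableInType false

variable {H : Type*} [NormedAddCommGroup H] [InnerProductSpace ℝ H] [CompleteSpace H]

section keylemma

variable {C : Type*} [Fintype C] [DecidableEq C]

theorem PP_comm_lap (π : Perm (Fin 2 × C) →* (H →L[ℝ] H)) (s : C → Fin 2) :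
    Commute (PP π s) (lap univ π) := by
  unfold PP
  apply Commute.smul_left
  apply Commute.sum_left
  intro c _
  apply Commute.smul_left
  exact lap_comm univ (flip c) (by simp)

theorem lap_comm_slice (π : Perm (Fin 2 × C) →* (H →L[ℝ] H)) (b : Fin 2) :
    Commute (lap univ π) (lap univ (π.comp (iota b))) := by
  rw [lap_slice]
  apply Commute.sum_right
  intro x _
  apply Commute.sum_right
  intro y _
  apply Commute.smul_right
  apply Commute.sub_right (Commute.one_right _)
  exact (lap_comm univ _ (by simp)).symm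

theorem iota_slices_comm (a g : Perm C) : Commute (iota 0 a) (iota 1 g) := by
  unfold Commute SemiconjBy
  ext1 p
  obtain ⟨b, z⟩ := p
  rcases fin2_cases b with rfl | rfl
  · have h : (0 : Fin 2) ≠ 1 := by decide
    simp only [Perm.coe_mul, Function.comp_apply]
    rw [iota_apply_ne h, iota_apply_same, iota_apply_ne h]
  · have h : (1 : Fin 2) ≠ 0 := by decide
    simp only [Perm.coe_mul, Function.comp_apply]
    rw [iota_apply_same, iota_apply_ne h, iota_apply_ne h, iota_apply_same]

theorem lap_slice_comm_rep (π : Perm (Fin 2 × C) →* (H →L[ℝ] H)) (g : Perm C) :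
    Commute (lap univ (π.comp (iota 0))) (π (iota 1 g)) := by
  unfold lap
  apply Commute.sum_left
  intro x _
  apply Commute.sum_left
  intro y _
  apply Commute.smul_left
  apply Commute.sub_left (Commute.one_left _)
  simp only [MonoidHom.comp_apply]
  exact (iota_slices_comm _ _).map π

theorem lap_slices_comm (π : Perm (Fin 2 × C) →* (H →L[ℝ] H)) :
    Commute (lap univ (π.comp (iota 0))) (lap univ (π.comp (iota 1))) := by
  conv_rhs => unfold lap
  apply Commute.sum_right
  intro x _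
  apply Commute.sum_right
  intro y _
  apply Commute.smul_right
  apply Commute.sub_right (Commute.one_right _)
  exact lap_slice_comm_rep π _

/-- **Key lemma.** -/
theorem key_lemma {π : Perm (Fin 2 × C) →* (H →L[ℝ] H)} (hπ : IsOrth π)
    (hm : 1 ≤ (Fintype.card C : ℝ)) {σ : ℝ} (hσ0 : 0 ≤ σ)
    (hσ : 2 * σ * (Fintype.card C : ℝ) ≤ 1 / 64) (v : H) :
    ‖heat (lap univ (π.comp (iota 0)) + lap univ (π.comp (iota 1))) (-σ) (Col π v)‖
      ≤ ‖heat (lap univ π) (-(σ * (1 / 2 - 3 / (8 * (Fintype.card C : ℝ))))) (Col π v)‖ := by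
  set m := (Fintype.card C : ℝ) with hmdef
  set lam := 3 / (8 * m) with hlam
  set D := lap univ π with hD
  set E := lap univ (π.comp (iota 0)) + lap univ (π.comp (iota 1)) with hE
  set σ2 := σ * (1 / 2 - lam) with hσ2
  set Y : H →L[ℝ] H := (1 / 2 - lam) • D + (-E) with hYdef
  have hY : ∀ u, Y u = (1 / 2 : ℝ) • (∑ x, ∑ y, AA π x y u) - (3 / (8 * m)) • D u := by
    intro u
    have h1 : Y = (1 / 2 : ℝ) • (∑ x, ∑ y, AA π x y) - lam • D := by
      rw [hYdef, ← lap_identity π, ← hD, ← hE]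
      module
    rw [h1, ← hlam]
    simp only [sub_apply, smul_apply, _root_.sum_apply]
  have hSD := sectorData hπ
  set z := heat D (-σ2) (Col π v) with hz
  have hzP : ∀ s, s ≠ 0 → PP π s z = 0 := by
    intro s hs
    have hc : Commute (heat D (-σ2)) (PP π s) := heat_comm (PP_comm_lap π s).symm _
    have h0 : PP π s (Col π v) = 0 := by
      rw [Col_eq_PP, ← mul_apply_eq_comp, PP_mul, if_neg hs]
      simp
    have h1 := congrArg (fun T : H →L[ℝ] H => T (Col π v)) hc.eq
    simp only [mul_apply_eq_comp] at h1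
    rw [hz, ← h1, h0]
    simp
  have hν : (0 : ℝ) ≤ 32 * m := by positivity
  have hνT : Real.exp (2 * (32 * m * σ)) ≤ 2 := by
    have h1 : 2 * (32 * m * σ) ≤ 1 / 2 := by nlinarith
    refine (Real.exp_le_exp.mpr h1).trans ?_
    have h2 : Real.exp (1 / 2) ^ 2 = Real.exp 1 := by
      rw [← Real.exp_nat_mul]
      norm_num
    have h3 := Real.exp_one_lt_d9
    have h4 := Real.exp_pos (1 / 2 : ℝ)
    nlinarith
  have hG := gronwall (P := PP π) (Y := Y) (ν := 32 * m) (T := σ) hν hσ0 hνT (PP_symm hπ) (PP_idem π)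
    (PP_parseval hπ) (fun u θ h0 h1 => static_ineq hSD hm hY u h0 h1) hzP
  -- identify
  have hcomm : Commute ((1 / 2 - lam) • D) (-E) := by
    apply Commute.smul_left
    apply Commute.neg_right
    rw [hE]
    exact Commute.add_right (lap_comm_slice π 0) (lap_comm_slice π 1)
  have hheat : heat Y σ z = heat E (-σ) (Col π v) := by
    rw [hYdef, heat_add_op hcomm, heat_smul_op, heat_neg_op, mul_apply_eq_comp]
    have hc2 : Commute (heat E (-σ)) (heat D (-σ2)) :=
      heat_comm' (Commute.add_left (lap_comm_slice π 0).symm (lap_comm_slice π 1).symm) _ _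
    rw [hz, ← mul_apply_eq_comp (heat E (-σ)), hc2.eq, mul_apply_eq_comp, ← mul_apply_eq_comp,
      ← heat_add]
    have : σ * (1 / 2 - lam) + -σ2 = 0 := by rw [hσ2]; ring
    rw [this, heat_zero]
    simp
  rw [hheat] at hG
  exact (sq_le_sq₀ (norm_nonneg _) (norm_nonneg _)).mp hG

theorem Col_norm_le {π : Perm (Fin 2 × C) →* (H →L[ℝ] H)} (hπ : IsOrth π) (v : H) :
    ‖Col π v‖ ≤ ‖v‖ := by
  unfold Col
  simp only [smul_apply, _root_.sum_apply]
  rw [norm_smul]
  have h1 : ‖∑ c : C → Fin 2, π (flip c) v‖ ≤ ∑ _c : C → Fin 2, ‖v‖ :=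
    (norm_sum_le _ _).trans (Finset.sum_le_sum fun c _ => (hπ.norm _ _).le)
  have h2 : ∑ _c : C → Fin 2, ‖v‖ = 2 ^ Fintype.card C * ‖v‖ := by
    simp [Finset.card_univ]
  rw [h2] at h1
  have h3 : ‖(1 : ℝ) / 2 ^ Fintype.card C‖ = 1 / 2 ^ Fintype.card C := by
    rw [Real.norm_of_nonneg (by positivity)]
  rw [h3]
  calc 1 / (2 : ℝ) ^ Fintype.card C * ‖∑ c : C → Fin 2, π (flip c) v‖
      ≤ 1 / (2 : ℝ) ^ Fintype.card C * (2 ^ Fintype.card C * ‖v‖) :=
        mul_le_mul_of_nonneg_left h1 (by positivity)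
    _ = ‖v‖ := by
        field_simp

theorem Col_comm_lap (π : Perm (Fin 2 × C) →* (H →L[ℝ] H)) (r : ℝ) :
    Commute (heat (lap univ π) r) (Col π) := by
  rw [Col_eq_PP]
  exact heat_comm (PP_comm_lap π 0).symm r

theorem Col_comm_of (π : Perm (Fin 2 × C) →* (H →L[ℝ] H)) {S : H →L[ℝ] H}
    (hS : ∀ g, Commute S (π g)) : Commute S (Col π) := by
  unfold Col
  apply Commute.smul_right
  apply Commute.sum_right
  intro c _
  exact hS _

end keylemma

/-! ### the induction -/

theorem lap_split (d : ℕ) (π : Perm (Fin (d + 1) → Fin 2) →* (H →L[ℝ] H)) :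
    lap univ (π.comp (splitHom d)) = lap univ π := by
  unfold lap
  simp only [MonoidHom.comp_apply, splitHom_swap]
  rw [← Equiv.sum_comp (split d) (fun x => ∑ y, (1 / 2 : ℝ) • (1 - π (swap x y)))]
  refine Finset.sum_congr rfl fun p _ => ?_
  rw [← Equiv.sum_comp (split d) (fun y => (1 / 2 : ℝ) • (1 - π (swap (split d p) y)))]

/-- Everything commuting with a representation commutes with the layered operator. -/
theorem W_comm (d : ℕ) : ∀ (π : Perm (Fin d → Fin 2) →* (H →L[ℝ] H)) (S : H →L[ℝ] H),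
    (∀ g, Commute S (π g)) → Commute S (W d π) := by
  induction d with
  | zero =>
    intro π S _
    exact Commute.one_right S
  | succ d ih =>
    intro π S hS
    simp only [W]
    apply Commute.mul_right
    · apply Commute.mul_right
      · exact ih _ S fun g => hS _
      · exact ih _ S fun g => hS _
    · exact Col_comm_of _ fun g => hS _

theorem lap_eq_zero_of_zero (π : Perm (Fin 0 → Fin 2) →* (H →L[ℝ] H)) : lap univ π = 0 := by
  unfold lap
  refine Finset.sum_eq_zero fun x _ => Finset.sum_eq_zero fun y _ => ?_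
  have : x = y := Subsingleton.elim x y
  subst this
  rw [Equiv.swap_self]
  have h1 : (Equiv.refl (Fin 0 → Fin 2) : Perm (Fin 0 → Fin 2)) = 1 := rfl
  rw [h1, map_one]
  simp

theorem sig_factor_nonneg (d : ℕ) : 0 ≤ 1 / 2 - 3 / (8 * (2 : ℝ) ^ d) := by
  have h1 : (1 : ℝ) ≤ 2 ^ d := one_le_pow₀ (by norm_num)
  have h2 : 3 / (8 * (2 : ℝ) ^ d) ≤ 3 / 8 := by
    apply div_le_div_of_nonneg_left (by norm_num) (by norm_num)
    linarith
  linarith

theorem sig_nonneg (d : ℕ) : 0 ≤ sig d := by
  induction d with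
  | zero => simp [sig]
  | succ d ih =>
    simp only [sig]
    exact mul_nonneg ih (sig_factor_nonneg d)

theorem sig_upper (d : ℕ) : 2 * sig d * (2 : ℝ) ^ d ≤ 1 / 64 := by
  induction d with
  | zero => simp [sig]; norm_num
  | succ d ih =>
    simp only [sig]
    have h1 : (1 : ℝ) ≤ 2 ^ d := one_le_pow₀ (by norm_num)
    have h2 : 0 ≤ 3 / (8 * (2 : ℝ) ^ d) := by positivity
    have h3 := sig_nonneg d
    have h4 : 2 * (sig d * (1 / 2 - 3 / (8 * (2 : ℝ) ^ d))) * 2 ^ (d + 1)
        = 2 * sig d * 2 ^ d * (1 - 2 * (3 / (8 * (2 : ℝ) ^ d))) := by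
      rw [pow_succ]
      ring
    rw [h4]
    have h5 : 0 ≤ 2 * sig d * (2 : ℝ) ^ d := by positivity
    nlinarith

theorem sig_lower_aux (d : ℕ) : (1 / 2048) * (1 + 6 / (2 : ℝ) ^ (d + 1)) ≤ sig (d + 1) * 2 ^ (d + 1) := by
  induction d with
  | zero =>
    simp only [sig]
    norm_num
  | succ d ih =>
    have hs : sig (d + 1 + 1) = sig (d + 1) * (1 / 2 - 3 / (8 * (2 : ℝ) ^ (d + 1))) := rfl
    rw [hs]
    set p : ℝ := 2 ^ (d + 1) with hp
    have hp2 : 2 ≤ p := by
      rw [hp, pow_succ]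
      have : (1 : ℝ) ≤ 2 ^ d := one_le_pow₀ (by norm_num)
      linarith
    have hp0 : 0 < p := by linarith
    have e1 : (2 : ℝ) ^ (d + 1 + 1) = 2 * p := by
      rw [pow_succ _ (d + 1), ← hp]
      ring
    rw [e1]
    have e2 : sig (d + 1) * (1 / 2 - 3 / (8 * p)) * (2 * p)
        = (sig (d + 1) * p) * (1 - 3 / (4 * p)) := by
      field_simp
      ring
    rw [e2]
    have h3 : 0 ≤ 1 - 3 / (4 * p) := by
      have : 3 / (4 * p) ≤ 3 / 8 := by
        apply div_le_div_of_nonneg_left (by norm_num) (by norm_num)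
        linarith
      linarith
    have h4 := mul_le_mul_of_nonneg_right ih h3
    refine le_trans ?_ h4
    have h5 : (1 + 6 / p) * (1 - 3 / (4 * p)) - (1 + 6 / (2 * p))
        = (9 / (4 * p)) * (1 - 2 / p) := by
      field_simp
      ring
    have h6 : 0 ≤ (9 / (4 * p)) * (1 - 2 / p) := by
      apply mul_nonneg (by positivity)
      have : 2 / p ≤ 1 := by
        rw [div_le_one hp0]
        exact hp2
      linarith
    nlinarith

/-- The lower bound of the time scale. -/
theorem sig_lower (d : ℕ) : 1 / 2048 ≤ sig d * (2 : ℝ) ^ d := by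
  cases d with
  | zero => simp [sig]; norm_num
  | succ d =>
    refine le_trans ?_ (sig_lower_aux d)
    have : 0 ≤ 6 / (2 : ℝ) ^ (d + 1) := by positivity
    nlinarith

/-- **The comparison theorem**: the layered operator is dominated by the heat semigroup of
random transpositions. -/
theorem compare (d : ℕ) : ∀ (π : Perm (Fin d → Fin 2) →* (H →L[ℝ] H)), IsOrth π → ∀ v,
    ‖W d π v‖ ≤ ‖heat (lap univ π) (-(sig d)) v‖ := by
  induction d with
  | zero =>
    intro π _ v
    rw [lap_eq_zero_of_zero]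
    simp [W, heat]
  | succ d ih =>
    intro π hπ v
    set π' : Perm (Fin 2 × (Fin d → Fin 2)) →* (H →L[ℝ] H) := π.comp (splitHom d) with hπ'
    have hπ'o : IsOrth π' := hπ.comp _
    set π0 := π'.comp (iota 0) with hπ0
    set π1 := π'.comp (iota 1) with hπ1
    have hπ0o : IsOrth π0 := hπ'o.comp _
    have hπ1o : IsOrth π1 := hπ'o.comp _
    set σ := sig d with hσ
    have hcard : (Fintype.card (Fin d → Fin 2) : ℝ) = 2 ^ d := by
      simp
    have hm : 1 ≤ (Fintype.card (Fin d → Fin 2) : ℝ) := by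
      rw [hcard]
      exact one_le_pow₀ (by norm_num)
    have hkey := key_lemma hπ'o hm (sig_nonneg d) (by rw [hcard]; exact sig_upper d) v
    rw [hcard, ← hσ, ← hπ0, ← hπ1] at hkey
    have hW : W (d + 1) π v = W d π0 (W d π1 (Col π' v)) := by
      simp only [W]
      rfl
    rw [hW, ← lap_split d π, ← hπ']
    have hsig : sig (d + 1) = σ * (1 / 2 - 3 / (8 * (2 : ℝ) ^ d)) := rfl
    rw [hsig]
    set w := Col π' v with hw
    have hc : Commute (heat (lap univ π0) (-σ)) (W d π1) := by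
      apply W_comm
      intro g
      exact heat_comm (lap_slice_comm_rep π' g) _
    have hc2 : Commute (lap univ π1) (lap univ π0) := (lap_slices_comm π').symm
    calc ‖W d π0 (W d π1 w)‖
        ≤ ‖heat (lap univ π0) (-σ) (W d π1 w)‖ := ih π0 hπ0o _
      _ = ‖W d π1 (heat (lap univ π0) (-σ) w)‖ := by
          rw [← mul_apply_eq_comp, hc.eq, mul_apply_eq_comp]
      _ ≤ ‖heat (lap univ π1) (-σ) (heat (lap univ π0) (-σ) w)‖ := ih π1 hπ1o _
      _ = ‖heat (lap univ π0 + lap univ π1) (-σ) w‖ := by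
          rw [add_comm (lap univ π0), heat_add_op hc2, mul_apply_eq_comp]
      _ ≤ ‖heat (lap univ π') (-(σ * (1 / 2 - 3 / (8 * (2 : ℝ) ^ d)))) w‖ := hkey
      _ = ‖Col π' (heat (lap univ π') (-(σ * (1 / 2 - 3 / (8 * (2 : ℝ) ^ d)))) v)‖ := by
          rw [hw, ← mul_apply_eq_comp, (Col_comm_lap π' _).eq, mul_apply_eq_comp]
      _ ≤ _ := Col_norm_le hπ'o _

/-- The comparison on eigenvectors. -/
theorem compare_eigen (d : ℕ) (π : Perm (Fin d → Fin 2) →* (H →L[ℝ] H)) (hπ : IsOrth π) (v : H)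
    (l : ℝ) (hv : lap univ π v = l • v) :
    ‖W d π v‖ ^ 2 ≤ Real.exp (-(2 * sig d * l)) * ‖v‖ ^ 2 := by
  have h1 := compare d π hπ v
  rw [heat_eigen _ v l _ hv, norm_smul, Real.norm_of_nonneg (Real.exp_pos _).le] at h1
  have h2 : ‖W d π v‖ ^ 2 ≤ (Real.exp (-sig d * l) * ‖v‖) ^ 2 :=
    pow_le_pow_left₀ (norm_nonneg _) h1 2
  refine h2.trans (le_of_eq ?_)
  rw [mul_pow, ← Real.exp_nat_mul]
  congr 2
  push_cast
  ring

end Vale.Agent.Lib.P162
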