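import Mathlib

/-!
# Thorp shuffle: definitions used in the statement

A deck of `2 * m` cards, positions `0, ..., 2 * m - 1`.  A shuffle uses `m` coins `c : Fin m → Fin 2`.
The cards at positions `x` and `m + x` (`x < m`) go to the positions `2 * x` and `2 * x + 1`,
in the order given by the coin `c x`.
-/

namespace Vale.Agent.Lib.P162

open Equiv

/-- The new position of the card at position `x` when the coins are `c`:
for `x < m` it is `2 * x + c x`, for `x = m + r` it is `2 * r + 1 - c r`. -/
def thorpPos (m : ℕ) (c : Fin m → Fin 2) (x : Fin (2 * m)) : ℕ :=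
  if h : (x : ℕ) < m then 2 * (x : ℕ) + (c ⟨x, h⟩ : ℕ)
  else 2 * ((x : ℕ) - m) + 1 - (c ⟨(x : ℕ) - m, by omega⟩ : ℕ)

/-- The law of one Thorp shuffle on the symmetric group of the deck: the probability of `g` is the
fraction of the `2 ^ m` coin vectors for which `g` is the resulting permutation of positions. -/
noncomputable def thorpLaw (m : ℕ) (g : Perm (Fin (2 * m))) : ℝ :=
  ((Finset.univ.filter (fun c : Fin m → Fin 2 => ∀ x, (g x : ℕ) = thorpPos m c x)).card : ℝ) / 2 ^ m

/-- Convolution of two real functions on a finite group. -/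
def conv {G : Type*} [Group G] [Fintype G] (μ ν : G → ℝ) (g : G) : ℝ :=
  ∑ h, μ h * ν (h⁻¹ * g)

/-- Convolution powers: `convPow μ t` is the law of a product of `t` independent samples of `μ`. -/
noncomputable def convPow {G : Type*} [Group G] [Fintype G] [DecidableEq G] (μ : G → ℝ) : ℕ → G → ℝ
  | 0 => fun g => if g = 1 then 1 else 0
  | t + 1 => conv (convPow μ t) μ

/-- The uniform law on a finite group. -/
noncomputable def unif (G : Type*) [Fintype G] (_ : G) : ℝ := 1 / (Fintype.card G : ℝ)

/-- Total variation distance of two real functions on a finite type. -/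
noncomputable def tvDist {G : Type*} [Fintype G] (μ ν : G → ℝ) : ℝ :=
  (1 / 2) * ∑ g, |μ g - ν g|

end Vale.Agent.Lib.P162
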