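import Mathlib

/-!
# Big-endian binary encoding of a deck of `2^d` cards
-/

namespace ThorpL2

/-- Big-endian bits of a number below `2^d`: index `0` is the top bit. -/
def bitsOf (d : ℕ) (x : ℕ) (i : Fin d) : Fin 2 := if x.testBit (d - 1 - i) then 1 else 0

lemma bitsOf_injOn (d : ℕ) {x y : ℕ} (hx : x < 2 ^ d) (hy : y < 2 ^ d)
    (h : bitsOf d x = bitsOf d y) : x = y := by
  apply Nat.eq_of_testBit_eq
  intro j
  by_cases hj : j < d
  · have := congrFun h ⟨d - 1 - j, by omega⟩
    simp only [bitsOf] at this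
    have hj' : d - 1 - (d - 1 - j) = j := by omega
    rw [hj'] at this
    by_cases h1 : x.testBit j <;> by_cases h2 : y.testBit j <;> simp_all
  · have hj2 : d ≤ j := by omega
    have h1 : x < 2 ^ j := lt_of_lt_of_le hx (Nat.pow_le_pow_right (by norm_num) hj2)
    have h2 : y < 2 ^ j := lt_of_lt_of_le hy (Nat.pow_le_pow_right (by norm_num) hj2)
    rw [Nat.testBit_lt_two_pow h1, Nat.testBit_lt_two_pow h2]

/-- The encoding of positions as bit strings. -/
noncomputable def encode (d : ℕ) : Fin (2 ^ d) ≃ (Fin d → Fin 2) :=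
  Equiv.ofBijective (fun x => bitsOf d x.val) (by
    rw [Fintype.bijective_iff_injective_and_card]
    constructor
    · intro x y h
      exact Fin.ext (bitsOf_injOn d x.2 y.2 h)
    · simp)

@[simp] lemma encode_apply (d : ℕ) (x : Fin (2 ^ d)) (i : Fin d) :
    encode d x i = bitsOf d x.val i := rfl

end ThorpL2
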