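import Vale.Agent.Lib.P162.Level

/-!
# From the level bound to a Hilbert-Schmidt type bound

`A` is a linear map commuting with the orthogonal representation `R` (think of a left
convolution operator, `R` being right translation).
-/

open scoped InnerProductSpace
open Finset

namespace ThorpL2

variable {E : Type*} [NormedAddCommGroup E] [InnerProductSpace ℝ E] [FiniteDimensional ℝ E]

/-- A contraction bound verified on eigenvectors of a commuting symmetric operator extends to
the whole invariant subspace. -/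
lemma contraction_of_eigen {S A : E →ₗ[ℝ] E} (hS : S.IsSymmetric) (X : Submodule ℝ E)
    (hXS : ∀ v ∈ X, S v ∈ X) (hXA : ∀ v ∈ X, A v ∈ X)
    (hXA' : ∀ v ∈ X, LinearMap.adjoint A v ∈ X)
    (hcomm : ∀ x, A (S x) = S (A x)) (c : ℝ)
    (h : ∀ (μ : ℝ) (x : E), x ∈ X → x ≠ 0 → S x = μ • x → ‖A x‖ ^ 2 ≤ c * ‖x‖ ^ 2)
    {f : E} (hf : f ∈ X) : ‖A f‖ ^ 2 ≤ c * ‖f‖ ^ 2 := by
  -- the adjoint commutes with `S`
  have hcomm' : ∀ x, LinearMap.adjoint A (S x) = S (LinearMap.adjoint A x) := by
    intro x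
    refine ext_inner_right ℝ ?_
    intro y
    rw [LinearMap.adjoint_inner_left, hS _ y, LinearMap.adjoint_inner_left, hcomm, hS]
  let Q : E →ₗ[ℝ] E := c • LinearMap.id - LinearMap.adjoint A ∘ₗ A
  have hQapply : ∀ x, Q x = c • x - LinearMap.adjoint A (A x) := fun x => rfl
  have hQinner : ∀ x, ⟪x, Q x⟫_ℝ = c * ‖x‖ ^ 2 - ‖A x‖ ^ 2 := by
    intro x
    rw [hQapply, inner_sub_right, real_inner_smul_right, real_inner_self_eq_norm_sq,
      LinearMap.adjoint_inner_right, real_inner_self_eq_norm_sq]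
  have hQsymm : Q.IsSymmetric := by
    intro x y
    rw [hQapply, hQapply, inner_sub_left, inner_sub_right, real_inner_smul_left,
      real_inner_smul_right, LinearMap.adjoint_inner_left, LinearMap.adjoint_inner_right]
  have hQX : ∀ v ∈ X, Q v ∈ X := by
    intro v hv
    rw [hQapply]
    exact X.sub_mem (X.smul_mem _ hv) (hXA' _ (hXA _ hv))
  have hSQ : ∀ x, S (Q x) = Q (S x) := by
    intro x
    rw [hQapply, hQapply, map_sub, map_smul, hcomm, hcomm']
  have hmain : ∀ (κ : ℝ) (x : E), x ∈ X → x ≠ 0 → Q x = κ • x → (0 : ℝ) ≤ κ := by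
    intro κ x hxX hx0 hxκ
    let M : Submodule ℝ E := Module.End.eigenspace Q κ ⊓ X
    have hxM : x ∈ M := ⟨Module.End.mem_eigenspace_iff.2 hxκ, hxX⟩
    have hMS : ∀ v ∈ M, S v ∈ M := by
      intro v hv
      refine ⟨?_, hXS v hv.2⟩
      refine Module.End.mem_eigenspace_iff.2 ?_
      rw [← hSQ, Module.End.mem_eigenspace_iff.1 hv.1, map_smul]
    have hT : (S.restrict hMS).IsSymmetric := hS.restrict_invariant hMS
    have hpos : 0 < Module.finrank ℝ M := by
      rw [Module.finrank_pos_iff_exists_ne_zero]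
      exact ⟨⟨x, hxM⟩, fun h => hx0 (congrArg Subtype.val h)⟩
    let b := hT.eigenvectorBasis rfl
    let i : Fin (Module.finrank ℝ M) := ⟨0, hpos⟩
    have hbi : S.restrict hMS (b i) = (hT.eigenvalues rfl i) • b i := by
      have := hT.apply_eigenvectorBasis rfl i
      simpa only [RCLike.ofReal_real_eq_id, id] using this
    have hy0 : (b i : E) ≠ 0 := by
      intro h0
      have h1 : (b i) = 0 := Subtype.ext h0
      exact b.orthonormal.ne_zero i h1
    have hyS : S (b i : E) = (hT.eigenvalues rfl i) • (b i : E) := by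
      have := congrArg Subtype.val hbi
      simpa [LinearMap.restrict_apply] using this
    have hle := h _ _ (b i).2.2 hy0 hyS
    have hyκ : Q (b i : E) = κ • (b i : E) := Module.End.mem_eigenspace_iff.1 (b i).2.1
    have h1 := hQinner (b i : E)
    rw [hyκ, real_inner_smul_right, real_inner_self_eq_norm_sq] at h1
    have hpos2 : 0 < ‖(b i : E)‖ ^ 2 := by positivity
    have : 0 ≤ κ * ‖(b i : E)‖ ^ 2 := by rw [h1]; linarith
    exact nonneg_of_mul_nonneg_left this hpos2
  have := rayleigh_of_eigen hQsymm X hQX 0 hmain hf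
  rw [hQinner] at this
  linarith

variable {α : Type*} [DecidableEq α] [Fintype α]

namespace ORep

variable (R : ORep α E)

/-- `A` commutes with the representation. -/
def Commutes (A : E →ₗ[ℝ] E) : Prop := ∀ g x, A (R.ρ g x) = R.ρ g (A x)

variable {R}

lemma Commutes.adjoint {A : E →ₗ[ℝ] E} (hA : R.Commutes A) : R.Commutes (LinearMap.adjoint A) := by
  intro g x
  refine ext_inner_right ℝ ?_
  intro y
  rw [LinearMap.adjoint_inner_left, R.rho_inv_inner, R.rho_inv_inner,
    LinearMap.adjoint_inner_left, hA]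

lemma Commutes.pow {A : E →ₗ[ℝ] E} (hA : R.Commutes A) (K : ℕ) : R.Commutes (A ^ K) := by
  induction K with
  | zero => intro g x; simp
  | succ K ih =>
    intro g x
    rw [pow_succ, Module.End.mul_apply, Module.End.mul_apply, hA, ih]

lemma Commutes.mem_Inv {A : E →ₗ[ℝ] E} (hA : R.Commutes A) {B : Finset α} {w : E}
    (hw : w ∈ R.Inv B) : A w ∈ R.Inv B := by
  intro a ha b hb
  have h := hA (Equiv.swap a b) w
  rw [show R.ρ (Equiv.swap a b) w = w from hw a ha b hb] at h
  exact h.symm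

lemma Commutes.mem_U {A : E →ₗ[ℝ] E} (hA : R.Commutes A) {C : Finset α} {r : ℕ} {v : E}
    (hv : v ∈ R.U C r) : A v ∈ R.U C r := by
  intro B hB hc w hw
  rw [← LinearMap.adjoint_inner_right]
  exact hv B hB hc _ (hA.adjoint.mem_Inv hw)

lemma Commutes.DC {A : E →ₗ[ℝ] E} (hA : R.Commutes A) (C : Finset α) (x : E) :
    A (R.DC C x) = R.DC C (A x) := by
  simp only [ORep.DC_apply, map_smul, map_sum, map_sub]
  congr 1
  refine Finset.sum_congr rfl ?_
  intro a _
  refine Finset.sum_congr rfl ?_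
  intro b _
  congr 1
  exact hA _ _

variable (R)

/-- The monotonicity of the level sets. -/
lemma U_mono (C : Finset α) {r : ℕ} : R.U C r ≤ R.U C (r + 1) := by
  intro v hv B hB hc w hw
  -- choose `B' ⊆ B` of size `r + 1`
  obtain ⟨B', hB', hc'⟩ := Finset.exists_subset_card_eq (s := B) (n := r + 1) (by omega)
  refine hv B' (hB'.trans hB) hc' w ?_
  intro a ha b hb
  exact hw a (hB' ha) b (hB' hb)

/-- `DC` preserves `U`. -/
lemma DC_mem_U (C : Finset α) (r : ℕ) {v : E} (hv : v ∈ R.U C r) : R.DC C v ∈ R.U C r := by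
  rw [DC_apply]
  refine Submodule.smul_mem _ _ (Submodule.sum_mem _ ?_)
  intro a ha
  refine Submodule.sum_mem _ ?_
  intro b hb
  refine Submodule.sub_mem _ hv (R.rho_mem_U _ ?_ hv)
  intro y
  by_cases hya : y = a
  · subst hya; simp [ha, hb]
  · by_cases hyb : y = b
    · subst hyb; simp [ha, hb]
    · rw [Equiv.swap_apply_of_ne_of_ne hya hyb]

/-- Contraction on the levels. -/
lemma contraction_level {A : E →ₗ[ℝ] E} (hA : R.Commutes A) (β : ℝ) (hβ : 0 ≤ β)
    (hyp : ∀ (l : ℝ) (f : E), R.DC univ f = l • f → ‖A f‖ ^ 2 ≤ Real.exp (-(β * l)) * ‖f‖ ^ 2)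
    (r : ℕ) {f : E} (hf : f ∈ R.U univ r) :
    ‖A f‖ ^ 2 ≤ Real.exp (-(β * ((Fintype.card α : ℝ) * ((Fintype.card α : ℝ) - r) / 2))) * ‖f‖ ^ 2 := by
  have hS : (R.DC univ).IsSymmetric := fun x y => R.DC_symm univ x y
  refine contraction_of_eigen hS (R.U univ r) (fun v hv => R.DC_mem_U univ r hv)
    (fun v hv => hA.mem_U hv) (fun v hv => hA.adjoint.mem_U hv) (fun x => hA.DC univ x) _ ?_ hf
  intro μ x hxU hx0 hxμ
  refine (hyp μ x hxμ).trans ?_
  refine mul_le_mul_of_nonneg_right ?_ (by positivity)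
  refine Real.exp_le_exp.2 ?_
  have h1 := R.level_bound (Fintype.card α) univ (Finset.card_univ) r x hxU
  rw [hxμ, real_inner_smul_right, real_inner_self_eq_norm_sq] at h1
  have hpos : 0 < ‖x‖ ^ 2 := by positivity
  have h2 := le_of_mul_le_mul_right h1 hpos
  have := mul_le_mul_of_nonneg_left h2 hβ
  linarith

/-- The span of the `Sym(B)` invariants for `B` of a given size. -/
noncomputable def Y (s : ℕ) : Submodule ℝ E := ⨆ B ∈ Finset.powersetCard s (univ : Finset α), R.Inv B

lemma Inv_le_Y {s : ℕ} {B : Finset α} (hB : B.card = s) : R.Inv B ≤ R.Y s := by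
  unfold Y
  exact le_iSup₂_of_le B (by simp [Finset.mem_powersetCard, hB]) le_rfl

/-- The orthogonal complement of `Y (r + 1)` is the level space `U univ r`. -/
lemma mem_U_iff_orthogonal_Y {r : ℕ} {v : E} : v ∈ R.U univ r ↔ v ∈ (R.Y (r + 1))ᗮ := by
  constructor
  · intro hv
    rw [Submodule.mem_orthogonal']
    intro u hu
    have hle : R.Y (r + 1) ≤ (Submodule.span ℝ {v})ᗮ := by
      unfold Y
      refine iSup₂_le ?_
      intro B hB w hw
      rw [Finset.mem_powersetCard] at hB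
      rw [Submodule.mem_orthogonal]
      intro y hy
      obtain ⟨c, rfl⟩ := Submodule.mem_span_singleton.1 hy
      rw [real_inner_smul_left, hv B (Finset.subset_univ _) hB.2 w hw, mul_zero]
    have := (Submodule.mem_orthogonal _ _).1 (hle hu) v (Submodule.mem_span_singleton_self v)
    exact this
  · intro hv B _ hc w hw
    have := (Submodule.mem_orthogonal' _ _).1 hv w (R.Inv_le_Y hc hw)
    exact this

lemma Y_anti {s : ℕ} : R.Y (s + 1) ≤ R.Y s := by
  unfold Y
  refine iSup₂_le ?_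
  intro B hB
  rw [Finset.mem_powersetCard] at hB
  obtain ⟨B', hB', hc'⟩ := Finset.exists_subset_card_eq (s := B) (n := s) (by omega)
  refine le_trans ?_ (R.Inv_le_Y hc')
  intro w hw a ha b hb
  exact hw a (hB' ha) b (hB' hb)

lemma Commutes.mem_Y {A : E →ₗ[ℝ] E} (hA : R.Commutes A) {s : ℕ} {v : E} (hv : v ∈ R.Y s) :
    A v ∈ R.Y s := by
  have hle : R.Y s ≤ (R.Y s).comap A := by
    unfold Y
    refine iSup₂_le ?_
    intro B hB w hw
    rw [Finset.mem_powersetCard] at hB
    exact R.Inv_le_Y hB.2 (hA.mem_Inv hw)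
  exact hle hv

lemma Y_one [Nonempty α] : R.Y 1 = ⊤ := by
  obtain ⟨b⟩ := ‹Nonempty α›
  refine top_le_iff.1 ?_
  refine le_trans ?_ (R.Inv_le_Y (B := {b}) (by simp))
  intro w _ x hx y hy
  simp only [Finset.mem_singleton] at hx hy
  subst hx hy
  exact R.sw_self _ _

/-- Recursion along the flag `Y (r + 1) ≤ Y r`. -/
theorem flag_bound [Nonempty α] {A : E →ₗ[ℝ] E} (hA : R.Commutes A) (θ : ℕ → ℝ)
    (hθ : ∀ r, ∀ f ∈ R.U univ r, ‖A f‖ ^ 2 ≤ θ r * ‖f‖ ^ 2) (hθ0 : ∀ r, 0 ≤ θ r) (f : E) (r : ℕ) :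
    ‖A (f - (R.Y (r + 1)).starProjection f)‖ ^ 2
      ≤ ∑ s ∈ Finset.Icc 1 r, θ s * ‖(R.Y s).starProjection f‖ ^ 2 := by
  induction r with
  | zero =>
    have h : (R.Y (0 + 1)).starProjection f = f := by
      refine Submodule.starProjection_eq_self_iff.2 ?_
      rw [zero_add, R.Y_one]
      trivial
    rw [h]
    simp
  | succ r ih =>
    rw [Finset.sum_Icc_succ_top (by omega)]
    set P := (R.Y (r + 1 + 1)).starProjection with hP
    set P' := (R.Y (r + 1)).starProjection with hP'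
    set h := P' f - P f with hh
    set g' := f - P' f with hg'
    have hsplit : f - P f = h + g' := by rw [hh, hg']; abel
    have hY : R.Y (r + 1 + 1) ≤ R.Y (r + 1) := R.Y_anti
    have hP'mem : P' f ∈ R.Y (r + 1) := Submodule.starProjection_apply_mem _ f
    have hPmem : P f ∈ R.Y (r + 1 + 1) := Submodule.starProjection_apply_mem _ f
    have hh_Y : h ∈ R.Y (r + 1) := Submodule.sub_mem _ hP'mem (hY hPmem)
    have hg'_U : g' ∈ R.U univ r := by
      rw [R.mem_U_iff_orthogonal_Y]
      exact Submodule.sub_starProjection_mem_orthogonal f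
    have hAh_Y : A h ∈ R.Y (r + 1) := hA.mem_Y (R := R) hh_Y
    have hAg' : A g' ∈ (R.Y (r + 1))ᗮ := by
      rw [← R.mem_U_iff_orthogonal_Y]
      exact hA.mem_U hg'_U
    have horth : ⟪A h, A g'⟫_ℝ = 0 := (Submodule.mem_orthogonal _ _).1 hAg' _ hAh_Y
    have hPyth : ‖A (f - P f)‖ ^ 2 = ‖A h‖ ^ 2 + ‖A g'‖ ^ 2 := by
      rw [hsplit, map_add, @norm_add_sq_real, horth]
      ring
    -- `h` lies in the level `r + 1`
    have hP'orth : f - P' f ∈ (R.Y (r + 1))ᗮ := Submodule.sub_starProjection_mem_orthogonal f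
    have hPorth : f - P f ∈ (R.Y (r + 1 + 1))ᗮ := Submodule.sub_starProjection_mem_orthogonal f
    have hh_U : h ∈ R.U univ (r + 1) := by
      rw [R.mem_U_iff_orthogonal_Y, Submodule.mem_orthogonal]
      intro u hu
      have h1 := (Submodule.mem_orthogonal _ _).1 hP'orth u (hY hu)
      have h2 := (Submodule.mem_orthogonal _ _).1 hPorth u hu
      rw [inner_sub_right] at h1 h2
      rw [hh, inner_sub_right]
      linarith
    have hnorm : ‖h‖ ^ 2 ≤ ‖P' f‖ ^ 2 := by
      have h1 : ⟪h, P f⟫_ℝ = 0 := by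
        have := (Submodule.mem_orthogonal' _ _).1
          ((R.mem_U_iff_orthogonal_Y).1 hh_U) _ hPmem
        exact this
      have h2 : ⟪h, h⟫_ℝ = ⟪h, P' f⟫_ℝ := by
        rw [hh, inner_sub_right (𝕜 := ℝ) (P' f - P f) (P' f) (P f)]
        rw [← hh, h1, sub_zero]
      rw [real_inner_self_eq_norm_sq] at h2
      have h3 := real_inner_le_norm h (P' f)
      rw [← h2] at h3
      have h4 : ‖h‖ ≤ ‖P' f‖ := by
        by_contra hcon
        push Not at hcon
        have hpos : 0 < ‖h‖ := lt_of_le_of_lt (norm_nonneg _) hcon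
        nlinarith
      exact pow_le_pow_left₀ (norm_nonneg _) h4 2
    rw [hPyth]
    have h1 := hθ (r + 1) h hh_U
    have h2 := mul_le_mul_of_nonneg_left hnorm (hθ0 (r + 1))
    linarith

end ORep

end ThorpL2
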