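import Mathlib

/-!
# An algebraic identity for the perfect shuffle rotation
-/

namespace ThorpL2

variable {A : Type*} [Monoid A]

/-- `w (t-1) * ... * w 1 * w 0`. -/
def prodDown (w : ℕ → A) : ℕ → A
  | 0 => 1
  | t + 1 => w t * prodDown w t

lemma prodDown_mul_r (r : A) (w : ℕ → A) (t : ℕ) (h : ∀ j, j < t → w j * r = r * w (j + 1)) :
    prodDown w t * r = r * prodDown (fun j => w (j + 1)) t := by
  induction t with
  | zero => simp [prodDown]
  | succ t ih =>
    simp only [prodDown]
    rw [mul_assoc, ih (fun j hj => h j (by omega)), ← mul_assoc, h t (by omega), mul_assoc]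

lemma prodDown_succ' (w : ℕ → A) (t : ℕ) :
    prodDown (fun j => w (j + 1)) t * w 0 = prodDown w (t + 1) := by
  induction t with
  | zero => simp [prodDown]
  | succ t ih =>
    have : prodDown w (t + 1 + 1) = w (t + 1) * prodDown w (t + 1) := rfl
    rw [this, ← ih]
    simp only [prodDown]
    rw [mul_assoc]

lemma prodDown_congr {a b : ℕ → A} (t : ℕ) (h : ∀ j, j < t → a j = b j) :
    prodDown a t = prodDown b t := by
  induction t with
  | zero => rfl
  | succ t ih =>
    simp only [prodDown]
    rw [h t (by omega), ih (fun j hj => h j (by omega))]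

lemma commute_prodDown {x : A} {a : ℕ → A} (t : ℕ) (h : ∀ j, Commute x (a j)) :
    Commute x (prodDown a t) := by
  induction t with
  | zero => exact Commute.one_right x
  | succ t ih => exact (h t).mul_right ih

lemma prodDown_mul {a b : ℕ → A} (h : ∀ i j, Commute (a i) (b j)) (t : ℕ) :
    prodDown (fun j => a j * b j) t = prodDown a t * prodDown b t := by
  induction t with
  | zero => simp [prodDown]
  | succ t ih =>
    simp only [prodDown]
    rw [ih]
    have hc : Commute (b t) (prodDown a t) :=
      commute_prodDown t (fun j => (h j t).symm)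
    calc a t * b t * (prodDown a t * prodDown b t)
        = a t * (b t * prodDown a t) * prodDown b t := by simp only [mul_assoc]
      _ = a t * (prodDown a t * b t) * prodDown b t := by rw [hc.eq]
      _ = a t * prodDown a t * (b t * prodDown b t) := by simp only [mul_assoc]

/-- The rotation trick: `(r * w 0) ^ t = r ^ t * (w (t-1) * ... * w 0)`, if `w j * r = r * w (j+1)`
for `j + 1 < t`. -/
theorem rot_trick (r : A) (w : ℕ → A) (t : ℕ) (h : ∀ j, j + 1 < t → w j * r = r * w (j + 1)) :
    (r * w 0) ^ t = r ^ t * prodDown w t := by
  induction t with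
  | zero => simp [prodDown]
  | succ t ih =>
    rw [pow_succ, ih (fun j hj => h j (by omega)), mul_assoc, ← mul_assoc (prodDown w t),
      prodDown_mul_r r w t (fun j hj => h j (by omega)), mul_assoc,
      prodDown_succ', pow_succ, mul_assoc]

end ThorpL2
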