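import Vale.Agent.Lib.P162.Layer
import Vale.Agent.Lib.P162.RotTrick

/-!
# Flips at a given bit, and the identification of `W` with a product of layers

`flipAt i c` toggles the bit `i` of a vector `x` according to the coin `c` evaluated at `x` with
the bit `i` cleared.  `FlipOp i π` is the average of `π (flipAt i c)` over all coins.
-/

namespace Vale.Agent.Lib.P162

open Equiv Finset

variable {H : Type*} [NormedAddCommGroup H] [InnerProductSpace ℝ H]

section flips

variable {D : ℕ}

/-- Toggle bit `i` of `x` by the coin at `x` with the bit `i` cleared. -/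
def flipAtFun (i : Fin D) (c : (Fin D → Fin 2) → Fin 2) (x : Fin D → Fin 2) : Fin D → Fin 2 :=
  Function.update x i (x i + c (Function.update x i 0))

lemma flipAtFun_flipAtFun (i : Fin D) (c : (Fin D → Fin 2) → Fin 2) (x : Fin D → Fin 2) :
    flipAtFun i c (flipAtFun i c x) = x := by
  unfold flipAtFun
  simp only [Function.update_self, Function.update_idem]
  have : ∀ a e : Fin 2, a + e + e = a := by decide
  rw [this]
  simp

/-- The flip at bit `i` with coins `c`, as a permutation of the cube. -/
def flipAt (i : Fin D) (c : (Fin D → Fin 2) → Fin 2) : Perm (Fin D → Fin 2) where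
  toFun := flipAtFun i c
  invFun := flipAtFun i c
  left_inv := flipAtFun_flipAtFun i c
  right_inv := flipAtFun_flipAtFun i c

@[simp] lemma flipAt_apply (i : Fin D) (c : (Fin D → Fin 2) → Fin 2) (x : Fin D → Fin 2) :
    flipAt i c x = Function.update x i (x i + c (Function.update x i 0)) := rfl

/-- The layer at bit `i`: the average of `π (flipAt i c)` over all coins. -/
noncomputable def FlipOp (i : Fin D) (π : Perm (Fin D → Fin 2) →* (H →L[ℝ] H)) : H →L[ℝ] H :=
  ((1 : ℝ) / 2 ^ (2 ^ D)) • ∑ c : (Fin D → Fin 2) → Fin 2, π (flipAt i c)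

end flips

section split

variable {d : ℕ}

lemma split_apply (b : Fin 2) (x : Fin d → Fin 2) :
    split d (b, x) = (Fin.cons b x : Fin (d + 1) → Fin 2) := rfl

lemma split_self_tail (y : Fin (d + 1) → Fin 2) : split d (y 0, Fin.tail y) = y := by
  rw [split_apply, Fin.cons_self_tail]

/-- Splitting a coin on the `d+1` cube in two coins on the `d` cube. -/
def coinSplit (d : ℕ) :
    ((Fin (d + 1) → Fin 2) → Fin 2) ≃ ((Fin d → Fin 2) → Fin 2) × ((Fin d → Fin 2) → Fin 2) where
  toFun c := (fun x => c (Fin.cons 0 x), fun x => c (Fin.cons 1 x))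
  invFun p := fun y => if y 0 = 0 then p.1 (Fin.tail y) else p.2 (Fin.tail y)
  left_inv c := by
    funext y
    by_cases h : y 0 = 0
    · simp only [h, if_true]
      congr 1
      rw [← h, Fin.cons_self_tail]
    · simp only [h, if_false]
      have h1 : y 0 = 1 := by
        have : ∀ a : Fin 2, a ≠ 0 → a = 1 := by decide
        exact this _ h
      congr 1
      rw [← h1, Fin.cons_self_tail]
  right_inv p := by
    obtain ⟨p1, p2⟩ := p
    ext x <;> simp

lemma card_coins (D : ℕ) : Fintype.card ((Fin D → Fin 2) → Fin 2) = 2 ^ (2 ^ D) := by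
  simp

/-- `flipAt 0 c` in the split coordinates is `flip (c ∘ cons 0)`. -/
lemma splitHom_flip (c : (Fin (d + 1) → Fin 2) → Fin 2) :
    splitHom d (flip (fun x => c (Fin.cons 0 x))) = flipAt 0 c := by
  ext y i
  -- `splitHom d g = split ∘ g ∘ split⁻¹`
  have hy : y = split d (y 0, Fin.tail y) := (split_self_tail y).symm
  have h1 : splitHom d (flip (fun x => c (Fin.cons 0 x))) y
      = split d (flip (fun x => c (Fin.cons 0 x)) ((split d).symm y)) := rfl
  have h2 : (split d).symm y = (y 0, Fin.tail y) := by
    rw [Equiv.symm_apply_eq]; exact hy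
  rw [h1, h2, flip_apply]
  have h3 : Function.update y 0 0 = Fin.cons 0 (Fin.tail y) := by
    funext j
    refine Fin.cases ?_ (fun k => ?_) j
    · simp
    · simp [Fin.tail]
  simp only [flipAt_apply, h3]
  refine Fin.cases ?_ (fun k => ?_) i
  · simp [split]
  · simp [split, Fin.tail]

/-- `flipAt (succ i) c` in the split coordinates is the product of two slice flips. -/
lemma splitHom_iota_flip (i : Fin d) (c : (Fin (d + 1) → Fin 2) → Fin 2) :
    splitHom d (iota 0 (flipAt i (coinSplit d c).1) * iota 1 (flipAt i (coinSplit d c).2))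
      = flipAt i.succ c := by
  ext y k
  have hy : y = split d (y 0, Fin.tail y) := (split_self_tail y).symm
  have h1 : splitHom d (iota 0 (flipAt i (coinSplit d c).1) * iota 1 (flipAt i (coinSplit d c).2)) y
      = split d ((iota 0 (flipAt i (coinSplit d c).1) * iota 1 (flipAt i (coinSplit d c).2))
          ((split d).symm y)) := rfl
  have h2 : (split d).symm y = (y 0, Fin.tail y) := by
    rw [Equiv.symm_apply_eq]; exact hy
  rw [h1, h2, Perm.mul_apply]
  have h3 : ∀ v : Fin 2, Function.update (Fin.cons v (Fin.tail y) : Fin (d + 1) → Fin 2) i.succ 0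
      = Fin.cons v (Function.update (Fin.tail y) i 0) := by
    intro v
    funext j
    refine Fin.cases ?_ (fun k => ?_) j
    · rw [Function.update_of_ne (Fin.succ_ne_zero i).symm]
      simp
    · by_cases hk : k = i
      · subst hk; simp
      · have : k.succ ≠ i.succ := fun h => hk (Fin.succ_injective _ h)
        simp [Function.update_of_ne, this, hk]
  have hyc : y = (Fin.cons (y 0) (Fin.tail y) : Fin (d + 1) → Fin 2) := (Fin.cons_self_tail y).symm
  have hb : y 0 = 0 ∨ y 0 = 1 := by
    have : ∀ a : Fin 2, a = 0 ∨ a = 1 := by decide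
    exact this _
  simp only [flipAt_apply]
  rcases hb with hb | hb
  · have h4 : iota 1 (flipAt i (coinSplit d c).2) (y 0, Fin.tail y) = (y 0, Fin.tail y) :=
      iota_apply_ne (by rw [hb]; decide) _ _
    rw [h4, hb, iota_apply_same]
    refine Fin.cases ?_ (fun m => ?_) k
    · simp [split, Function.update_of_ne (Fin.succ_ne_zero i).symm, hb]
    · have e1 : (split d (0, (flipAt i (coinSplit d c).1) (Fin.tail y))) m.succ
          = (flipAt i (coinSplit d c).1) (Fin.tail y) m := by simp [split]
      rw [e1, flipAt_apply]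
      have h5 : Function.update y i.succ 0 = Fin.cons 0 (Function.update (Fin.tail y) i 0) := by
        rw [← h3 0]
        congr 1
        rw [← hb]
        exact hyc
      rw [h5]
      by_cases hm : m = i
      · subst hm
        simp [Fin.tail, coinSplit]
      · have hm' : m.succ ≠ i.succ := fun h => hm (Fin.succ_injective _ h)
        simp [Function.update_of_ne, hm, hm', Fin.tail]
  · have h4 : iota 1 (flipAt i (coinSplit d c).2) (y 0, Fin.tail y)
        = (y 0, flipAt i (coinSplit d c).2 (Fin.tail y)) := by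
      rw [hb, iota_apply_same]
    rw [h4]
    have h4' : iota 0 (flipAt i (coinSplit d c).1) (y 0, flipAt i (coinSplit d c).2 (Fin.tail y))
        = (y 0, flipAt i (coinSplit d c).2 (Fin.tail y)) :=
      iota_apply_ne (by rw [hb]; decide) _ _
    rw [h4', hb]
    refine Fin.cases ?_ (fun m => ?_) k
    · simp [split, Function.update_of_ne (Fin.succ_ne_zero i).symm, hb]
    · have e1 : (split d (1, (flipAt i (coinSplit d c).2) (Fin.tail y))) m.succ
          = (flipAt i (coinSplit d c).2) (Fin.tail y) m := by simp [split]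
      rw [e1, flipAt_apply]
      have h5 : Function.update y i.succ 0 = Fin.cons 1 (Function.update (Fin.tail y) i 0) := by
        rw [← h3 1]
        congr 1
        rw [← hb]
        exact hyc
      rw [h5]
      by_cases hm : m = i
      · subst hm
        simp [Fin.tail, coinSplit]
      · have hm' : m.succ ≠ i.succ := fun h => hm (Fin.succ_injective _ h)
        simp [Function.update_of_ne, hm, hm', Fin.tail]

omit [InnerProductSpace ℝ H] in
lemma iota_comm_slices {C : Type*} [DecidableEq C] (g g' : Perm C) :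
    iota 0 g * iota 1 g' = iota 1 g' * iota 0 g := by
  ext1 p
  obtain ⟨a, x⟩ := p
  have ha : a = 0 ∨ a = 1 := by
    have : ∀ a : Fin 2, a = 0 ∨ a = 1 := by decide
    exact this _
  rcases ha with rfl | rfl
  · have h : iota (1 : Fin 2) g' ((0 : Fin 2), x) = (0, x) := iota_apply_ne (by decide) _ _
    have h2 : iota (1 : Fin 2) g' ((0 : Fin 2), g x) = (0, g x) := iota_apply_ne (by decide) _ _
    simp [Perm.mul_apply, h, h2]
  · have h : iota (0 : Fin 2) g ((1 : Fin 2), x) = (1, x) := iota_apply_ne (by decide) _ _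
    have h2 : iota (0 : Fin 2) g ((1 : Fin 2), g' x) = (1, g' x) := iota_apply_ne (by decide) _ _
    simp [Perm.mul_apply, h, h2]

/-- The column step as the layer at bit `0`. -/
lemma FlipOp_zero (π : Perm (Fin (d + 1) → Fin 2) →* (H →L[ℝ] H)) :
    FlipOp 0 π = Col (π.comp (splitHom d)) := by
  unfold FlipOp Col
  have hsum : ∑ c : (Fin (d + 1) → Fin 2) → Fin 2, π (flipAt 0 c)
      = ((2 : ℝ) ^ (2 ^ d)) • ∑ c' : (Fin d → Fin 2) → Fin 2, π (splitHom d (flip c')) := by
    have h1 : ∀ c : (Fin (d + 1) → Fin 2) → Fin 2, π (flipAt 0 c)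
        = π (splitHom d (flip (coinSplit d c).1)) := by
      intro c
      rw [← splitHom_flip c]
      rfl
    simp only [h1]
    rw [← Equiv.sum_comp (coinSplit d).symm]
    simp only [Equiv.apply_symm_apply]
    rw [Fintype.sum_prod_type]
    simp only [Finset.sum_const, Finset.card_univ, card_coins]
    rw [Finset.smul_sum]
    refine Finset.sum_congr rfl ?_
    intro c _
    rw [← Nat.cast_smul_eq_nsmul ℝ]
    push_cast
    rfl
  rw [hsum, smul_smul]
  have hcard : Fintype.card (Fin d → Fin 2) = 2 ^ d := by simp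
  rw [hcard]
  congr 1
  have h2 : (2 : ℝ) ^ (2 ^ (d + 1)) = 2 ^ (2 ^ d) * 2 ^ (2 ^ d) := by
    rw [← pow_add]
    congr 1
    rw [pow_succ]
    ring
  rw [h2]
  field_simp

/-- A layer at bit `succ i` is a product of two layers at bit `i` in the two slices. -/
lemma FlipOp_succ (π : Perm (Fin (d + 1) → Fin 2) →* (H →L[ℝ] H)) (i : Fin d) :
    FlipOp i.succ π = FlipOp i ((π.comp (splitHom d)).comp (iota 0))
      * FlipOp i ((π.comp (splitHom d)).comp (iota 1)) := by
  unfold FlipOp
  have h1 : ∀ c : (Fin (d + 1) → Fin 2) → Fin 2, π (flipAt i.succ c)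
      = π (splitHom d (iota 0 (flipAt i (coinSplit d c).1)))
        * π (splitHom d (iota 1 (flipAt i (coinSplit d c).2))) := by
    intro c
    rw [← splitHom_iota_flip i c, map_mul, map_mul]
  simp only [h1]
  rw [← Equiv.sum_comp (coinSplit d).symm]
  simp only [Equiv.apply_symm_apply]
  rw [Fintype.sum_prod_type]
  rw [smul_mul_smul_comm, Finset.sum_mul_sum]
  congr 1
  have h2 : (2 : ℝ) ^ (2 ^ (d + 1)) = 2 ^ (2 ^ d) * 2 ^ (2 ^ d) := by
    rw [← pow_add]
    congr 1
    rw [pow_succ]
    ring
  rw [h2]
  field_simp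

/-- The sequence of layers. -/
noncomputable def layerSeq {D : ℕ} (π : Perm (Fin D → Fin 2) →* (H →L[ℝ] H)) (j : ℕ) : H →L[ℝ] H :=
  if h : j < D then FlipOp ⟨j, h⟩ π else 1

lemma layerSeq_commute (π : Perm (Fin (d + 1) → Fin 2) →* (H →L[ℝ] H)) (i j : ℕ) :
    Commute (layerSeq (D := d) ((π.comp (splitHom d)).comp (iota 0)) i)
      (layerSeq (D := d) ((π.comp (splitHom d)).comp (iota 1)) j) := by
  unfold layerSeq
  split_ifs with h1 h2
  · unfold FlipOp
    apply Commute.smul_left
    apply Commute.smul_right
    apply Commute.sum_left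
    intro c _
    apply Commute.sum_right
    intro c' _
    unfold Commute SemiconjBy
    simp only [MonoidHom.comp_apply]
    rw [← map_mul, ← map_mul, ← map_mul, ← map_mul, iota_comm_slices]
  · exact Commute.one_right _
  · exact Commute.one_left _
  · exact Commute.one_left _

open ThorpL2 in
/-- `W` is the product of the layers. -/
theorem W_eq_prodDown (d : ℕ) (π : Perm (Fin d → Fin 2) →* (H →L[ℝ] H)) :
    W d π = prodDown (layerSeq π) d := by
  induction d with
  | zero => rfl
  | succ d ih =>
    have hW : W (d + 1) π = W d ((π.comp (splitHom d)).comp (iota 0))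
        * W d ((π.comp (splitHom d)).comp (iota 1)) * Col (π.comp (splitHom d)) := rfl
    rw [hW, ih, ih, ← prodDown_succ', ← FlipOp_zero, ← prodDown_mul (layerSeq_commute π)]
    congr 1
    · refine prodDown_congr d ?_
      intro j hj
      have h1 : layerSeq π (j + 1) = FlipOp (⟨j, hj⟩ : Fin d).succ π := by
        unfold layerSeq
        rw [dif_pos (by omega)]
        rfl
      rw [h1, FlipOp_succ]
      unfold layerSeq
      rw [dif_pos hj, dif_pos hj]

end split

section rotation

variable {d : ℕ}

/-- The rotation of the bits: `(rotE x) i = x (i + 1)`. -/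
def rotE (D : ℕ) : Perm (Fin D → Fin 2) := (finRotate D).symm.arrowCongr (Equiv.refl _)

lemma rotE_apply (D : ℕ) (x : Fin D → Fin 2) (i : Fin D) : rotE D x i = x (finRotate D i) := rfl

lemma rotE_update {D : ℕ} (x : Fin D → Fin 2) (i : Fin D) (v : Fin 2) :
    rotE D (Function.update x (finRotate D i) v) = Function.update (rotE D x) i v := by
  funext k
  rw [rotE_apply]
  by_cases hk : k = i
  · subst hk
    simp
  · have : finRotate D k ≠ finRotate D i := fun h => hk ((finRotate D).injective h)
    rw [Function.update_of_ne this, Function.update_of_ne hk, rotE_apply]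

/-- Conjugation of a flip by the rotation. -/
lemma flipAt_rot {D : ℕ} (i : Fin D) (c : (Fin D → Fin 2) → Fin 2) :
    flipAt i (c ∘ (rotE D).symm) * rotE D = rotE D * flipAt (finRotate D i) c := by
  ext1 x
  simp only [Perm.mul_apply, flipAt_apply]
  rw [rotE_update]
  have h1 : (c ∘ (rotE D).symm) (Function.update (rotE D x) i 0)
      = c (Function.update x (finRotate D i) 0) := by
    simp only [Function.comp_apply]
    rw [← rotE_update, Equiv.symm_apply_apply]
  rw [h1, rotE_apply]

/-- The layers are conjugate under the rotation. -/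
lemma FlipOp_rot {D : ℕ} (π : Perm (Fin D → Fin 2) →* (H →L[ℝ] H)) (i : Fin D) :
    FlipOp i π * π (rotE D) = π (rotE D) * FlipOp (finRotate D i) π := by
  unfold FlipOp
  rw [smul_mul_assoc, mul_smul_comm, Finset.sum_mul, Finset.mul_sum]
  congr 1
  rw [← Equiv.sum_comp ((rotE D).arrowCongr (Equiv.refl (Fin 2)))]
  refine Finset.sum_congr rfl ?_
  intro c _
  rw [← map_mul, ← map_mul]
  congr 1
  exact flipAt_rot i c

lemma rotE_pow_apply (D t : ℕ) (x : Fin D → Fin 2) (i : Fin D) :
    ((rotE D) ^ t) x i = x (((finRotate D) ^ t) i) := by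
  induction t generalizing x i with
  | zero => simp
  | succ t ih =>
    rw [pow_succ, Perm.mul_apply, ih, rotE_apply, pow_succ', Perm.mul_apply]

lemma finRotate_pow_val (d t : ℕ) (i : Fin (d + 1)) :
    (((finRotate (d + 1)) ^ t) i).val = (i.val + t) % (d + 1) := by
  induction t with
  | zero =>
    simp [Nat.mod_eq_of_lt i.2]
  | succ t ih =>
    rw [pow_succ', Perm.mul_apply, finRotate_apply, Fin.val_add, ih]
    have h1 : ((1 : Fin (d + 1)) : ℕ) = 1 % (d + 1) := rfl
    rw [h1, Nat.add_mod_mod, Nat.mod_add_mod]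
    congr 1

lemma rotE_pow_self (d : ℕ) : (rotE (d + 1)) ^ (d + 1) = 1 := by
  ext1 x
  funext i
  rw [rotE_pow_apply]
  have : ((finRotate (d + 1)) ^ (d + 1)) i = i := by
    ext
    rw [finRotate_pow_val, Nat.add_mod_right, Nat.mod_eq_of_lt i.2]
  rw [this]
  rfl

open ThorpL2 in
/-- **The rotation trick for layers.** -/
theorem theta_pow (π : Perm (Fin (d + 1) → Fin 2) →* (H →L[ℝ] H)) :
    (π (rotE (d + 1)) * Col (π.comp (splitHom d))) ^ (d + 1) = W (d + 1) π := by
  have h0 : layerSeq π 0 = Col (π.comp (splitHom d)) := by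
    unfold layerSeq
    rw [dif_pos (by omega)]
    exact FlipOp_zero π
  rw [← h0, rot_trick (π (rotE (d + 1))) (layerSeq π) (d + 1), ← map_pow, rotE_pow_self, map_one,
    one_mul, W_eq_prodDown]
  intro j hj
  unfold layerSeq
  rw [dif_pos (by omega), dif_pos hj, FlipOp_rot]
  congr 2
  ext
  rw [finRotate_apply, Fin.val_add]
  have h1 : ((1 : Fin (d + 1)) : ℕ) = 1 % (d + 1) := rfl
  rw [h1, Nat.add_mod_mod]
  exact Nat.mod_eq_of_lt hj

end rotation

end Vale.Agent.Lib.P162
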