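import Vale.Agent.Lib.P162.Sector

/-!
# From the static sector inequality to the dynamic one (Gronwall)
-/

namespace Vale.Agent.Lib.P162

open Finset
open scoped RealInnerProductSpace

set_option linter.unusedSectionVars false
set_option linter.unusedDecidableInType false

variable {C : Type*} [Fintype C] [DecidableEq C]
variable {H : Type*} [NormedAddCommGroup H] [InnerProductSpace ℝ H] [CompleteSpace H]

/-- The Lyapunov function. -/
noncomputable def Psi (P : (C → Fin 2) → H →L[ℝ] H) (Y : H →L[ℝ] H) (v : H) (ν T r : ℝ) : ℝ :=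
  ∑ s, Real.exp (ν * (T - r) * wt s) * ‖P s (heat Y r v)‖ ^ 2

theorem Psi_hasDerivAt (P : (C → Fin 2) → H →L[ℝ] H) (Y : H →L[ℝ] H) (v : H) (ν T r : ℝ) :
    HasDerivAt (Psi P Y v ν T)
      (∑ s, (Real.exp (ν * (T - r) * wt s) * (-(ν * wt s)) * ‖P s (heat Y r v)‖ ^ 2
        + Real.exp (ν * (T - r) * wt s) *
            (2 * ⟪P s (heat Y r v), P s (Y (heat Y r v))⟫))) r := by
  unfold Psi
  have h1 : ∀ s : C → Fin 2, HasDerivAt
      (fun r => Real.exp (ν * (T - r) * wt s) * ‖P s (heat Y r v)‖ ^ 2)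
      (Real.exp (ν * (T - r) * wt s) * (-(ν * wt s)) * ‖P s (heat Y r v)‖ ^ 2
        + Real.exp (ν * (T - r) * wt s) *
            (2 * ⟪P s (heat Y r v), P s (Y (heat Y r v))⟫)) r := by
    intro s
    have h2 : HasDerivAt (fun r : ℝ => ν * (T - r) * wt s) (-(ν * wt s)) r := by
      have : HasDerivAt (fun r : ℝ => ν * (T - r) * wt s) (ν * (0 - 1) * wt s) r :=
        (((hasDerivAt_const r T).sub (hasDerivAt_id r)).const_mul ν).mul_const (wt s)
      convert this using 1
      ring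
    have h3 := h2.exp
    have h4 : HasDerivAt (fun r => P s (heat Y r v)) (P s (Y (heat Y r v))) r :=
      (P s).hasFDerivAt.comp_hasDerivAt r (heat_hasDerivAt Y v r)
    have h5 := h4.norm_sq
    exact h3.mul h5
  have h := HasDerivAt.fun_sum (u := (univ : Finset (C → Fin 2))) fun s _ => h1 s
  exact h

/-- **Gronwall.** If the static inequality holds for all `θ ∈ [0, νT]`, then the heat flow of `Y`
does not increase the norm of a vector concentrated on the sector `0`. -/
theorem gronwall {P : (C → Fin 2) → H →L[ℝ] H} {Y : H →L[ℝ] H} {ν T : ℝ} (hν : 0 ≤ ν) (hT : 0 ≤ T)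
    (hνT : Real.exp (2 * (ν * T)) ≤ 2)
    (P_symm : ∀ s u v, ⟪P s u, v⟫ = ⟪u, P s v⟫)
    (P_idem : ∀ s u, P s (P s u) = P s u)
    (parseval : ∀ u, ∑ s, ‖P s u‖ ^ 2 = ‖u‖ ^ 2)
    (static : ∀ (u : H) (θ : ℝ), 0 ≤ θ → Real.exp (2 * θ) ≤ 2 →
      ∑ s, Real.exp (θ * wt s) * (2 * ⟪P s u, Y u⟫)
        ≤ ν * ∑ s, wt s * Real.exp (θ * wt s) * ‖P s u‖ ^ 2)
    {v : H} (hv : ∀ s, s ≠ 0 → P s v = 0) :
    ‖heat Y T v‖ ^ 2 ≤ ‖v‖ ^ 2 := by
  have hderiv : ∀ r ∈ Set.Icc 0 T, HasDerivAt (Psi P Y v ν T) _ r := fun r _ =>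
    Psi_hasDerivAt P Y v ν T r
  have hanti : AntitoneOn (Psi P Y v ν T) (Set.Icc 0 T) := by
    apply antitoneOn_of_deriv_nonpos (convex_Icc 0 T)
    · intro r hr
      exact (hderiv r hr).continuousAt.continuousWithinAt
    · intro r hr
      exact (Psi_hasDerivAt P Y v ν T r).differentiableAt.differentiableWithinAt
    · intro r hr
      rw [(Psi_hasDerivAt P Y v ν T r).deriv]
      rw [interior_Icc] at hr
      set u := heat Y r v with hu
      set θ := ν * (T - r) with hθ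
      have hθ0 : 0 ≤ θ := mul_nonneg hν (by linarith [hr.2])
      have hθ1 : Real.exp (2 * θ) ≤ 2 := by
        refine le_trans (Real.exp_le_exp.mpr ?_) hνT
        have : θ ≤ ν * T := mul_le_mul_of_nonneg_left (by linarith [hr.1]) hν
        linarith
      have hs := static u θ hθ0 hθ1
      rw [Finset.sum_add_distrib]
      have e1 : ∑ s, Real.exp (θ * wt s) * (-(ν * wt s)) * ‖P s u‖ ^ 2
          = -(ν * ∑ s, wt s * Real.exp (θ * wt s) * ‖P s u‖ ^ 2) := by
        rw [Finset.mul_sum, ← Finset.sum_neg_distrib]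
        refine Finset.sum_congr rfl fun s _ => ?_
        ring
      have e2 : ∀ s, ⟪P s u, P s (Y u)⟫ = ⟪P s u, Y u⟫ := by
        intro s
        rw [← P_symm, P_idem]
      simp_rw [e2]
      rw [e1]
      linarith
  have h0 : (0 : ℝ) ∈ Set.Icc 0 T := ⟨le_rfl, hT⟩
  have h1 : T ∈ Set.Icc 0 T := ⟨hT, le_rfl⟩
  have h2 := hanti h0 h1 hT
  have hT' : Psi P Y v ν T T = ‖heat Y T v‖ ^ 2 := by
    unfold Psi
    simp only [sub_self, mul_zero, zero_mul, Real.exp_zero, one_mul]
    exact parseval _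
  have h0' : Psi P Y v ν T 0 = ‖v‖ ^ 2 := by
    unfold Psi
    rw [heat_zero]
    simp only [one_apply_eq_self]
    rw [← parseval v]
    refine Finset.sum_congr rfl fun s _ => ?_
    by_cases hs : s = 0
    · subst hs
      simp [wt]
    · rw [hv s hs]
      simp
  rw [hT', h0'] at h2
  exact h2

end Vale.Agent.Lib.P162
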