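import Vale.Agent.Lib.P162.Regular

/-!
# The left regular representation and centrality of the transposition Laplacian
-/

open scoped InnerProductSpace
open Finset

namespace ThorpL2

noncomputable section

variable {α : Type*} [DecidableEq α] [Fintype α]

/-- The left regular representation. -/
def leftRep : ORep α (Fn α) where
  ρ :=
    { toFun := ltr
      map_one' := by ext f x; simp
      map_mul' := by
        intro g h
        ext f x
        simp [Module.End.mul_apply, mul_assoc] }
  inner_map := by
    intro g x y
    change ⟪ltr g x, ltr g y⟫_ℝ = _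
    rw [inner_ltr]
    congr 1
    ext z
    simp

@[simp] lemma leftRep_rho_apply (g : Equiv.Perm α) (f : Fn α) (x : Equiv.Perm α) :
    leftRep.ρ g f x = f (g⁻¹ * x) := rfl

/-- The transposition Laplacian is central: the left and right forms coincide. -/
lemma leftRep_DC_eq (f : Fn α) : leftRep.DC univ f = regRep.DC univ f := by
  ext x
  simp only [ORep.DC_apply, PiLp.smul_apply, WithLp.ofLp_sum, Finset.sum_apply, PiLp.sub_apply,
    smul_eq_mul]
  congr 1
  refine Finset.sum_equiv x⁻¹ (by simp) ?_
  intro a _
  refine Finset.sum_equiv x⁻¹ (by simp) ?_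
  intro b _
  congr 1
  have h1 : (leftRep.sw a b f) x = f (Equiv.swap a b * x) := by
    show leftRep.ρ (Equiv.swap a b) f x = _
    rw [leftRep_rho_apply, Equiv.swap_inv]
  have h2 : (regRep.sw (x⁻¹ a) (x⁻¹ b) f) x = f (x * Equiv.swap (x⁻¹ a) (x⁻¹ b)) := rfl
  rw [h1, h2]
  congr 1
  have := Equiv.swap_apply_apply x⁻¹ a b
  rw [this]
  group

/-- Left convolution as the extension of the left regular representation to the group algebra. -/
lemma convOp_eq_sum (μ : Equiv.Perm α → ℝ) (f : Fn α) :
    convOp μ f = ∑ g, μ g • leftRep.ρ g f := by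
  ext x
  simp [conv, WithLp.ofLp_sum, Finset.sum_apply]

end

end ThorpL2
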