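import Mathlib

/-!
# Level bound for the transposition Laplacian

For an orthogonal representation `ρ` of `Perm α` on a finite-dimensional real inner product
space `E`, and a finite set `C`, let `DC ρ C = (1/2) ∑_{a,b ∈ C} (1 - ρ (swap a b))`.
If `v` is orthogonal to every vector invariant under `Sym(B)` for every `B ⊆ C` with
`|B| = r + 1`, then `⟪v, DC ρ C v⟫ ≥ |C| (|C| - r) / 2 * ‖v‖²`.

This is an elementary replacement for the content formula.
-/

open scoped InnerProductSpace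
open Finset

namespace ThorpL2

variable {α : Type*} [DecidableEq α]
variable {E : Type*} [NormedAddCommGroup E] [InnerProductSpace ℝ E]

/-- An orthogonal representation of the permutations of `α` (on a real inner product space). -/
structure ORep (α : Type*) [DecidableEq α] (E : Type*) [NormedAddCommGroup E]
    [InnerProductSpace ℝ E] where
  /-- the action -/
  ρ : Equiv.Perm α →* (E →ₗ[ℝ] E)
  /-- the action preserves the inner product -/
  inner_map : ∀ g x y, ⟪ρ g x, ρ g y⟫_ℝ = ⟪x, y⟫_ℝ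

namespace ORep

variable (R : ORep α E)

/-- The action of a transposition. -/
def sw (a b : α) : E →ₗ[ℝ] E := R.ρ (Equiv.swap a b)

lemma sw_sw (a b : α) (x : E) : R.sw a b (R.sw a b x) = x := by
  have h : R.ρ (Equiv.swap a b * Equiv.swap a b) x = x := by simp
  rw [map_mul] at h
  exact h

lemma sw_comm (a b : α) : R.sw a b = R.sw b a := by
  simp [sw, Equiv.swap_comm]

lemma sw_self (a : α) (x : E) : R.sw a a x = x := by
  have h : R.ρ (1 : Equiv.Perm α) x = x := by simp
  unfold sw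
  rw [Equiv.swap_self]
  exact h

lemma sw_symm (a b : α) (x y : E) : ⟪R.sw a b x, y⟫_ℝ = ⟪x, R.sw a b y⟫_ℝ := by
  have h := R.inner_map (Equiv.swap a b) x (R.sw a b y)
  have h2 : R.ρ (Equiv.swap a b) (R.sw a b y) = y := R.sw_sw a b y
  rw [h2] at h
  exact h

lemma norm_sw (a b : α) (x : E) : ‖R.sw a b x‖ = ‖x‖ := by
  have h := R.inner_map (Equiv.swap a b) x x
  rw [real_inner_self_eq_norm_sq, real_inner_self_eq_norm_sq] at h
  exact (sq_eq_sq₀ (norm_nonneg _) (norm_nonneg _)).1 h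

/-- conjugation of a transposition by a permutation -/
lemma rho_sw (g : Equiv.Perm α) (a b : α) (x : E) :
    R.ρ g (R.sw a b x) = R.sw (g a) (g b) (R.ρ g x) := by
  have : Equiv.swap (g a) (g b) * g = g * Equiv.swap a b := by
    rw [Equiv.swap_apply_apply]; simp
  have h : R.ρ (Equiv.swap (g a) (g b) * g) x = R.ρ (g * Equiv.swap a b) x := by rw [this]
  rw [map_mul, map_mul] at h
  exact h.symm

/-- Vectors invariant under all transpositions inside `B`. -/
def Inv (B : Finset α) : Submodule ℝ E where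
  carrier := {w | ∀ a ∈ B, ∀ b ∈ B, R.sw a b w = w}
  add_mem' := by
    intro x y hx hy a ha b hb
    simp only [Set.mem_ofPred_eq] at hx hy
    rw [map_add, hx a ha b hb, hy a ha b hb]
  zero_mem' := by
    intro a _ b _
    simp
  smul_mem' := by
    intro c x hx a ha b hb
    simp only [Set.mem_ofPred_eq] at hx
    rw [map_smul, hx a ha b hb]

lemma mem_Inv {B : Finset α} {w : E} : w ∈ R.Inv B ↔ ∀ a ∈ B, ∀ b ∈ B, R.sw a b w = w := Iff.rfl

/-- The image of an invariant vector is invariant for the image set. -/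
lemma rho_mem_Inv (g : Equiv.Perm α) {B : Finset α} {w : E} (hw : w ∈ R.Inv B) :
    R.ρ g w ∈ R.Inv (B.map g.toEmbedding) := by
  intro a ha b hb
  simp only [Finset.mem_map_equiv] at ha hb
  obtain ⟨a', ha', rfl⟩ : ∃ a' ∈ B, g a' = a := ⟨g.symm a, ha, by simp⟩
  obtain ⟨b', hb', rfl⟩ : ∃ b' ∈ B, g b' = b := ⟨g.symm b, hb, by simp⟩
  rw [← rho_sw, hw a' ha' b' hb']

/-- The transposition Laplacian of a set `C`. -/
noncomputable def DC (C : Finset α) : E →ₗ[ℝ] E :=
  (1 / 2 : ℝ) • ∑ a ∈ C, ∑ b ∈ C, (LinearMap.id - R.sw a b)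

lemma DC_apply (C : Finset α) (v : E) :
    R.DC C v = (1 / 2 : ℝ) • ∑ a ∈ C, ∑ b ∈ C, (v - R.sw a b v) := by
  simp [DC, LinearMap.sum_apply]

lemma DC_symm (C : Finset α) (x y : E) : ⟪R.DC C x, y⟫_ℝ = ⟪x, R.DC C y⟫_ℝ := by
  simp only [DC_apply, real_inner_smul_left, real_inner_smul_right, sum_inner, inner_sum,
    inner_sub_left, inner_sub_right, R.sw_symm]

lemma inner_sw_le (a b : α) (v : E) : ⟪v, R.sw a b v⟫_ℝ ≤ ‖v‖ ^ 2 := by
  have := real_inner_le_norm v (R.sw a b v)
  rw [norm_sw] at this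
  nlinarith [norm_nonneg v]

lemma DC_nonneg (C : Finset α) (v : E) : 0 ≤ ⟪v, R.DC C v⟫_ℝ := by
  simp only [DC_apply, real_inner_smul_right, inner_sum, inner_sub_right]
  apply mul_nonneg (by norm_num)
  apply Finset.sum_nonneg; intro a _
  apply Finset.sum_nonneg; intro b _
  have := R.inner_sw_le a b v
  rw [real_inner_self_eq_norm_sq]
  linarith

/-- `DC` commutes with permutations preserving `C`. -/
lemma DC_rho (C : Finset α) (g : Equiv.Perm α) (hg : ∀ x, g x ∈ C ↔ x ∈ C) (v : E) :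
    R.ρ g (R.DC C v) = R.DC C (R.ρ g v) := by
  simp only [DC_apply, map_smul, map_sum, map_sub, R.rho_sw]
  congr 1
  refine Finset.sum_equiv g (fun a => (hg a).symm) ?_
  intro a _
  refine Finset.sum_equiv g (fun a => (hg a).symm) ?_
  intro b _
  rfl

/-- Vectors orthogonal to every `Sym(B)`-invariant vector, for `B ⊆ C`, `|B| = r + 1`. -/
def U (C : Finset α) (r : ℕ) : Submodule ℝ E where
  carrier := {v | ∀ B ⊆ C, B.card = r + 1 → ∀ w ∈ R.Inv B, ⟪v, w⟫_ℝ = 0}
  add_mem' := by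
    intro x y hx hy B hB hc w hw
    rw [inner_add_left, hx B hB hc w hw, hy B hB hc w hw, add_zero]
  zero_mem' := by
    intro B _ _ w _
    simp
  smul_mem' := by
    intro c x hx B hB hc w hw
    rw [real_inner_smul_left, hx B hB hc w hw, mul_zero]

lemma mem_U {C : Finset α} {r : ℕ} {v : E} :
    v ∈ R.U C r ↔ ∀ B ⊆ C, B.card = r + 1 → ∀ w ∈ R.Inv B, ⟪v, w⟫_ℝ = 0 := Iff.rfl

lemma rho_inv_inner (g : Equiv.Perm α) (x y : E) : ⟪R.ρ g x, y⟫_ℝ = ⟪x, R.ρ g⁻¹ y⟫_ℝ := by
  have h := R.inner_map g x (R.ρ g⁻¹ y)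
  have h2 : R.ρ g (R.ρ g⁻¹ y) = y := by
    have : R.ρ (g * g⁻¹) y = y := by simp
    rwa [map_mul] at this
  rw [h2] at h
  exact h

lemma rho_mem_U {C : Finset α} {r : ℕ} (g : Equiv.Perm α) (hg : ∀ x, g x ∈ C ↔ x ∈ C) {v : E}
    (hv : v ∈ R.U C r) : R.ρ g v ∈ R.U C r := by
  intro B hB hc w hw
  rw [R.rho_inv_inner]
  refine hv (B.map (g⁻¹).toEmbedding) ?_ (by simpa using hc) _ (R.rho_mem_Inv _ hw)
  intro x hx
  simp only [Finset.mem_map_equiv] at hx
  exact (hg x).1 (hB hx)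

/-- Algebra behind the coset decomposition of `Sym(A + i)` over `Sym(A)`. -/
lemma sw_sw_of_mem_Inv {A : Finset α} {φ : E} (hφ : φ ∈ R.Inv A) {i a b : α} (hi : i ∉ A)
    (ha : a ∈ A) (hb : b ∈ A) (hab : a ≠ b) : R.sw i b (R.sw i a φ) = R.sw i a φ := by
  have hia : i ≠ a := fun h => hi (h ▸ ha)
  have hib : i ≠ b := fun h => hi (h ▸ hb)
  have hperm : Equiv.swap i b * Equiv.swap i a = Equiv.swap i a * Equiv.swap a b := by
    have h := Equiv.swap_apply_apply (Equiv.swap i a) a b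
    rw [Equiv.swap_apply_right, Equiv.swap_apply_of_ne_of_ne hib.symm hab.symm] at h
    rw [h]; simp
  have h1 : R.ρ (Equiv.swap i b * Equiv.swap i a) φ = R.ρ (Equiv.swap i a * Equiv.swap a b) φ := by
    rw [hperm]
  rw [map_mul, map_mul] at h1
  have h2 : R.ρ (Equiv.swap a b) φ = φ := hφ a ha b hb
  simp only [Module.End.mul_apply] at h1
  rw [h2] at h1
  exact h1

/-- The symmetrisation of an `Sym(A)`-invariant vector over `A + i`. -/
noncomputable def psi (A : Finset α) (i : α) (φ : E) : E := φ + ∑ a ∈ A, R.sw i a φ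

lemma psi_mem_Inv {A : Finset α} {φ : E} (hφ : φ ∈ R.Inv A) {i : α} (hi : i ∉ A) :
    R.psi A i φ ∈ R.Inv (insert i A) := by
  have key : ∀ b ∈ A, R.sw i b (R.psi A i φ) = R.psi A i φ := by
    intro b hb
    unfold psi
    rw [map_add, map_sum, ← Finset.add_sum_erase A _ hb, ← Finset.add_sum_erase A _ hb]
    rw [R.sw_sw]
    have : ∑ a ∈ A.erase b, R.sw i b (R.sw i a φ) = ∑ a ∈ A.erase b, R.sw i a φ := by
      refine Finset.sum_congr rfl ?_
      intro a ha
      rw [Finset.mem_erase] at ha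
      exact R.sw_sw_of_mem_Inv hφ hi ha.2 hb ha.1
    rw [this]
    abel
  intro x hx y hy
  rw [Finset.mem_insert] at hx hy
  rcases hx with rfl | hx <;> rcases hy with rfl | hy
  · exact R.sw_self _ _
  · exact key y hy
  · rw [R.sw_comm]; exact key x hx
  · -- both in `A`
    unfold psi
    have hix : x ≠ i := fun h => hi (h ▸ hx)
    have hiy : y ≠ i := fun h => hi (h ▸ hy)
    have hsi : Equiv.swap x y i = i := Equiv.swap_apply_of_ne_of_ne hix.symm hiy.symm
    rw [map_add, map_sum, hφ x hx y hy]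
    congr 1
    have hterm : ∀ a, R.sw x y (R.sw i a φ) = R.sw i (Equiv.swap x y a) φ := by
      intro a
      have := R.rho_sw (Equiv.swap x y) i a φ
      rw [hsi] at this
      have h2 : R.ρ (Equiv.swap x y) φ = φ := hφ x hx y hy
      rw [h2] at this
      exact this
    simp only [hterm]
    refine Finset.sum_equiv (Equiv.swap x y) ?_ (by simp)
    intro a
    by_cases hax : a = x
    · subst hax; simp [hy, hx]
    · by_cases hay : a = y
      · subst hay; simp [hx, hy]
      · rw [Equiv.swap_apply_of_ne_of_ne hax hay]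

lemma psi_eq_zero {A : Finset α} {φ : E} (hφ : φ ∈ R.Inv A) {i : α} (hi : i ∉ A)
    (horth : ∀ w ∈ R.Inv (insert i A), ⟪φ, w⟫_ℝ = 0) : R.psi A i φ = 0 := by
  have hψ := R.psi_mem_Inv hφ hi
  have h : ⟪R.psi A i φ, R.psi A i φ⟫_ℝ = 0 := by
    conv_lhs => enter [2]; rw [show R.psi A i φ = R.psi A i φ from rfl]
    have hexp : ∀ w ∈ R.Inv (insert i A), ⟪R.psi A i φ, w⟫_ℝ = 0 := by
      intro w hw
      unfold psi
      rw [inner_add_left, sum_inner, horth w hw, zero_add]
      refine Finset.sum_eq_zero ?_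
      intro a ha
      rw [R.sw_symm, hw i (Finset.mem_insert_self _ _) a (Finset.mem_insert_of_mem ha)]
      exact horth w hw
    exact hexp _ hψ
  exact inner_self_eq_zero.1 h

/-- The identity `∑_{a ∈ A} (φ - (i a) φ) = (|A| + 1) φ` on a vector orthogonal to the
`Sym(A + i)` invariants. -/
lemma sum_sub_sw {A : Finset α} {φ : E} (hφ : φ ∈ R.Inv A) {i : α} (hi : i ∉ A)
    (horth : ∀ w ∈ R.Inv (insert i A), ⟪φ, w⟫_ℝ = 0) :
    ∑ a ∈ A, (φ - R.sw i a φ) = ((A.card : ℝ) + 1) • φ := by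
  have h := R.psi_eq_zero hφ hi horth
  unfold psi at h
  rw [Finset.sum_sub_distrib, Finset.sum_const, add_smul, one_smul, Nat.cast_smul_eq_nsmul]
  have h2 : ∑ a ∈ A, R.sw i a φ = - φ := by
    exact eq_neg_of_add_eq_zero_right h
  rw [h2]
  abel

/-- Splitting `DC` on a vector fixed by `Sym(A)` and orthogonal to all `Sym(A+i)`-invariants. -/
lemma DC_split {A C : Finset α} (hAC : A ⊆ C) {φ : E} (hφ : φ ∈ R.Inv A)
    (horth : ∀ i ∈ C \ A, ∀ w ∈ R.Inv (insert i A), ⟪φ, w⟫_ℝ = 0) :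
    R.DC C φ = (((C \ A).card : ℝ) * ((A.card : ℝ) + 1)) • φ + R.DC (C \ A) φ := by
  have hC : C = (C \ A) ∪ A := (Finset.sdiff_union_of_subset hAC).symm
  have hd : Disjoint (C \ A) A := Finset.sdiff_disjoint
  set C' := C \ A with hC'
  have hs1 : ∀ i ∈ C', ∑ a ∈ A, (φ - R.sw i a φ) = ((A.card : ℝ) + 1) • φ := by
    intro i hi
    exact R.sum_sub_sw hφ (Finset.mem_sdiff.1 hi).2 (horth i hi)
  have hs2 : ∀ i ∈ C', ∑ a ∈ A, (φ - R.sw a i φ) = ((A.card : ℝ) + 1) • φ := by
    intro i hi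
    rw [← hs1 i hi]
    refine Finset.sum_congr rfl ?_
    intro a _
    rw [R.sw_comm]
  have hs3 : ∑ a ∈ A, ∑ b ∈ A, (φ - R.sw a b φ) = 0 := by
    refine Finset.sum_eq_zero ?_
    intro a ha
    refine Finset.sum_eq_zero ?_
    intro b hb
    rw [hφ a ha b hb, sub_self]
  have hfull : ∑ a ∈ C, ∑ b ∈ C, (φ - R.sw a b φ)
      = ∑ a ∈ C', ∑ b ∈ C', (φ - R.sw a b φ) + ∑ a ∈ C', ∑ b ∈ A, (φ - R.sw a b φ)
        + (∑ a ∈ A, ∑ b ∈ C', (φ - R.sw a b φ) + ∑ a ∈ A, ∑ b ∈ A, (φ - R.sw a b φ)) := by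
    rw [hC, Finset.sum_union hd]
    simp only [Finset.sum_union hd, Finset.sum_add_distrib]
  rw [DC_apply, DC_apply, hfull, hs3, add_zero]
  have h1 : ∑ a ∈ C', ∑ b ∈ A, (φ - R.sw a b φ) = (C'.card : ℝ) • ((A.card : ℝ) + 1) • φ := by
    rw [Finset.sum_congr rfl hs1, Finset.sum_const, Nat.cast_smul_eq_nsmul]
  have h2 : ∑ a ∈ A, ∑ b ∈ C', (φ - R.sw a b φ) = (C'.card : ℝ) • ((A.card : ℝ) + 1) • φ := by
    rw [Finset.sum_comm, Finset.sum_congr rfl hs2, Finset.sum_const, Nat.cast_smul_eq_nsmul]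
  rw [h1, h2]
  module

end ORep

/-- Rayleigh bound from a bound on eigenvalues, on an invariant subspace. -/
lemma rayleigh_of_eigen [FiniteDimensional ℝ E] {S : E →ₗ[ℝ] E} (hS : S.IsSymmetric)
    (X : Submodule ℝ E) (hX : ∀ v ∈ X, S v ∈ X) (c : ℝ)
    (h : ∀ (μ : ℝ) (x : E), x ∈ X → x ≠ 0 → S x = μ • x → c ≤ μ) {v : E} (hv : v ∈ X) :
    c * ‖v‖ ^ 2 ≤ ⟪v, S v⟫_ℝ := by
  have hT : (S.restrict hX).IsSymmetric := hS.restrict_invariant hX
  set T := S.restrict hX with hTdef
  let b := hT.eigenvectorBasis rfl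
  let lam := hT.eigenvalues rfl
  have hb : ∀ i, T (b i) = lam i • b i := by
    intro i
    have := hT.apply_eigenvectorBasis rfl i
    simpa only [RCLike.ofReal_real_eq_id, id] using this
  have hc : ∀ i, c ≤ lam i := by
    intro i
    refine h (lam i) (b i : E) (b i).2 ?_ ?_
    · intro h0
      have h1 : (b i) = 0 := Subtype.ext h0
      exact b.orthonormal.ne_zero i h1
    · have := congrArg (Subtype.val) (hb i)
      simpa [hTdef, LinearMap.restrict_apply] using this
  let v' : X := ⟨v, hv⟩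
  have hnorm : ‖v'‖ ^ 2 = ∑ i, ⟪b i, v'⟫_ℝ ^ 2 := by
    have := b.sum_sq_norm_inner_right v'
    simp only [Real.norm_eq_abs, sq_abs] at this
    exact this.symm
  have hq : ⟪v', T v'⟫_ℝ = ∑ i, lam i * ⟪b i, v'⟫_ℝ ^ 2 := by
    rw [← b.sum_inner_mul_inner v' (T v')]
    refine Finset.sum_congr rfl ?_
    intro i _
    have h1 : ⟪b i, T v'⟫_ℝ = lam i * ⟪b i, v'⟫_ℝ := by
      rw [← hT (b i) v', hb i, real_inner_smul_left]
    rw [h1, real_inner_comm]
    ring
  have hvv : ‖v'‖ = ‖v‖ := rfl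
  have hqq : ⟪v', T v'⟫_ℝ = ⟪v, S v⟫_ℝ := rfl
  rw [← hvv, ← hqq, hq, hnorm, Finset.mul_sum]
  refine Finset.sum_le_sum ?_
  intro i _
  exact mul_le_mul_of_nonneg_right (hc i) (sq_nonneg _)

namespace ORep

variable (R : ORep α E)

/-- The orthogonal projection of an invariant vector onto an invariant subspace stays invariant. -/
lemma proj_mem_Inv [FiniteDimensional ℝ E] {A : Finset α} (M : Submodule ℝ E)
    (hM : ∀ a ∈ A, ∀ b ∈ A, ∀ x ∈ M, R.sw a b x ∈ M) {w : E} (hw : w ∈ R.Inv A) :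
    M.starProjection w ∈ R.Inv A := by
  intro a ha b hb
  set φ := M.starProjection w with hφ
  have hφM : φ ∈ M := Submodule.starProjection_apply_mem M w
  have hφ' : w - φ ∈ Mᗮ := Submodule.sub_starProjection_mem_orthogonal w
  have h1 : R.sw a b φ ∈ M := hM a ha b hb φ hφM
  have h2 : R.sw a b (w - φ) ∈ Mᗮ := by
    rw [Submodule.mem_orthogonal] at hφ' ⊢
    intro u hu
    rw [real_inner_comm, R.sw_symm, real_inner_comm]
    exact hφ' _ (hM a ha b hb u hu)
  have h3 : R.sw a b φ - φ = (w - φ) - R.sw a b (w - φ) := by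
    rw [map_sub, hw a ha b hb]
    abel
  have h4 : R.sw a b φ - φ ∈ M := M.sub_mem h1 hφM
  have h5 : R.sw a b φ - φ ∈ Mᗮ := by
    rw [h3]
    exact Mᗮ.sub_mem hφ' h2
  have h6 : R.sw a b φ - φ = 0 := by
    have := (Submodule.mem_orthogonal M _).1 h5 _ h4
    exact inner_self_eq_zero.1 this
  exact sub_eq_zero.1 h6

/-- **Level bound.** If `v` is orthogonal to the `Sym(B)`-invariants for all `B ⊆ C` of size
`r + 1`, then `⟪v, DC C v⟫ ≥ |C| (|C| - r) / 2 ‖v‖²`. -/
theorem level_bound [FiniteDimensional ℝ E] (m : ℕ) :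
    ∀ (C : Finset α), C.card = m → ∀ (r : ℕ) (v : E), v ∈ R.U C r →
      ((m : ℝ) * ((m : ℝ) - r) / 2) * ‖v‖ ^ 2 ≤ ⟪v, R.DC C v⟫_ℝ := by
  induction m using Nat.strong_induction_on with
  | _ m IHm =>
  intro C hC r
  induction r with
  | zero =>
    intro v hv
    rcases C.eq_empty_or_nonempty with h0 | ⟨b, hb⟩
    · subst h0
      simp only [Finset.card_empty] at hC
      subst hC
      simpa using R.DC_nonneg ∅ v
    · have h1 : v = 0 := by
        have hmem : v ∈ R.Inv {b} := by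
          intro x hx y hy
          simp only [Finset.mem_singleton] at hx hy
          subst hx hy
          exact R.sw_self _ _
        have := hv {b} (by simpa using hb) (by simp) v hmem
        exact inner_self_eq_zero.1 this
      subst h1
      simp
  | succ r IHr =>
    intro v hv
    have hcomm : ∀ a ∈ C, ∀ b ∈ C, ∀ x, R.sw a b (R.DC C x) = R.DC C (R.sw a b x) := by
      intro a ha b hb x
      refine R.DC_rho C _ ?_ x
      intro y
      by_cases hya : y = a
      · subst hya; simp [ha, hb]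
      · by_cases hyb : y = b
        · subst hyb; simp [ha, hb]
        · rw [Equiv.swap_apply_of_ne_of_ne hya hyb]
    have hpres : ∀ a ∈ C, ∀ b ∈ C, ∀ x, x ∈ R.U C (r + 1) → R.sw a b x ∈ R.U C (r + 1) := by
      intro a ha b hb x hx
      refine R.rho_mem_U _ ?_ hx
      intro y
      by_cases hya : y = a
      · subst hya; simp [ha, hb]
      · by_cases hyb : y = b
        · subst hyb; simp [ha, hb]
        · rw [Equiv.swap_apply_of_ne_of_ne hya hyb]
    have hDU : ∀ x ∈ R.U C (r + 1), R.DC C x ∈ R.U C (r + 1) := by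
      intro x hx
      rw [DC_apply]
      refine Submodule.smul_mem _ _ (Submodule.sum_mem _ ?_)
      intro a ha
      refine Submodule.sum_mem _ ?_
      intro b hb
      exact Submodule.sub_mem _ hx (hpres a ha b hb x hx)
    have hS : (R.DC C).IsSymmetric := fun x y => R.DC_symm C x y
    refine rayleigh_of_eigen hS (R.U C (r + 1)) hDU _ ?_ hv
    intro μ x hxU hx0 hxμ
    have hmono : (m : ℝ) * ((m : ℝ) - ((r + 1 : ℕ) : ℝ)) / 2 ≤ (m : ℝ) * ((m : ℝ) - r) / 2 := by
      have : (0 : ℝ) ≤ m := Nat.cast_nonneg m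
      push_cast
      nlinarith
    by_cases hxr : x ∈ R.U C r
    · have h1 := IHr x hxr
      have h2 : ⟪x, R.DC C x⟫_ℝ = μ * ‖x‖ ^ 2 := by
        rw [hxμ, real_inner_smul_right, real_inner_self_eq_norm_sq]
      rw [h2] at h1
      have hpos : 0 < ‖x‖ ^ 2 := by positivity
      exact hmono.trans (le_of_mul_le_mul_right h1 hpos)
    · -- `x` is not orthogonal to some `Inv A`
      rw [mem_U] at hxr
      push Not at hxr
      obtain ⟨A, hAC, hAcard, w, hw, hxw⟩ := hxr
      let M : Submodule ℝ E := Module.End.eigenspace (R.DC C) μ ⊓ R.U C (r + 1)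
      have hxM : x ∈ M := by
        refine ⟨?_, hxU⟩
        exact Module.End.mem_eigenspace_iff.2 hxμ
      have hMinv : ∀ a ∈ A, ∀ b ∈ A, ∀ y ∈ M, R.sw a b y ∈ M := by
        intro a ha b hb y hy
        refine ⟨?_, hpres a (hAC ha) b (hAC hb) y hy.2⟩
        have := Module.End.mem_eigenspace_iff.1 hy.1
        refine Module.End.mem_eigenspace_iff.2 ?_
        rw [← hcomm a (hAC ha) b (hAC hb), this, map_smul]
      set φ := M.starProjection w with hφdef
      have hφM : φ ∈ M := Submodule.starProjection_apply_mem M w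
      have hφinv : φ ∈ R.Inv A := R.proj_mem_Inv M hMinv hw
      have hφ0 : φ ≠ 0 := by
        intro h0
        have h1 : ⟪x, w⟫_ℝ = ⟪x, φ⟫_ℝ := by
          have hd : w - φ ∈ Mᗮ := Submodule.sub_starProjection_mem_orthogonal w
          have := (Submodule.mem_orthogonal M _).1 hd x hxM
          rw [inner_sub_right] at this
          linarith
        rw [h0, inner_zero_right] at h1
        exact hxw h1
      have hφμ : R.DC C φ = μ • φ := Module.End.mem_eigenspace_iff.1 hφM.1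
      have hφU : φ ∈ R.U C (r + 1) := hφM.2
      have horth : ∀ i ∈ C \ A, ∀ y ∈ R.Inv (insert i A), ⟪φ, y⟫_ℝ = 0 := by
        intro i hi y hy
        rw [Finset.mem_sdiff] at hi
        refine hφU (insert i A) ?_ ?_ y hy
        · exact Finset.insert_subset hi.1 hAC
        · rw [Finset.card_insert_of_notMem hi.2, hAcard]
      have hsplit := R.DC_split hAC hφinv horth
      have hcardC' : (C \ A).card = m - (r + 1) := by
        rw [Finset.card_sdiff_of_subset hAC, hC, hAcard]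
      have hle : r + 1 ≤ m := by
        rw [← hC, ← hAcard]
        exact Finset.card_le_card hAC
      have hlt : m - (r + 1) < m := by omega
      have hU' : φ ∈ R.U (C \ A) (r + 1) := by
        intro B hB hc y hy
        exact hφU B (hB.trans Finset.sdiff_subset) hc y hy
      have hIH := IHm (m - (r + 1)) hlt (C \ A) hcardC' (r + 1) φ hU'
      have hcast : ((m - (r + 1) : ℕ) : ℝ) = (m : ℝ) - (r + 1) := by
        rw [Nat.cast_sub hle]; push_cast; ring
      have hq : ⟪φ, R.DC C φ⟫_ℝ = μ * ‖φ‖ ^ 2 := by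
        rw [hφμ, real_inner_smul_right, real_inner_self_eq_norm_sq]
      have hq2 : ⟪φ, R.DC C φ⟫_ℝ = ((m : ℝ) - (r + 1)) * ((r : ℝ) + 1 + 1) * ‖φ‖ ^ 2
          + ⟪φ, R.DC (C \ A) φ⟫_ℝ := by
        rw [hsplit, inner_add_right, real_inner_smul_right, real_inner_self_eq_norm_sq, hcardC',
          hcast, hAcard]
        push_cast
        ring
      rw [hcast] at hIH
      have hpos : 0 < ‖φ‖ ^ 2 := by positivity
      have hm : (r : ℝ) + 1 ≤ m := by exact_mod_cast hle
      have hfin : (((m : ℝ) - (r + 1)) * ((r : ℝ) + 1 + 1)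
          + ((m : ℝ) - (r + 1)) * (((m : ℝ) - (r + 1)) - ((r + 1 : ℕ) : ℝ)) / 2) * ‖φ‖ ^ 2
            ≤ μ * ‖φ‖ ^ 2 := by
        rw [← hq, hq2]
        nlinarith
      have hμ := le_of_mul_le_mul_right hfin hpos
      push_cast at hμ ⊢
      nlinarith

end ORep

end ThorpL2
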