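import Vale.Agent.Lib.P162.Defs
import Vale.Agent.Lib.P162.Encode

/-!
# The Thorp permutation and its bit description
-/

namespace Vale.Agent.Lib.P162

open Equiv Finset

lemma thorpPos_lt (m : ℕ) (c : Fin m → Fin 2) (x : Fin (2 * m)) : thorpPos m c x < 2 * m := by
  unfold thorpPos
  have hx := x.2
  split_ifs with h
  · have := (c ⟨x, h⟩).2
    omega
  · have := (c ⟨(x : ℕ) - m, by omega⟩).2
    omega

lemma thorpPos_injective (m : ℕ) (c : Fin m → Fin 2) : Function.Injective (thorpPos m c) := by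
  intro x y hxy
  unfold thorpPos at hxy
  have hx := x.2
  have hy := y.2
  ext
  split_ifs at hxy with h1 h2 h2
  · have a1 := (c ⟨x, h1⟩).2
    have a2 := (c ⟨y, h2⟩).2
    omega
  · have a1 := (c ⟨x, h1⟩).2
    have a2 := (c ⟨(y : ℕ) - m, by omega⟩).2
    have h3 : (x : ℕ) = (y : ℕ) - m := by omega
    exfalso
    have h4 : (⟨(y : ℕ) - m, by omega⟩ : Fin m) = ⟨x, h1⟩ := Fin.ext h3.symm
    rw [h4] at hxy
    omega
  · have a1 := (c ⟨y, h2⟩).2
    have a2 := (c ⟨(x : ℕ) - m, by omega⟩).2
    have h3 : (y : ℕ) = (x : ℕ) - m := by omega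
    exfalso
    have h4 : (⟨(x : ℕ) - m, by omega⟩ : Fin m) = ⟨y, h2⟩ := Fin.ext h3.symm
    rw [h4] at hxy
    omega
  · have a1 := (c ⟨(x : ℕ) - m, by omega⟩).2
    have a2 := (c ⟨(y : ℕ) - m, by omega⟩).2
    have h3 : (x : ℕ) - m = (y : ℕ) - m := by omega
    omega

/-- The permutation of positions performed by one shuffle with coins `c`. -/
noncomputable def thorpPerm (m : ℕ) (c : Fin m → Fin 2) : Perm (Fin (2 * m)) :=
  Equiv.ofBijective (fun x => ⟨thorpPos m c x, thorpPos_lt m c x⟩)
    (Finite.injective_iff_bijective.1 (by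
      intro x y h
      exact thorpPos_injective m c (Fin.mk.inj_iff.1 h)))

@[simp] lemma thorpPerm_val (m : ℕ) (c : Fin m → Fin 2) (x : Fin (2 * m)) :
    ((thorpPerm m c x : Fin (2 * m)) : ℕ) = thorpPos m c x := rfl

lemma thorpLaw_eq (m : ℕ) (g : Perm (Fin (2 * m))) :
    thorpLaw m g = ((univ.filter (fun c : Fin m → Fin 2 => thorpPerm m c = g)).card : ℝ) / 2 ^ m := by
  unfold thorpLaw
  congr 3
  ext c
  simp only [Finset.mem_filter, Finset.mem_univ, true_and]
  constructor
  · intro h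
    ext x
    rw [h x]
    rfl
  · rintro rfl x
    rfl

/-- Integration against the Thorp law is the average over the coins. -/
lemma sum_thorpLaw {M : Type*} [AddCommGroup M] [Module ℝ M] (m : ℕ)
    (F : Perm (Fin (2 * m)) → M) :
    ∑ g, thorpLaw m g • F g = ((1 : ℝ) / 2 ^ m) • ∑ c : Fin m → Fin 2, F (thorpPerm m c) := by
  have h : ∀ g, thorpLaw m g • F g = ((1 : ℝ) / 2 ^ m) •
      ∑ c ∈ univ.filter (fun c : Fin m → Fin 2 => thorpPerm m c = g), F (thorpPerm m c) := by
    intro g
    rw [thorpLaw_eq]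
    have : ∑ c ∈ univ.filter (fun c : Fin m → Fin 2 => thorpPerm m c = g), F (thorpPerm m c)
        = ((univ.filter (fun c : Fin m → Fin 2 => thorpPerm m c = g)).card : ℝ) • F g := by
      rw [Finset.sum_congr rfl (g := fun _ => F g) (by
        intro c hc
        rw [(Finset.mem_filter.1 hc).2])]
      rw [Finset.sum_const, Nat.cast_smul_eq_nsmul]
    rw [this, smul_smul]
    congr 1
    ring
  simp only [h]
  rw [← Finset.smul_sum]
  congr 1
  exact Finset.sum_fiberwise _ _ _

lemma thorpLaw_nonneg (m : ℕ) (g : Perm (Fin (2 * m))) : 0 ≤ thorpLaw m g := by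
  unfold thorpLaw
  positivity

lemma thorpLaw_sum (m : ℕ) : ∑ g, thorpLaw m g = 1 := by
  have h := sum_thorpLaw (M := ℝ) m (fun _ => 1)
  simp only [smul_eq_mul, mul_one, Finset.sum_const, Finset.card_univ, Fintype.card_fun,
    Fintype.card_fin, nsmul_eq_mul] at h
  rw [h]
  push_cast
  field_simp

/-- The big-endian encoding of the deck of `2 * 2 ^ d` cards. -/
noncomputable def enc (d : ℕ) : Fin (2 * 2 ^ d) ≃ (Fin (d + 1) → Fin 2) :=
  Equiv.ofBijective (fun x => ThorpL2.bitsOf (d + 1) x.val) (by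
    rw [Fintype.bijective_iff_injective_and_card]
    constructor
    · intro x y h
      refine Fin.ext (ThorpL2.bitsOf_injOn (d + 1) ?_ ?_ h)
      · have := x.2; rw [pow_succ]; omega
      · have := y.2; rw [pow_succ]; omega
    · simp only [Fintype.card_fin, Fintype.card_pi, Finset.prod_const, Finset.card_univ]
      ring)

lemma enc_apply (d : ℕ) (x : Fin (2 * 2 ^ d)) (i : Fin (d + 1)) :
    enc d x i = if x.val.testBit (d - i) then 1 else 0 := by
  show ThorpL2.bitsOf (d + 1) x.val i = _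
  unfold ThorpL2.bitsOf
  simp

/-- The low part of a position. -/
def lowPart (d : ℕ) (x : Fin (2 * 2 ^ d)) : Fin (2 ^ d) :=
  ⟨x.val % 2 ^ d, Nat.mod_lt _ (by positivity)⟩

lemma testBit_top (d : ℕ) {v : ℕ} (h1 : 2 ^ d ≤ v) (h2 : v < 2 * 2 ^ d) : v.testBit d = true := by
  have h3 : v = 2 ^ d + (v - 2 ^ d) := by omega
  rw [h3, Nat.testBit_two_pow_add_eq, Nat.testBit_lt_two_pow (by omega)]
  rfl

lemma enc_zero (d : ℕ) (x : Fin (2 * 2 ^ d)) :
    enc d x 0 = if x.val < 2 ^ d then 0 else 1 := by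
  rw [enc_apply]
  simp only [Fin.val_zero, Nat.sub_zero]
  by_cases h : x.val < 2 ^ d
  · simp [Nat.testBit_lt_two_pow h, h]
  · have hx := x.2
    have h3 : x.val.testBit d = true := testBit_top d (by omega) hx
    simp [h3, h]

/-- The tail of the encoding is the encoding of the low part. -/
lemma tail_enc (d : ℕ) (x : Fin (2 * 2 ^ d)) :
    Fin.tail (enc d x) = ThorpL2.encode d (lowPart d x) := by
  funext k
  rw [Fin.tail, enc_apply, ThorpL2.encode_apply]
  unfold ThorpL2.bitsOf lowPart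
  have hk := k.2
  simp only [Fin.val_succ]
  have h1 : (x.val % 2 ^ d).testBit (d - 1 - k) = x.val.testBit (d - 1 - k) := by
    rw [Nat.testBit_mod_two_pow]
    simp only [Bool.and_eq_right_iff_imp, decide_eq_true_eq]
    intro _
    omega
  have h2 : d - (k.val + 1) = d - 1 - k := by omega
  simp only [h1, h2]

/-- The arithmetic description of the new position. -/
lemma thorpPos_eq (d : ℕ) (c : Fin (2 ^ d) → Fin 2) (x : Fin (2 * 2 ^ d)) :
    thorpPos (2 ^ d) c x = 2 * (lowPart d x).val + ((enc d x 0 + c (lowPart d x) : Fin 2) : ℕ) := by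
  have hx := x.2
  rw [enc_zero]
  unfold thorpPos
  by_cases h : x.val < 2 ^ d
  · have hl : lowPart d x = ⟨x.val, h⟩ := Fin.ext (Nat.mod_eq_of_lt h)
    rw [dif_pos h, if_pos h, hl]
    simp
  · have hl : lowPart d x = ⟨x.val - 2 ^ d, by omega⟩ := by
      apply Fin.ext
      have h3 : x.val = 2 ^ d + (x.val - 2 ^ d) := by omega
      show x.val % 2 ^ d = x.val - 2 ^ d
      conv_lhs => rw [h3]
      rw [Nat.add_mod_left, Nat.mod_eq_of_lt (by omega)]
    rw [dif_neg h, if_neg h, hl]
    have key : ∀ a : Fin 2, 1 - (a : ℕ) = ((1 + a : Fin 2) : ℕ) := by decide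
    have key2 : ∀ a : Fin 2, (a : ℕ) ≤ 1 := by decide
    have h4 := key (c ⟨x.val - 2 ^ d, by omega⟩)
    have h5 := key2 (c ⟨x.val - 2 ^ d, by omega⟩)
    simp only
    omega

/-- The bits of the new position. -/
lemma enc_thorpPerm (d : ℕ) (c : Fin (2 ^ d) → Fin 2) (x : Fin (2 * 2 ^ d)) (i : Fin (d + 1)) :
    enc d (thorpPerm (2 ^ d) c x) i =
      if h : i.val < d then enc d x ⟨i.val + 1, by omega⟩
      else enc d x 0 + c (lowPart d x) := by
  rw [enc_apply, thorpPerm_val, thorpPos_eq]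
  by_cases h : i.val < d
  · have hr : enc d x ⟨i.val + 1, by omega⟩ = if x.val.testBit (d - 1 - i) then 1 else 0 := by
      rw [enc_apply]
      have h2 : d - ((⟨i.val + 1, by omega⟩ : Fin (d + 1)) : ℕ) = d - 1 - i := by
        simp only
        omega
      simp only [h2]
    rw [dif_pos h, hr]
    have h1 : d - (i : ℕ) = (d - 1 - i) + 1 := by omega
    simp only [h1, Nat.testBit_add_one]
    have ha : ∀ a : Fin 2, (a : ℕ) < 2 := fun a => a.2
    have h3 : (2 * (lowPart d x).val + ((enc d x 0 + c (lowPart d x) : Fin 2) : ℕ)) / 2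
        = (lowPart d x).val := by
      have := ha (enc d x 0 + c (lowPart d x))
      omega
    simp only [h3]
    unfold lowPart
    have h4 : (x.val % 2 ^ d).testBit (d - 1 - i) = x.val.testBit (d - 1 - i) := by
      rw [Nat.testBit_mod_two_pow]
      simp only [Bool.and_eq_right_iff_imp, decide_eq_true_eq]
      intro _
      omega
    simp only [h4]
  · rw [dif_neg h]
    have hi : d - (i : ℕ) = 0 := by
      have := i.2
      omega
    simp only [hi, Nat.testBit_zero]
    have key : ∀ a : Fin 2, ∀ l : ℕ, (if (decide ((2 * l + (a : ℕ)) % 2 = 1)) = true then (1 : Fin 2) else 0) = a := by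
      intro a l
      have h2 : (2 * l + (a : ℕ)) % 2 = (a : ℕ) := by
        have := a.2
        omega
      rw [h2]
      clear h2
      revert a
      decide
    exact key _ _

end Vale.Agent.Lib.P162
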