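import Vale.Agent.Lib.P162.Flips
import Vale.Agent.Lib.P162.ThorpPerm
import Vale.Agent.Lib.P162.LeftRep

/-!
# The link between the Thorp law and the layered operator `W`
-/

open scoped InnerProductSpace

namespace Vale.Agent.Lib.P162

open Equiv Finset

/-- Left regular representation by continuous linear maps. -/
noncomputable def leftCLM (α : Type*) [DecidableEq α] [Fintype α] :
    Perm α →* (ThorpL2.Fn α →L[ℝ] ThorpL2.Fn α) where
  toFun g := LinearMap.toContinuousLinearMap (ThorpL2.ltr g)
  map_one' := by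
    ext f x
    simp
  map_mul' g h := by
    ext f x
    simp [mul_assoc]

@[simp] lemma leftCLM_apply {α : Type*} [DecidableEq α] [Fintype α] (g : Perm α)
    (f : ThorpL2.Fn α) (x : Perm α) : leftCLM α g f x = f (g⁻¹ * x) := rfl

/-- The representation of the permutations of the cube on functions on the permutations of the
deck. -/
noncomputable def piE (d : ℕ) : Perm (Fin (d + 1) → Fin 2) →*
    (ThorpL2.Fn (Fin (2 * 2 ^ d)) →L[ℝ] ThorpL2.Fn (Fin (2 * 2 ^ d))) :=
  (leftCLM (Fin (2 * 2 ^ d))).comp ((enc d).symm.permCongrHom.toMonoidHom)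

lemma piE_apply (d : ℕ) (h : Perm (Fin (d + 1) → Fin 2)) :
    piE d h = leftCLM (Fin (2 * 2 ^ d)) ((enc d).symm.permCongr h) := rfl

lemma piE_isOrth (d : ℕ) : IsOrth (piE d) := by
  intro g u v
  exact ThorpL2.leftRep.inner_map ((enc d).symm.permCongr g) u v

/-- Conjugating the Thorp permutation to the cube. -/
lemma conj_thorp (d : ℕ) (c : Fin (2 ^ d) → Fin 2) :
    (enc d).symm.permCongr (rotE (d + 1) * splitHom d (flip (c ∘ (ThorpL2.encode d).symm)))
      = thorpPerm (2 ^ d) c := by
  ext1 x
  apply (enc d).injective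
  funext i
  rw [enc_thorpPerm]
  have h1 : (enc d) (((enc d).symm.permCongr
      (rotE (d + 1) * splitHom d (flip (c ∘ (ThorpL2.encode d).symm)))) x)
      = rotE (d + 1) (splitHom d (flip (c ∘ (ThorpL2.encode d).symm)) (enc d x)) := by
    simp [Equiv.permCongr_apply]
  rw [h1, rotE_apply]
  have h2 : splitHom d (flip (c ∘ (ThorpL2.encode d).symm)) (enc d x)
      = Fin.cons (enc d x 0 + c (lowPart d x)) (Fin.tail (enc d x)) := by
    have h3 : (split d).symm (enc d x) = (enc d x 0, Fin.tail (enc d x)) := by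
      rw [Equiv.symm_apply_eq]
      exact (split_self_tail _).symm
    have h4 : splitHom d (flip (c ∘ (ThorpL2.encode d).symm)) (enc d x)
        = split d (flip (c ∘ (ThorpL2.encode d).symm) ((split d).symm (enc d x))) := rfl
    rw [h4, h3, flip_apply, split_apply]
    congr 2
    simp [tail_enc]
  rw [h2]
  by_cases h : i.val < d
  · rw [dif_pos h]
    have h5 : finRotate (d + 1) i = (⟨i.val, h⟩ : Fin d).succ := by
      ext
      rw [finRotate_apply, Fin.val_add]
      have h6 : ((1 : Fin (d + 1)) : ℕ) = 1 % (d + 1) := rfl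
      rw [h6, Nat.add_mod_mod, Nat.mod_eq_of_lt (by omega)]
      rfl
    rw [h5, Fin.cons_succ]
    rfl
  · rw [dif_neg h]
    have h5 : finRotate (d + 1) i = 0 := by
      have h7 : i = Fin.last d := by
        ext
        have := i.2
        simp only [Fin.val_last]
        omega
      rw [h7, finRotate_last]
    rw [h5, Fin.cons_zero]

/-- One step of the Thorp shuffle, as an operator. -/
theorem convOp_eq_theta (d : ℕ) (f : ThorpL2.Fn (Fin (2 * 2 ^ d))) :
    ThorpL2.convOp (thorpLaw (2 ^ d)) f
      = (piE d (rotE (d + 1)) * Col ((piE d).comp (splitHom d))) f := by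
  rw [ThorpL2.convOp_eq_sum]
  have h1 := sum_thorpLaw (2 ^ d) (fun g : Perm (Fin (2 * 2 ^ d)) => ThorpL2.leftRep.ρ g f)
  rw [h1]
  unfold Col
  rw [ContinuousLinearMap.mul_apply, ContinuousLinearMap.smul_apply, map_smul,
    ContinuousLinearMap.sum_apply, map_sum]
  have hcard : Fintype.card (Fin d → Fin 2) = 2 ^ d := by simp
  rw [hcard]
  congr 1
  rw [← Equiv.sum_comp ((ThorpL2.encode d).arrowCongr (Equiv.refl (Fin 2)))]
  refine Finset.sum_congr rfl ?_
  intro c _
  have h2 := conj_thorp d c
  have h3 : ThorpL2.leftRep.ρ (thorpPerm (2 ^ d) c) f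
      = leftCLM _ (thorpPerm (2 ^ d) c) f := rfl
  rw [h3, ← h2, ← piE_apply, map_mul]
  rfl

/-- Powers of one step. -/
theorem convOp_pow_eq (d t : ℕ) (f : ThorpL2.Fn (Fin (2 * 2 ^ d))) :
    ((ThorpL2.convOp (thorpLaw (2 ^ d))) ^ t) f
      = ((piE d (rotE (d + 1)) * Col ((piE d).comp (splitHom d))) ^ t) f := by
  induction t generalizing f with
  | zero => simp
  | succ t ih =>
    rw [pow_succ', Module.End.mul_apply, convOp_eq_theta, ih, pow_succ']
    rfl

/-- The Laplacian of the cube representation is the transposition Laplacian on the deck group. -/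
theorem lap_piE (d : ℕ) (f : ThorpL2.Fn (Fin (2 * 2 ^ d))) :
    lap univ (piE d) f = ThorpL2.Dl f := by
  show _ = ThorpL2.regRep.DC univ f
  rw [← ThorpL2.leftRep_DC_eq, lap_apply, ThorpL2.ORep.DC_apply, Finset.smul_sum]
  symm
  refine Finset.sum_equiv (enc d) (by simp) ?_
  intro a _
  rw [Finset.smul_sum]
  refine Finset.sum_equiv (enc d) (by simp) ?_
  intro b _
  congr 1
  have h : (enc d).symm.permCongr (swap (enc d a) (enc d b)) = swap a b := by
    rw [Equiv.permCongr_def]
    have := Equiv.symm_trans_swap_trans (enc d a) (enc d b) (enc d).symm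
    simpa using this
  rw [piE_apply, h]
  rfl

end Vale.Agent.Lib.P162
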