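import Vale.Agent.Lib.P162.Rep

/-!
# The right regular representation of a finite group on `EuclideanSpace`
-/

namespace Vale.Agent.Lib.P162

open Equiv Finset NormedSpace
open scoped RealInnerProductSpace

/-- The right regular representation: `(regRep h φ) g = φ (g * h)`. -/
noncomputable def regRep (G : Type*) [Group G] [Fintype G] :
    G →* (EuclideanSpace ℝ G →L[ℝ] EuclideanSpace ℝ G) where
  toFun h := ((LinearIsometryEquiv.piLpCongrLeft 2 ℝ ℝ (Equiv.mulRight h⁻¹)).toContinuousLinearEquiv :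
    EuclideanSpace ℝ G →L[ℝ] EuclideanSpace ℝ G)
  map_one' := by
    ext φ g
    simp
    rfl
  map_mul' h k := by
    ext φ g
    simp only [ContinuousLinearMap.coe_coe, mul_apply_eq_comp]
    change φ (g * (h * k)⁻¹⁻¹) = φ ((g * h⁻¹⁻¹) * k⁻¹⁻¹)
    simp [mul_assoc]

variable {G : Type*} [Group G] [Fintype G]

@[simp] theorem regRep_apply (h : G) (φ : EuclideanSpace ℝ G) (g : G) :
    regRep G h φ g = φ (g * h) := by
  change φ (g * h⁻¹⁻¹) = _
  simp

theorem regRep_inner (h : G) (φ ψ : EuclideanSpace ℝ G) :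
    ⟪regRep G h φ, regRep G h ψ⟫ = ⟪φ, ψ⟫ := by
  change ⟪(LinearIsometryEquiv.piLpCongrLeft 2 ℝ ℝ (Equiv.mulRight h⁻¹)) φ,
    (LinearIsometryEquiv.piLpCongrLeft 2 ℝ ℝ (Equiv.mulRight h⁻¹)) ψ⟫ = ⟪φ, ψ⟫
  exact LinearIsometryEquiv.inner_map_map _ _ _

theorem regRep_isOrth (Q : Type*) [Fintype Q] [DecidableEq Q] : IsOrth (regRep (Perm Q)) :=
  fun g u v => regRep_inner g u v

end Vale.Agent.Lib.P162
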