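import Vale.Agent.Lib.P162.Flag

/-!
# The regular representation and the L² bound for a convolution operator
-/

open scoped InnerProductSpace
open Finset

namespace ThorpL2

noncomputable section

variable {α : Type*} [DecidableEq α] [Fintype α]

/-- Real functions on the symmetric group with the `ℓ²` inner product. -/
abbrev Fn (α : Type*) [DecidableEq α] [Fintype α] := EuclideanSpace ℝ (Equiv.Perm α)

/-- Right translation. -/
def rtr (g : Equiv.Perm α) : Fn α →ₗ[ℝ] Fn α where
  toFun f := WithLp.toLp 2 (fun x => f (x * g))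
  map_add' := by intros; ext; simp
  map_smul' := by intros; ext; simp

@[simp] lemma rtr_apply (g : Equiv.Perm α) (f : Fn α) (x : Equiv.Perm α) :
    rtr g f x = f (x * g) := rfl

lemma inner_Fn (f h : Fn α) : ⟪f, h⟫_ℝ = ∑ x, f x * h x := by
  simp [PiLp.inner_apply, mul_comm]

/-- The regular representation (by right translation). -/
def regRep : ORep α (Fn α) where
  ρ :=
    { toFun := rtr
      map_one' := by ext f x; simp
      map_mul' := by intro g h; ext f x; simp [Module.End.mul_apply, mul_assoc] }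
  inner_map := by
    intro g x y
    change ⟪rtr g x, rtr g y⟫_ℝ = _
    rw [inner_Fn, inner_Fn]
    exact Equiv.sum_comp (Equiv.mulRight g) (fun z => x z * y z)

@[simp] lemma regRep_rho_apply (g : Equiv.Perm α) (f : Fn α) (x : Equiv.Perm α) :
    regRep.ρ g f x = f (x * g) := rfl

/-- A function invariant under the transpositions in `B` is invariant under right multiplication
by every permutation fixing the complement of `B`. -/
lemma inv_of_fix {B : Finset α} {f : Fn α} (hf : f ∈ regRep.Inv B) (g h : Equiv.Perm α)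
    (hh : ∀ x, x ∉ B → h x = x) : f (g * h) = f g := by
  have hmem : ∀ (a b : α), a ∈ B → b ∈ B → ∀ x, f (x * Equiv.swap a b) = f x := by
    intro a b ha hb x
    have := hf a ha b hb
    exact congrFun (congrArg (fun v : Fn α => (v : Equiv.Perm α → ℝ)) this) x
  let p : α → Prop := fun x => x ∈ B
  have key : ∀ (h' : Equiv.Perm {x // p x}) (g : Equiv.Perm α),
      f (g * Equiv.Perm.ofSubtype h') = f g := by
    intro h'
    induction h' using Equiv.Perm.swap_induction_on with
    | one => intro g; simp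
    | swap_mul w x y hxy ih =>
      intro g
      rw [map_mul, Equiv.Perm.ofSubtype_swap_eq, ← mul_assoc, ih, hmem _ _ x.2 y.2]
  have h₁ : ∀ x, p (h x) ↔ p x := by
    intro x
    constructor
    · intro hx
      by_contra hcon
      have := hh x hcon
      rw [this] at hx
      exact hcon hx
    · intro hx
      by_contra hcon
      have h2 := hh (h x) hcon
      have h3 := h.injective h2
      rw [h3] at hcon
      exact hcon hx
  have h₂ : ∀ x, h x ≠ x → p x := by
    intro x hx
    by_contra hcon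
    exact hx (hh x hcon)
  have := key (h.subtypePerm h₁) g
  rwa [Equiv.Perm.ofSubtype_subtypePerm h₁ h₂] at this

/-- Dimension bound for the invariants. -/
lemma finrank_Inv_le (B : Finset α) :
    Module.finrank ℝ (regRep.Inv B) ≤ Fintype.card α ^ (Fintype.card α - B.card) := by
  classical
  let Q := {x // x ∉ B} → α
  let π : Equiv.Perm α → Q := fun g x => g x
  let Φ : (Q → ℝ) →ₗ[ℝ] Fn α :=
    { toFun := fun φ => WithLp.toLp 2 (fun g => φ (π g))
      map_add' := by intros; ext; simp
      map_smul' := by intros; ext; simp }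
  have hle : regRep.Inv B ≤ LinearMap.range Φ := by
    intro f hf
    have hfac : Function.FactorsThrough (fun g : Equiv.Perm α => f g) π := by
      intro g g' hgg'
      have h1 : ∀ x, x ∉ B → g x = g' x := by
        intro x hx
        exact congrFun hgg' ⟨x, hx⟩
      have h2 := inv_of_fix hf g (g⁻¹ * g') (by
        intro x hx
        rw [Equiv.Perm.mul_apply, ← h1 x hx]
        simp)
      simp only at h2 ⊢
      rw [← h2]
      simp
    refine ⟨Function.extend π (fun g => f g) 0, ?_⟩
    ext g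
    exact hfac.extend_apply 0 g
  have h1 := Submodule.finrank_mono hle
  have h2 : Module.finrank ℝ (LinearMap.range Φ) ≤ Module.finrank ℝ (Q → ℝ) :=
    LinearMap.finrank_range_le Φ
  rw [Module.finrank_fintype_fun_eq_card] at h2
  have h3 : Fintype.card Q = Fintype.card α ^ (Fintype.card α - B.card) := by
    simp only [Q, Fintype.card_fun, Fintype.card_subtype_compl]
    simp
  omega

lemma finrank_iSup_le {ι : Type*} [DecidableEq ι] (S : Finset ι) (V : ι → Submodule ℝ (Fn α)) :
    Module.finrank ℝ ↥(⨆ i ∈ S, V i) ≤ ∑ i ∈ S, Module.finrank ℝ (V i) := by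
  induction S using Finset.induction_on with
  | empty => simp
  | insert a S ha ih =>
    rw [Finset.sum_insert ha, Finset.iSup_insert]
    exact (Submodule.finrank_add_le_finrank_add_finrank _ _).trans (Nat.add_le_add_left ih _)

lemma finrank_Y_le (s : ℕ) :
    Module.finrank ℝ ((regRep (α := α)).Y s) ≤
      (Fintype.card α).choose s * Fintype.card α ^ (Fintype.card α - s) := by
  unfold ORep.Y
  refine (finrank_iSup_le _ _).trans ?_
  have : ∀ B ∈ Finset.powersetCard s (univ : Finset α),
      Module.finrank ℝ ((regRep (α := α)).Inv B) ≤ Fintype.card α ^ (Fintype.card α - s) := by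
    intro B hB
    rw [Finset.mem_powersetCard] at hB
    have := finrank_Inv_le (α := α) B
    rwa [hB.2] at this
  refine (Finset.sum_le_sum this).trans ?_
  simp [Finset.card_powersetCard]

/-- The delta function at `g`. -/
def dlt (g : Equiv.Perm α) : Fn α := EuclideanSpace.single g (1 : ℝ)

lemma inner_dlt_right (g : Equiv.Perm α) (f : Fn α) : ⟪f, dlt g⟫_ℝ = f g := by
  simp [dlt, inner_Fn, PiLp.single_apply]

lemma inner_dlt_left (g : Equiv.Perm α) (f : Fn α) : ⟪dlt g, f⟫_ℝ = f g := by
  rw [real_inner_comm, inner_dlt_right]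

/-- `∑_g ‖P_Y δ_g‖² = dim Y`. -/
lemma sum_norm_proj_dlt (Y : Submodule ℝ (Fn α)) :
    ∑ g, ‖Y.starProjection (dlt g)‖ ^ 2 = (Module.finrank ℝ Y : ℝ) := by
  let b := stdOrthonormalBasis ℝ Y
  have h1 : ∀ x : Fn α, ‖Y.starProjection x‖ ^ 2 = ∑ i, ⟪(b i : Fn α), x⟫_ℝ ^ 2 := by
    intro x
    have hmem : Y.starProjection x ∈ Y := Submodule.starProjection_apply_mem _ x
    have h2 := b.sum_sq_norm_inner_right (⟨Y.starProjection x, hmem⟩ : Y)
    have h3 : ‖(⟨Y.starProjection x, hmem⟩ : Y)‖ = ‖Y.starProjection x‖ := rfl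
    rw [h3] at h2
    rw [← h2]
    refine Finset.sum_congr rfl ?_
    intro i _
    have h4 : ⟪b i, (⟨Y.starProjection x, hmem⟩ : Y)⟫_ℝ = ⟪(b i : Fn α), x⟫_ℝ := by
      change ⟪(b i : Fn α), Y.starProjection x⟫_ℝ = _
      have := Submodule.sub_starProjection_mem_orthogonal (K := Y) x
      have h5 := (Submodule.mem_orthogonal _ _).1 this _ (b i).2
      rw [inner_sub_right] at h5
      linarith
    rw [h4, Real.norm_eq_abs, sq_abs]
  simp only [h1, inner_dlt_right]
  rw [Finset.sum_comm]
  have h6 : ∀ i, ∑ g, (b i : Fn α) g ^ 2 = 1 := by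
    intro i
    have h7 : ‖(b i : Fn α)‖ ^ 2 = 1 := by
      have := b.orthonormal.1 i
      have h8 : ‖(b i : Fn α)‖ = 1 := this
      rw [h8]; norm_num
    rw [← real_inner_self_eq_norm_sq, inner_Fn] at h7
    rw [← h7]
    refine Finset.sum_congr rfl ?_
    intro g _
    ring
  simp [h6]

/-- Left translation. -/
def ltr (g : Equiv.Perm α) : Fn α →ₗ[ℝ] Fn α where
  toFun f := WithLp.toLp 2 (fun x => f (g⁻¹ * x))
  map_add' := by intros; ext; simp
  map_smul' := by intros; ext; simp

@[simp] lemma ltr_apply (g : Equiv.Perm α) (f : Fn α) (x : Equiv.Perm α) :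
    ltr g f x = f (g⁻¹ * x) := rfl

lemma ltr_commutes (g : Equiv.Perm α) : regRep.Commutes (ltr (α := α) g) := by
  intro h f
  ext x
  simp [mul_assoc]

lemma inner_ltr (g : Equiv.Perm α) (x y : Fn α) : ⟪ltr g x, y⟫_ℝ = ⟪x, ltr g⁻¹ y⟫_ℝ := by
  rw [inner_Fn, inner_Fn]
  refine Fintype.sum_equiv (Equiv.mulLeft g⁻¹) _ _ ?_
  intro z
  simp

lemma norm_ltr (g : Equiv.Perm α) (x : Fn α) : ‖ltr g x‖ = ‖x‖ := by
  have h : ⟪ltr g x, ltr g x⟫_ℝ = ⟪x, x⟫_ℝ := by
    rw [inner_ltr]
    congr 1
    ext z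
    simp
  rw [real_inner_self_eq_norm_sq, real_inner_self_eq_norm_sq] at h
  exact (sq_eq_sq₀ (norm_nonneg _) (norm_nonneg _)).1 h

lemma ltr_dlt (g : Equiv.Perm α) : ltr g (dlt (1 : Equiv.Perm α)) = dlt g := by
  ext x
  simp only [ltr_apply, dlt, PiLp.single_apply]
  by_cases h : x = g
  · subst h; simp
  · have : x ≠ g := h
    have h2 : g⁻¹ * x ≠ 1 := by
      intro h3
      apply h
      rw [inv_mul_eq_one] at h3
      exact h3.symm
    simp [h, h2]

/-- The projection onto a left invariant subspace commutes with left translations. -/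
lemma proj_ltr (Y : Submodule ℝ (Fn α)) (hY : ∀ g, ∀ y ∈ Y, ltr g y ∈ Y) (g : Equiv.Perm α)
    (x : Fn α) : Y.starProjection (ltr g x) = ltr g (Y.starProjection x) := by
  refine Submodule.eq_starProjection_of_mem_of_inner_eq_zero
    (hY g _ (Submodule.starProjection_apply_mem _ x)) ?_
  intro w hw
  rw [← map_sub, inner_ltr]
  have := Submodule.sub_starProjection_mem_orthogonal (K := Y) x
  have h5 := (Submodule.mem_orthogonal' _ _).1 this _ (hY g⁻¹ w hw)
  exact h5

/-- For a left-invariant subspace, `n! ‖P_Y δ_1‖² = dim Y`. -/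
lemma norm_proj_dlt_one (Y : Submodule ℝ (Fn α)) (hY : ∀ g, ∀ y ∈ Y, ltr g y ∈ Y) :
    (Fintype.card α).factorial * ‖Y.starProjection (dlt (1 : Equiv.Perm α))‖ ^ 2
      = (Module.finrank ℝ Y : ℝ) := by
  rw [← sum_norm_proj_dlt Y]
  have h : ∀ g : Equiv.Perm α, ‖Y.starProjection (dlt g)‖ ^ 2
      = ‖Y.starProjection (dlt (1 : Equiv.Perm α))‖ ^ 2 := by
    intro g
    rw [← ltr_dlt g, proj_ltr Y hY, norm_ltr]
  simp only [h]
  rw [Finset.sum_const, Finset.card_univ, Fintype.card_perm]
  simp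

/-- Constant function with total mass one. -/
def unif : Fn α := WithLp.toLp 2 (fun _ => 1 / ((Fintype.card α).factorial : ℝ))

@[simp] lemma unif_apply (x : Equiv.Perm α) : (unif : Fn α) x = 1 / ((Fintype.card α).factorial : ℝ) :=
  rfl

lemma const_of_mem_Inv_univ {f : Fn α} (hf : f ∈ regRep.Inv (univ : Finset α)) (g : Equiv.Perm α) :
    f g = f 1 := by
  have := inv_of_fix hf 1 g (by simp)
  simpa using this

lemma proj_Y_top_dlt :
    ((regRep (α := α)).Y (Fintype.card α)).starProjection (dlt (1 : Equiv.Perm α)) = unif := by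
  refine Submodule.eq_starProjection_of_mem_of_inner_eq_zero ?_ ?_
  · refine regRep.Inv_le_Y (B := univ) (by simp) ?_
    intro a _ b _
    ext x
    rfl
  · intro w hw
    have hw' : w ∈ regRep.Inv (univ : Finset α) := by
      have hle : (regRep (α := α)).Y (Fintype.card α) ≤ regRep.Inv (univ : Finset α) := by
        unfold ORep.Y
        refine iSup₂_le ?_
        intro B hB
        rw [Finset.mem_powersetCard] at hB
        have : B = univ := by
          apply Finset.eq_univ_of_card
          exact hB.2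
        rw [this]
      exact hle hw
    rw [inner_sub_left, inner_dlt_left, inner_Fn]
    have h : ∀ g : Equiv.Perm α, (unif : Fn α) g * w g = 1 / ((Fintype.card α).factorial : ℝ) * w 1 := by
      intro g
      rw [const_of_mem_Inv_univ hw' g, unif_apply]
    simp only [h]
    rw [Finset.sum_const, Finset.card_univ, Fintype.card_perm]
    have hne : ((Fintype.card α).factorial : ℝ) ≠ 0 := by positivity
    simp
    field_simp
    simp

/-- Convolution of two real functions on the symmetric group. -/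
def conv (μ ν : Equiv.Perm α → ℝ) (g : Equiv.Perm α) : ℝ := ∑ h, μ h * ν (h⁻¹ * g)

/-- Left convolution as a linear operator. -/
def convOp (μ : Equiv.Perm α → ℝ) : Fn α →ₗ[ℝ] Fn α where
  toFun f := WithLp.toLp 2 (conv μ f)
  map_add' := by
    intro x y
    ext g
    simp [conv, mul_add, Finset.sum_add_distrib]
  map_smul' := by
    intro c x
    ext g
    simp only [conv, PiLp.smul_apply, smul_eq_mul, RingHom.id_apply, Finset.mul_sum]
    refine Finset.sum_congr rfl ?_
    intro h _
    ring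

@[simp] lemma convOp_apply (μ : Equiv.Perm α → ℝ) (f : Fn α) (g : Equiv.Perm α) :
    convOp μ f g = conv μ f g := rfl

lemma convOp_commutes (μ : Equiv.Perm α → ℝ) : regRep.Commutes (convOp μ) := by
  intro g f
  ext x
  simp [conv, mul_assoc]

/-- Convolution powers. -/
def convPow (μ : Equiv.Perm α → ℝ) : ℕ → Equiv.Perm α → ℝ
  | 0 => fun g => if g = 1 then 1 else 0
  | t + 1 => conv μ (convPow μ t)

lemma convOp_pow_dlt (μ : Equiv.Perm α → ℝ) (K : ℕ) (g : Equiv.Perm α) :
    ((convOp μ) ^ K) (dlt 1) g = convPow μ K g := by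
  induction K generalizing g with
  | zero =>
    simp [convPow, dlt, PiLp.single_apply]
  | succ K ih =>
    rw [pow_succ', Module.End.mul_apply, convOp_apply, convPow]
    unfold conv
    refine Finset.sum_congr rfl ?_
    intro h _
    rw [ih]

/-- A probability vector fixes the uniform distribution. -/
lemma convOp_unif {μ : Equiv.Perm α → ℝ} (hμ : ∑ g, μ g = 1) : convOp μ unif = (unif : Fn α) := by
  ext g
  simp only [convOp_apply, conv, unif_apply]
  rw [← Finset.sum_mul, hμ, one_mul]

lemma pow_convOp_unif {μ : Equiv.Perm α → ℝ} (hμ : ∑ g, μ g = 1) (K : ℕ) :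
    ((convOp μ) ^ K) unif = (unif : Fn α) := by
  induction K with
  | zero => simp
  | succ K ih => rw [pow_succ', Module.End.mul_apply, ih, convOp_unif hμ]

/-- The transposition Laplacian (in right-translation form) on functions on the group. -/
abbrev Dl : Fn α →ₗ[ℝ] Fn α := regRep.DC univ

lemma hyp_pow {A₀ : Fn α →ₗ[ℝ] Fn α} (hc : regRep.Commutes A₀) {b : ℝ}
    (hyp : ∀ (l : ℝ) (f : Fn α), Dl f = l • f → ‖A₀ f‖ ^ 2 ≤ Real.exp (-(b * l)) * ‖f‖ ^ 2)
    (K : ℕ) (l : ℝ) (f : Fn α) (hf : Dl f = l • f) :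
    ‖(A₀ ^ K) f‖ ^ 2 ≤ Real.exp (-((K * b) * l)) * ‖f‖ ^ 2 := by
  induction K with
  | zero => simp
  | succ K ih =>
    have hpow : (A₀ ^ (K + 1)) f = A₀ ((A₀ ^ K) f) := by
      rw [pow_succ', Module.End.mul_apply]
    rw [hpow]
    have hAf : Dl ((A₀ ^ K) f) = l • (A₀ ^ K) f := by
      rw [← map_smul, ← hf]
      exact ((hc.pow K).DC univ f).symm
    have h1 := hyp l _ hAf
    refine h1.trans ?_
    have h3 := mul_le_mul_of_nonneg_left ih (Real.exp_pos (-(b * l))).le
    refine h3.trans (le_of_eq ?_)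
    rw [← mul_assoc, ← Real.exp_add]
    congr 2
    push_cast
    ring

/-- **The L² bound.**  If the `D`-th power of left convolution by `μ` contracts each eigenspace of
the transposition Laplacian by `exp (-(b * l))` in squared norm, then the convolution powers are
close to uniform in `ℓ²`. -/
theorem l2_bound [Nonempty α] {μ : Equiv.Perm α → ℝ} (hμ : ∑ g, μ g = 1) {b : ℝ} (hb : 0 ≤ b)
    (D : ℕ)
    (hyp : ∀ (l : ℝ) (f : Fn α), Dl f = l • f →
      ‖((convOp μ) ^ D) f‖ ^ 2 ≤ Real.exp (-(b * l)) * ‖f‖ ^ 2)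
    (K : ℕ) :
    (Fintype.card α).factorial *
        ∑ g, (convPow μ (D * K) g - 1 / ((Fintype.card α).factorial : ℝ)) ^ 2
      ≤ ∑ s ∈ Finset.Icc 1 (Fintype.card α - 1),
          Real.exp (-(K * b * ((Fintype.card α : ℝ) * ((Fintype.card α : ℝ) - s) / 2)))
            * ((Fintype.card α).choose s * Fintype.card α ^ (Fintype.card α - s) : ℕ) := by
  classical
  set n := Fintype.card α with hn
  have hn1 : 1 ≤ n := Fintype.card_pos
  set A := (convOp μ) ^ (D * K) with hA
  have hAc : regRep.Commutes A := (convOp_commutes μ).pow (D * K)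
  -- the hypothesis for the powers
  have hypK : ∀ (l : ℝ) (f : Fn α), Dl f = l • f →
      ‖A f‖ ^ 2 ≤ Real.exp (-((K * b) * l)) * ‖f‖ ^ 2 := by
    intro l f hf
    rw [hA, pow_mul]
    exact hyp_pow ((convOp_commutes μ).pow D) hyp K l f hf
  have hlev : ∀ r, ∀ f ∈ regRep.U (univ : Finset α) r, ‖A f‖ ^ 2
      ≤ Real.exp (-((K * b) * ((n : ℝ) * ((n : ℝ) - r) / 2))) * ‖f‖ ^ 2 := by
    intro r f hf
    exact regRep.contraction_level hAc (K * b) (by positivity) hypK r hf
  have hflag := regRep.flag_bound hAc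
    (fun r => Real.exp (-((K * b) * ((n : ℝ) * ((n : ℝ) - r) / 2)))) hlev
    (fun r => (Real.exp_pos _).le) (dlt (1 : Equiv.Perm α)) (n - 1)
  have hn2 : n - 1 + 1 = n := Nat.sub_add_cancel hn1
  have hp := proj_Y_top_dlt (α := α)
  rw [← hn] at hp
  have hAu : A unif = unif := pow_convOp_unif hμ (D * K)
  rw [hn2, hp, map_sub, hAu] at hflag
  have hleft : ‖A (dlt 1) - unif‖ ^ 2 = ∑ g, (convPow μ (D * K) g - 1 / (n.factorial : ℝ)) ^ 2 := by
    rw [← real_inner_self_eq_norm_sq, inner_Fn]
    refine Finset.sum_congr rfl ?_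
    intro g _
    have : (A (dlt 1) - unif : Fn α) g = convPow μ (D * K) g - 1 / (n.factorial : ℝ) := by
      simp only [PiLp.sub_apply, unif_apply]
      rw [hA, convOp_pow_dlt]
    rw [this]
    ring
  rw [hleft] at hflag
  have hfac : (0 : ℝ) < n.factorial := by positivity
  have := mul_le_mul_of_nonneg_left hflag hfac.le
  refine this.trans ?_
  rw [Finset.mul_sum]
  refine Finset.sum_le_sum ?_
  intro s _
  have hinv : ∀ g (y : Fn α), y ∈ regRep.Y s → ltr g y ∈ regRep.Y s := by
    intro g y hy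
    exact (ltr_commutes g).mem_Y (R := regRep) hy
  have h1 := norm_proj_dlt_one (regRep.Y s) hinv
  have h2 := finrank_Y_le (α := α) s
  have h3 : (Module.finrank ℝ ((regRep (α := α)).Y s) : ℝ) ≤
      ((n.choose s * n ^ (n - s) : ℕ) : ℝ) := by exact_mod_cast h2
  calc (n.factorial : ℝ) * (Real.exp (-((K * b) * ((n : ℝ) * ((n : ℝ) - s) / 2)))
        * ‖(regRep.Y s).starProjection (dlt 1)‖ ^ 2)
      = Real.exp (-((K * b) * ((n : ℝ) * ((n : ℝ) - s) / 2)))
        * ((n.factorial : ℝ) * ‖(regRep.Y s).starProjection (dlt 1)‖ ^ 2) := by ring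
    _ ≤ _ := by
        rw [h1]
        exact mul_le_mul_of_nonneg_left h3 (Real.exp_pos _).le

/-- Simplification of the right-hand side of `l2_bound`. -/
lemma rhs_le {n : ℕ} (hn : 1 ≤ n) {β : ℝ} (hβ : 0 ≤ β)
    (hy : (n : ℝ) ^ 2 * Real.exp (-(β * n / 2)) ≤ 1 / 5) :
    ∑ s ∈ Finset.Icc 1 (n - 1), Real.exp (-(β * ((n : ℝ) * ((n : ℝ) - s) / 2)))
        * ((n.choose s * n ^ (n - s) : ℕ) : ℝ) ≤ 1 / 4 := by
  set y := (n : ℝ) ^ 2 * Real.exp (-(β * n / 2)) with hydef
  have hy0 : 0 ≤ y := by positivity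
  have hterm : ∀ s ∈ Finset.Icc 1 (n - 1), Real.exp (-(β * ((n : ℝ) * ((n : ℝ) - s) / 2)))
        * ((n.choose s * n ^ (n - s) : ℕ) : ℝ) ≤ y ^ (n - s) := by
    intro s hs
    rw [Finset.mem_Icc] at hs
    have hsn : s ≤ n := by omega
    have hcast : ((n - s : ℕ) : ℝ) = (n : ℝ) - s := by
      rw [Nat.cast_sub hsn]
    have hexp : Real.exp (-(β * ((n : ℝ) * ((n : ℝ) - s) / 2)))
        = Real.exp (-(β * n / 2)) ^ (n - s) := by
      rw [← Real.exp_nat_mul, hcast]
      congr 1
      ring
    have hch : n.choose s ≤ n ^ (n - s) := by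
      rw [← Nat.choose_symm hsn]
      exact Nat.choose_le_pow _ _
    have hch' : ((n.choose s * n ^ (n - s) : ℕ) : ℝ) ≤ ((n : ℝ) ^ 2) ^ (n - s) := by
      have : n.choose s * n ^ (n - s) ≤ (n ^ 2) ^ (n - s) := by
        calc n.choose s * n ^ (n - s) ≤ n ^ (n - s) * n ^ (n - s) :=
              Nat.mul_le_mul_right _ hch
          _ = (n ^ 2) ^ (n - s) := by rw [← mul_pow, sq]
      exact_mod_cast this
    rw [hexp, hydef, mul_pow, mul_comm]
    exact mul_le_mul_of_nonneg_right hch' (by positivity)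
  refine (Finset.sum_le_sum hterm).trans ?_
  -- reindex
  have hre : ∑ s ∈ Finset.Icc 1 (n - 1), y ^ (n - s) = ∑ k ∈ Finset.Icc 1 (n - 1), y ^ k := by
    refine Finset.sum_nbij' (fun s => n - s) (fun s => n - s) ?_ ?_ ?_ ?_ ?_
    · intro s hs
      simp only [Finset.mem_Icc] at hs ⊢
      omega
    · intro s hs
      simp only [Finset.mem_Icc] at hs ⊢
      omega
    · intro s hs
      simp only [Finset.mem_Icc] at hs ⊢
      omega
    · intro s hs
      simp only [Finset.mem_Icc] at hs ⊢
      omega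
    · intro s _
      rfl
  rw [hre]
  have hlt : y < 1 := by linarith
  have hIco : Finset.Icc 1 (n - 1) = Finset.Ico 1 n := by
    ext x
    simp only [Finset.mem_Icc, Finset.mem_Ico]
    omega
  rw [hIco]
  have h := geom_sum_Ico_le_of_lt_one (m := 1) (n := n) hy0 hlt
  refine h.trans ?_
  rw [pow_one, div_le_iff₀ (by linarith)]
  linarith

/-- The `L¹` distance from uniform is controlled by the `L²` distance. -/
lemma l1_sq_le (x : Equiv.Perm α → ℝ) :
    (∑ g, |x g|) ^ 2 ≤ (Fintype.card α).factorial * ∑ g, x g ^ 2 := by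
  have := sq_sum_le_card_mul_sum_sq (s := (univ : Finset (Equiv.Perm α))) (f := fun g => |x g|)
  simp only [sq_abs, Finset.card_univ, Fintype.card_perm] at this
  exact this

/-- **Total variation bound.** -/
theorem tv_le_quarter [Nonempty α] {μ : Equiv.Perm α → ℝ} (hμ : ∑ g, μ g = 1) {b : ℝ} (hb : 0 ≤ b)
    (D : ℕ)
    (hyp : ∀ (l : ℝ) (f : Fn α), Dl f = l • f →
      ‖((convOp μ) ^ D) f‖ ^ 2 ≤ Real.exp (-(b * l)) * ‖f‖ ^ 2)
    (K : ℕ)
    (hy : (Fintype.card α : ℝ) ^ 2 * Real.exp (-((K * b) * Fintype.card α / 2)) ≤ 1 / 5) :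
    (1 / 2 : ℝ) * ∑ g, |convPow μ (D * K) g - 1 / ((Fintype.card α).factorial : ℝ)| ≤ 1 / 4 := by
  have h1 := l2_bound hμ hb D hyp K
  have hn1 : 1 ≤ Fintype.card α := Fintype.card_pos
  have h2 := rhs_le hn1 (β := K * b) (by positivity) hy
  have h3 := l1_sq_le (fun g => convPow μ (D * K) g - 1 / ((Fintype.card α).factorial : ℝ))
  have h4 : (∑ g, |convPow μ (D * K) g - 1 / ((Fintype.card α).factorial : ℝ)|) ^ 2 ≤ 1 / 4 :=
    h3.trans (h1.trans h2)
  have h5 : ∑ g, |convPow μ (D * K) g - 1 / ((Fintype.card α).factorial : ℝ)| ≤ 1 / 2 := by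
    have h0 : 0 ≤ ∑ g, |convPow μ (D * K) g - 1 / ((Fintype.card α).factorial : ℝ)| :=
      Finset.sum_nonneg (fun _ _ => abs_nonneg _)
    nlinarith
  linarith

end

end ThorpL2
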