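import Mathlib

/-!
# Orthogonal representations of symmetric groups, heat semigroups
-/

namespace Vale.Agent.Lib.P162

open Equiv Finset NormedSpace
open scoped RealInnerProductSpace

section heat

set_option linter.unusedSectionVars false

variable {H : Type*} [NormedAddCommGroup H] [InnerProductSpace ℝ H] [CompleteSpace H]

/-- Heat semigroup generated by `A`. -/
noncomputable def heat (A : H →L[ℝ] H) (r : ℝ) : H →L[ℝ] H := exp (r • A)

theorem exp_add_comm {x y : H →L[ℝ] H} (h : Commute x y) : exp (x + y) = exp x * exp y :=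
  exp_add_of_commute_of_mem_ball (𝕂 := ℝ) h
    ((expSeries_radius_eq_top ℝ (H →L[ℝ] H)).symm ▸ edist_lt_top _ _)
    ((expSeries_radius_eq_top ℝ (H →L[ℝ] H)).symm ▸ edist_lt_top _ _)

theorem heat_zero (A : H →L[ℝ] H) : heat A 0 = 1 := by
  simp [heat]

theorem heat_add (A : H →L[ℝ] H) (r s : ℝ) : heat A (r + s) = heat A r * heat A s := by
  unfold heat
  rw [add_smul]
  exact exp_add_comm ((Commute.refl A).smul_left r |>.smul_right s)

theorem heat_comm {A B : H →L[ℝ] H} (h : Commute A B) (r : ℝ) : Commute (heat A r) B :=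
  (h.smul_left r).exp_left

theorem heat_comm' {A B : H →L[ℝ] H} (h : Commute A B) (r s : ℝ) :
    Commute (heat A r) (heat B s) :=
  ((h.smul_left r).smul_right s).exp

theorem heat_add_op {A B : H →L[ℝ] H} (h : Commute A B) (r : ℝ) :
    heat (A + B) r = heat A r * heat B r := by
  unfold heat
  rw [smul_add]
  exact exp_add_comm ((h.smul_left r).smul_right r)

theorem heat_smul_op (A : H →L[ℝ] H) (c r : ℝ) : heat (c • A) r = heat A (r * c) := by
  unfold heat
  rw [smul_smul]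

theorem heat_neg_op (A : H →L[ℝ] H) (r : ℝ) : heat (-A) r = heat A (-r) := by
  unfold heat
  simp

theorem heat_hasDerivAt (A : H →L[ℝ] H) (v : H) (t : ℝ) :
    HasDerivAt (fun r : ℝ => heat A r v) (A (heat A t v)) t := by
  have h := hasDerivAt_exp_smul_const' (𝕂 := ℝ) A t
  have h2 := h.clm_apply (hasDerivAt_const t v)
  simpa [heat] using h2

/-- Symmetric bounded operators. -/
def Symm (A : H →L[ℝ] H) : Prop := ∀ u v, ⟪A u, v⟫ = ⟪u, A v⟫

theorem Symm.isSelfAdjoint {A : H →L[ℝ] H} (h : Symm A) : IsSelfAdjoint A := by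
  rw [ContinuousLinearMap.isSelfAdjoint_iff_isSymmetric]
  intro u v
  exact h u v

theorem symm_of_isSelfAdjoint {A : H →L[ℝ] H} (h : IsSelfAdjoint A) : Symm A := by
  rw [ContinuousLinearMap.isSelfAdjoint_iff_isSymmetric] at h
  intro u v
  exact h u v

theorem heat_symm {A : H →L[ℝ] H} (h : Symm A) (r : ℝ) : Symm (heat A r) := by
  apply symm_of_isSelfAdjoint
  have h1 : IsSelfAdjoint (r • A) := IsSelfAdjoint.smul (IsSelfAdjoint.all r) h.isSelfAdjoint
  exact h1.exp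

theorem heat_eigen (A : H →L[ℝ] H) (e : H) (D r : ℝ) (h : A e = D • e) :
    heat A r e = Real.exp (r * D) • e := by
  have h1 : ∀ n : ℕ, ((r • A) ^ n) e = (r * D) ^ n • e := by
    intro n
    induction n with
    | zero => simp
    | succ n ih =>
      rw [pow_succ', mul_apply_eq_comp, ih, map_smul, smul_apply, h,
        pow_succ', smul_smul, smul_smul]
      ring_nf
  have h2 := (exp_series_hasSum_exp' (𝕂 := ℝ) (r • A))
  have h3 := h2.mapL (ContinuousLinearMap.apply ℝ H e)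
  have h4 := (NormedSpace.exp_series_hasSum_exp' (𝕂 := ℝ) (r * D)).smul_const e
  simp only [ContinuousLinearMap.apply_apply, smul_apply] at h3
  have h5 : (fun n : ℕ => ((n.factorial : ℝ)⁻¹) • ((r • A) ^ n) e)
      = fun n : ℕ => ((n.factorial : ℝ)⁻¹ • (r * D) ^ n) • e := by
    funext n
    rw [h1, smul_assoc]
  rw [h5] at h3
  have h6 := h3.unique h4
  rw [heat, h6, Real.exp_eq_exp_ℝ]

theorem heat_fix (A : H →L[ℝ] H) (e : H) (r : ℝ) (h : A e = 0) : heat A r e = e := by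
  have := heat_eigen A e 0 r (by simpa using h)
  simpa using this

theorem heat_norm_inner {A : H →L[ℝ] H} (h : Symm A) (r : ℝ) (u : H) :
    ‖heat A r u‖ ^ 2 = ⟪u, heat A (2 * r) u⟫ := by
  rw [two_mul, heat_add, mul_apply_eq_comp, ← heat_symm h r u,
    real_inner_self_eq_norm_sq]

end heat

section rep

variable {H : Type*} [NormedAddCommGroup H] [InnerProductSpace ℝ H]
variable {Q : Type*} [DecidableEq Q]

set_option linter.unusedSectionVars false
set_option linter.unusedDecidableInType false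


/-- A representation of a symmetric group by orthogonal operators. -/
def IsOrth (π : Perm Q →* (H →L[ℝ] H)) : Prop :=
  ∀ g u v, ⟪π g u, π g v⟫ = ⟪u, v⟫

theorem IsOrth.comp {Q' : Type*} [DecidableEq Q'] {π : Perm Q →* (H →L[ℝ] H)} (hπ : IsOrth π)
    (f : Perm Q' →* Perm Q) : IsOrth (π.comp f) := fun g u v => hπ (f g) u v

theorem IsOrth.norm {π : Perm Q →* (H →L[ℝ] H)} (hπ : IsOrth π) (g : Perm Q) (u : H) :
    ‖π g u‖ = ‖u‖ := by
  have h := hπ g u u
  rw [real_inner_self_eq_norm_sq, real_inner_self_eq_norm_sq] at h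
  have h1 : 0 ≤ ‖π g u‖ := norm_nonneg _
  have h2 : 0 ≤ ‖u‖ := norm_nonneg _
  nlinarith [sq_nonneg (‖π g u‖ - ‖u‖), sq_nonneg (‖π g u‖ + ‖u‖)]

theorem rep_mul_inv (π : Perm Q →* (H →L[ℝ] H)) (g : Perm Q) (v : H) : π g (π g⁻¹ v) = v := by
  rw [← mul_apply_eq_comp, ← map_mul]
  simp

theorem rep_inv_mul (π : Perm Q →* (H →L[ℝ] H)) (g : Perm Q) (v : H) : π g⁻¹ (π g v) = v := by
  rw [← mul_apply_eq_comp, ← map_mul]
  simp

theorem IsOrth.inner_left {π : Perm Q →* (H →L[ℝ] H)} (hπ : IsOrth π) (g : Perm Q) (u v : H) :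
    ⟪π g u, v⟫ = ⟪u, π g⁻¹ v⟫ := by
  conv_lhs => rw [← rep_mul_inv π g v]
  exact hπ g _ _

theorem IsOrth.symm_of_invol {π : Perm Q →* (H →L[ℝ] H)} (hπ : IsOrth π) (g : Perm Q)
    (hg : g⁻¹ = g) (u v : H) : ⟪π g u, v⟫ = ⟪u, π g v⟫ := by
  rw [hπ.inner_left, hg]

theorem IsOrth.symm_swap {π : Perm Q →* (H →L[ℝ] H)} (hπ : IsOrth π) (x y : Q) (u v : H) :
    ⟪π (swap x y) u, v⟫ = ⟪u, π (swap x y) v⟫ :=
  hπ.symm_of_invol _ (swap_inv x y) u v

theorem rep_conj_swap (π : Perm Q →* (H →L[ℝ] H)) (g : Perm Q) (x y : Q) :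
    π g * π (swap x y) = π (swap (g x) (g y)) * π g := by
  rw [← map_mul, ← map_mul, Equiv.mul_swap_eq_swap_mul]

/-- Laplacian of the random transposition walk on the subset `B` (each transposition counted once). -/
noncomputable def lap (B : Finset Q) (π : Perm Q →* (H →L[ℝ] H)) : H →L[ℝ] H :=
  ∑ x ∈ B, ∑ y ∈ B, (1 / 2 : ℝ) • (1 - π (swap x y))

theorem lap_apply (B : Finset Q) (π : Perm Q →* (H →L[ℝ] H)) (u : H) :
    lap B π u = ∑ x ∈ B, ∑ y ∈ B, (1 / 2 : ℝ) • (u - π (swap x y) u) := by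
  simp [lap]

theorem inner_sub_swap {π : Perm Q →* (H →L[ℝ] H)} (hπ : IsOrth π) (x y : Q) (u : H) :
    ⟪u, u - π (swap x y) u⟫ = (1 / 2) * ‖u - π (swap x y) u‖ ^ 2 := by
  rw [norm_sub_sq_real, hπ.norm, inner_sub_right, real_inner_self_eq_norm_sq]
  ring

theorem inner_lap {π : Perm Q →* (H →L[ℝ] H)} (hπ : IsOrth π) (B : Finset Q) (u : H) :
    ⟪u, lap B π u⟫ = ∑ x ∈ B, ∑ y ∈ B, (1 / 4) * ‖u - π (swap x y) u‖ ^ 2 := by
  rw [lap_apply, inner_sum]
  refine Finset.sum_congr rfl fun x _ => ?_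
  rw [inner_sum]
  refine Finset.sum_congr rfl fun y _ => ?_
  rw [inner_smul_right, inner_sub_swap hπ]
  ring

theorem inner_lap_nonneg {π : Perm Q →* (H →L[ℝ] H)} (hπ : IsOrth π) (B : Finset Q) (u : H) :
    0 ≤ ⟪u, lap B π u⟫ := by
  rw [inner_lap hπ]
  exact Finset.sum_nonneg fun _ _ => Finset.sum_nonneg fun _ _ => by positivity

theorem inner_lap_le {π : Perm Q →* (H →L[ℝ] H)} (hπ : IsOrth π) (B : Finset Q) (u : H) :
    ⟪u, lap B π u⟫ ≤ (B.card : ℝ) ^ 2 * ‖u‖ ^ 2 := by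
  rw [inner_lap hπ]
  have h : ∀ x y : Q, (1 / 4) * ‖u - π (swap x y) u‖ ^ 2 ≤ ‖u‖ ^ 2 := by
    intro x y
    have h1 : ‖u - π (swap x y) u‖ ≤ ‖u‖ + ‖u‖ := by
      refine (norm_sub_le _ _).trans ?_
      rw [hπ.norm]
    have h2 : 0 ≤ ‖u - π (swap x y) u‖ := norm_nonneg _
    nlinarith
  calc ∑ x ∈ B, ∑ y ∈ B, (1 / 4) * ‖u - π (swap x y) u‖ ^ 2
      ≤ ∑ _x ∈ B, ∑ _y ∈ B, ‖u‖ ^ 2 :=
        Finset.sum_le_sum fun x _ => Finset.sum_le_sum fun y _ => h x y
    _ = (B.card : ℝ) ^ 2 * ‖u‖ ^ 2 := by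
        simp only [Finset.sum_const, nsmul_eq_mul]
        ring

theorem lap_symm {π : Perm Q →* (H →L[ℝ] H)} (hπ : IsOrth π) (B : Finset Q) [CompleteSpace H] :
    Symm (lap B π) := by
  intro u v
  rw [lap_apply, lap_apply, sum_inner, inner_sum]
  refine Finset.sum_congr rfl fun x _ => ?_
  rw [sum_inner, inner_sum]
  refine Finset.sum_congr rfl fun y _ => ?_
  rw [inner_smul_left, inner_smul_right, inner_sub_left, inner_sub_right, hπ.symm_swap]
  simp

/-- The Laplacian commutes with every permutation preserving `B`. -/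
theorem lap_comm {π : Perm Q →* (H →L[ℝ] H)} (B : Finset Q) (g : Perm Q)
    (hg : ∀ x, g x ∈ B ↔ x ∈ B) : Commute (π g) (lap B π) := by
  have hg' : ∀ x : Q, x ∈ B ↔ g x ∈ B := fun x => (hg x).symm
  have key : (∑ x ∈ B, ∑ y ∈ B, (1 / 2 : ℝ) • (1 - π (swap (g x) (g y))))
      = ∑ x ∈ B, ∑ y ∈ B, (1 / 2 : ℝ) • (1 - π (swap x y)) := by
    refine Finset.sum_equiv g hg' fun x _ => ?_
    exact Finset.sum_equiv g hg' fun y _ => rfl
  unfold Commute SemiconjBy
  unfold lap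
  conv_rhs => rw [← key]
  rw [Finset.mul_sum, Finset.sum_mul]
  refine Finset.sum_congr rfl fun x _ => ?_
  rw [Finset.mul_sum, Finset.sum_mul]
  refine Finset.sum_congr rfl fun y _ => ?_
  rw [mul_smul_comm, smul_mul_assoc, mul_sub, sub_mul, mul_one, one_mul, rep_conj_swap]

end rep

end Vale.Agent.Lib.P162
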