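import Vale.Agent.Lib.P162.Rep

/-!
# The static sector inequality
-/

namespace Vale.Agent.Lib.P162

open Finset
open scoped RealInnerProductSpace

set_option linter.unusedSectionVars false
set_option linter.unusedDecidableInType false

section bits

/-- Real value of a bit. -/
def bitR (b : Fin 2) : ℝ := ((b : ℕ) : ℝ)

@[simp] theorem bitR_zero : bitR 0 = 0 := by simp [bitR]
@[simp] theorem bitR_one : bitR 1 = 1 := by simp [bitR]

theorem fin2_cases (b : Fin 2) : b = 0 ∨ b = 1 := by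
  revert b; decide

theorem bitR_nonneg (b : Fin 2) : 0 ≤ bitR b := by
  rcases fin2_cases b with rfl | rfl <;> simp

theorem bitR_le_one (b : Fin 2) : bitR b ≤ 1 := by
  rcases fin2_cases b with rfl | rfl <;> simp

theorem bitR_add_one (b : Fin 2) : bitR (b + 1) = bitR b + (1 - 2 * bitR b) := by
  rcases fin2_cases b with rfl | rfl
  · simp
  · have : (1 : Fin 2) + 1 = 0 := by decide
    rw [this]
    simp
    norm_num

end bits

variable {C : Type*} [Fintype C] [DecidableEq C]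

/-- Hamming weight of a sector label. -/
noncomputable def wt (s : C → Fin 2) : ℝ := ∑ x, bitR (s x)

/-- The two-point shift. -/
def kk (x y : C) : C → Fin 2 := Pi.single x 1 + Pi.single y 1

theorem wt_nonneg (s : C → Fin 2) : 0 ≤ wt s := Finset.sum_nonneg fun _ _ => bitR_nonneg _

theorem add_kk_kk (s : C → Fin 2) (x y : C) : s + kk x y + kk x y = s := by
  funext z
  have : ∀ a e : Fin 2, a + e + e = a := by decide
  exact this _ _

theorem kk_apply_left {x y : C} (h : x ≠ y) : kk x y x = 1 := by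
  simp [kk, h.symm]

theorem kk_apply_right {x y : C} (h : x ≠ y) : kk x y y = 1 := by
  simp [kk, h]

theorem kk_apply_other {x y z : C} (h1 : z ≠ x) (h2 : z ≠ y) : kk x y z = 0 := by
  simp [kk, h1, h2]

theorem wt_add_kk (s : C → Fin 2) {x y : C} (h : x ≠ y) :
    wt (s + kk x y) = wt s + (1 - 2 * bitR (s x)) + (1 - 2 * bitR (s y)) := by
  have h1 : wt (s + kk x y) - wt s = ∑ z, (bitR ((s + kk x y) z) - bitR (s z)) := by
    unfold wt
    rw [Finset.sum_sub_distrib]
  have h2 : ∑ z, (bitR ((s + kk x y) z) - bitR (s z))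
      = (bitR ((s + kk x y) x) - bitR (s x)) + (bitR ((s + kk x y) y) - bitR (s y)) := by
    refine Finset.sum_eq_add x y h ?_ (by simp) (by simp)
    intro z _ hz
    rw [Pi.add_apply, kk_apply_other hz.1 hz.2, add_zero, sub_self]
  rw [h2, Pi.add_apply, Pi.add_apply, kk_apply_left h, kk_apply_right h, bitR_add_one,
    bitR_add_one] at h1
  linarith

variable {H : Type*} [NormedAddCommGroup H] [InnerProductSpace ℝ H]

/-- The data of the sector decomposition of the column step. -/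
structure SectorData (P : (C → Fin 2) → H →L[ℝ] H) (A : C → C → H →L[ℝ] H) (D : H →L[ℝ] H) :
    Prop where
  P_symm : ∀ s u v, ⟪P s u, v⟫ = ⟪u, P s v⟫
  P_idem : ∀ s u, P s (P s u) = P s u
  A_symm : ∀ x y u v, ⟪A x y u, v⟫ = ⟪u, A x y v⟫
  A_norm : ∀ x y u, ‖A x y u‖ ≤ 2 * ‖u‖
  P_A : ∀ x y s u, x ≠ y → P s (A x y u) = A x y (P (s + kk x y) u)
  A_diag : ∀ x s u, A x x (P s u) = (2 * bitR (s x)) • P s u
  P_D : ∀ s u, P s (D u) = D (P s u)
  energy : ∀ v, ∑ x, ∑ y ∈ univ.erase x, ‖A x y v‖ ^ 2 ≤ 4 * ⟪v, D v⟫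
  D_le : ∀ v, ⟪v, D v⟫ ≤ 4 * (Fintype.card C : ℝ) ^ 2 * ‖v‖ ^ 2

variable {P : (C → Fin 2) → H →L[ℝ] H} {A : C → C → H →L[ℝ] H} {D : H →L[ℝ] H}

namespace SectorData

theorem inner_P_self (h : SectorData P A D) (s : C → Fin 2) (u : H) :
    ⟪P s u, u⟫ = ‖P s u‖ ^ 2 := by
  have := h.P_symm s (P s u) u
  rw [h.P_idem, real_inner_self_eq_norm_sq] at this
  exact this

theorem inner_P_D (h : SectorData P A D) (s : C → Fin 2) (u : H) :
    ⟪P s u, D u⟫ = ⟪P s u, D (P s u)⟫ := by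
  have := h.P_symm s (P s u) (D u)
  rw [h.P_idem, h.P_D] at this
  exact this

theorem inner_P_diag (h : SectorData P A D) (s : C → Fin 2) (x : C) (u : H) :
    ⟪P s u, A x x u⟫ = 2 * bitR (s x) * ‖P s u‖ ^ 2 := by
  rw [← h.A_symm, h.A_diag, inner_smul_left, h.inner_P_self]
  simp

theorem inner_P_A (h : SectorData P A D) (s : C → Fin 2) {x y : C} (hxy : x ≠ y) (u : H) :
    ⟪P s u, A x y u⟫ = ⟪P s u, A x y (P (s + kk x y) u)⟫ := by
  have := h.P_symm s (P s u) (A x y u)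
  rw [h.P_idem, h.P_A x y s u hxy] at this
  exact this

theorem inner_P_A_flip (h : SectorData P A D) (s : C → Fin 2) {x y : C} (hxy : x ≠ y) (u : H) :
    ⟪P (s + kk x y) u, A x y u⟫ = ⟪P s u, A x y u⟫ := by
  rw [h.inner_P_A _ hxy, add_kk_kk, ← h.A_symm, real_inner_comm, h.inner_P_A s hxy]

end SectorData

/-- The pairwise real inequality used for raising and lowering. -/
theorem pair_real {w w' γ p q c : ℝ} (hw : 0 < w) (hww' : w ≤ w') (hw' : w' ≤ 2 * w) (hγ : 0 < γ)
    (hc : c ≤ p * q) :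
    (w + w') * c ≤ 3 * w * (γ / 2) * p ^ 2 + 3 * w' * q ^ 2 / (2 * γ) := by
  have h1 : p * q ≤ (γ / 2) * p ^ 2 + q ^ 2 / (2 * γ) := by
    have h2 : 0 ≤ (γ * p - q) ^ 2 / (2 * γ) := by positivity
    have h3 : (γ * p - q) ^ 2 / (2 * γ) = (γ / 2) * p ^ 2 + q ^ 2 / (2 * γ) - p * q := by
      field_simp
      ring
    linarith
  have h4 : 0 < w + w' := by linarith
  have h5 : (w + w') * c ≤ (w + w') * ((γ / 2) * p ^ 2 + q ^ 2 / (2 * γ)) :=
    mul_le_mul_of_nonneg_left (hc.trans h1) h4.le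
  have h6 : (w + w') * ((γ / 2) * p ^ 2) ≤ 3 * w * ((γ / 2) * p ^ 2) :=
    mul_le_mul_of_nonneg_right (by linarith) (by positivity)
  have h7 : (w + w') * (q ^ 2 / (2 * γ)) ≤ 3 * w' * (q ^ 2 / (2 * γ)) :=
    mul_le_mul_of_nonneg_right (by linarith) (by positivity)
  have h8 : 3 * w * (γ / 2) * p ^ 2 = 3 * w * ((γ / 2) * p ^ 2) := by ring
  have h9 : 3 * w' * q ^ 2 / (2 * γ) = 3 * w' * (q ^ 2 / (2 * γ)) := by ring
  rw [h8, h9]
  linarith

/-- The majorant of a pair term. -/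
noncomputable def GG (P : (C → Fin 2) → H →L[ℝ] H) (A : C → C → H →L[ℝ] H) (u : H) (θ β : ℝ)
    (x y : C) (s : C → Fin 2) : ℝ :=
  (1 - bitR (s x)) * (1 - bitR (s y)) *
      (3 * Real.exp (θ * wt s) * (β * (wt s + 2) / 2) * ‖A x y (P s u)‖ ^ 2)
    + bitR (s x) * bitR (s y) * (3 * Real.exp (θ * wt s) * ‖P s u‖ ^ 2 / (2 * β * wt s))
    + (bitR (s x) * (1 - bitR (s y)) + (1 - bitR (s x)) * bitR (s y)) *
      (2 * Real.exp (θ * wt s) * ‖P s u‖ ^ 2)

section pair

variable (h : SectorData P A D) (u : H) {θ β : ℝ} (hθ0 : 0 ≤ θ) (hθ : Real.exp (2 * θ) ≤ 2)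
  (hβ : 0 < β)
include h hθ0 hθ hβ

/-- The pair inequality when both bits are zero (raising). -/
theorem pair_zero {x y : C} (hxy : x ≠ y) (s : C → Fin 2) (hx : s x = 0) (hy : s y = 0) :
    Real.exp (θ * wt s) * ⟪P s u, A x y u⟫
        + Real.exp (θ * wt (s + kk x y)) * ⟪P (s + kk x y) u, A x y u⟫
      ≤ GG P A u θ β x y s + GG P A u θ β x y (s + kk x y) := by
  have hw : wt (s + kk x y) = wt s + 2 := by
    rw [wt_add_kk s hxy, hx, hy]
    simp
    ring
  have hbx : (s + kk x y) x = 1 := by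
    rw [Pi.add_apply, kk_apply_left hxy, hx]
    decide
  have hby : (s + kk x y) y = 1 := by
    rw [Pi.add_apply, kk_apply_right hxy, hy]
    decide
  have hwt := wt_nonneg s
  have hγ : 0 < β * (wt s + 2) := by positivity
  rw [h.inner_P_A_flip s hxy]
  unfold GG
  rw [hbx, hby, hx, hy, hw]
  simp only [bitR_zero, bitR_one, sub_zero, one_mul, zero_mul, add_zero, sub_self, mul_zero,
    mul_one, zero_add]
  have hexp : Real.exp (θ * (wt s + 2)) = Real.exp (θ * wt s) * Real.exp (2 * θ) := by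
    rw [← Real.exp_add]
    congr 1
    ring
  have hw0 := Real.exp_pos (θ * wt s)
  have hle1 : Real.exp (θ * wt s) ≤ Real.exp (θ * (wt s + 2)) := by
    apply Real.exp_le_exp.mpr
    nlinarith
  have hle2 : Real.exp (θ * (wt s + 2)) ≤ 2 * Real.exp (θ * wt s) := by
    rw [hexp]
    nlinarith
  have hc : ⟪P s u, A x y u⟫ ≤ ‖A x y (P s u)‖ * ‖P (s + kk x y) u‖ := by
    rw [h.inner_P_A s hxy, ← h.A_symm, real_inner_comm]
    rw [real_inner_comm]
    exact real_inner_le_norm _ _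
  have := pair_real hw0 hle1 hle2 hγ hc
  have e1 : 2 * β * (wt s + 2) = 2 * (β * (wt s + 2)) := by ring
  rw [e1]
  have e2 : β * (wt s + 2) / 2 = (β * (wt s + 2)) / 2 := rfl
  rw [add_mul] at this
  linarith

/-- The pair inequality when both bits are one (lowering). -/
theorem pair_one {x y : C} (hxy : x ≠ y) (s : C → Fin 2) (hx : s x = 1) (hy : s y = 1) :
    Real.exp (θ * wt s) * ⟪P s u, A x y u⟫
        + Real.exp (θ * wt (s + kk x y)) * ⟪P (s + kk x y) u, A x y u⟫
      ≤ GG P A u θ β x y s + GG P A u θ β x y (s + kk x y) := by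
  have hbx : (s + kk x y) x = 0 := by
    rw [Pi.add_apply, kk_apply_left hxy, hx]
    decide
  have hby : (s + kk x y) y = 0 := by
    rw [Pi.add_apply, kk_apply_right hxy, hy]
    decide
  have := pair_zero h u hθ0 hθ hβ hxy (s + kk x y) hbx hby
  rw [add_kk_kk] at this
  linarith

/-- The pair inequality in the mixed case. -/
theorem pair_mixed {x y : C} (hxy : x ≠ y) (s : C → Fin 2) (hne : s x ≠ s y) :
    Real.exp (θ * wt s) * ⟪P s u, A x y u⟫
        + Real.exp (θ * wt (s + kk x y)) * ⟪P (s + kk x y) u, A x y u⟫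
      ≤ GG P A u θ β x y s + GG P A u θ β x y (s + kk x y) := by
  have hone : ∀ a : Fin 2, a ≠ 0 → a = 1 := by decide
  have hw : wt (s + kk x y) = wt s := by
    rw [wt_add_kk s hxy]
    rcases fin2_cases (s x) with h0 | h0
    · have h1 : s y = 1 := hone _ (fun h' => hne (h0.trans h'.symm))
      rw [h0, h1]; simp; ring
    · have h1 : s y = 0 := by
        rcases fin2_cases (s y) with h2 | h2
        · exact h2
        · exact absurd (h0.trans h2.symm) hne
      rw [h0, h1]; simp; ring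
  have hxa : (s + kk x y) x = s x + 1 := by rw [Pi.add_apply, kk_apply_left hxy]
  have hya : (s + kk x y) y = s y + 1 := by rw [Pi.add_apply, kk_apply_right hxy]
  rw [h.inner_P_A_flip s hxy, hw]
  unfold GG
  rw [hxa, hya, hw]
  have hw0 := Real.exp_pos (θ * wt s)
  have hc : ⟪P s u, A x y u⟫ ≤ ‖P s u‖ ^ 2 + ‖P (s + kk x y) u‖ ^ 2 := by
    rw [h.inner_P_A s hxy]
    have h1 := real_inner_le_norm (P s u) (A x y (P (s + kk x y) u))
    have h2 := h.A_norm x y (P (s + kk x y) u)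
    have h3 := norm_nonneg (P s u)
    have h4 := norm_nonneg (P (s + kk x y) u)
    nlinarith [sq_nonneg (‖P s u‖ - ‖P (s + kk x y) u‖)]
  have e01 : (0 : Fin 2) + 1 = 1 := by decide
  have e11 : (1 : Fin 2) + 1 = 0 := by decide
  have hmain : 2 * Real.exp (θ * wt s) * ⟪P s u, A x y u⟫
      ≤ 2 * Real.exp (θ * wt s) * ‖P s u‖ ^ 2 + 2 * Real.exp (θ * wt s) * ‖P (s + kk x y) u‖ ^ 2 := by
    have := mul_le_mul_of_nonneg_left hc (by positivity : 0 ≤ 2 * Real.exp (θ * wt s))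
    linarith
  rcases fin2_cases (s x) with h0 | h0
  · have h1 : s y = 1 := hone _ (fun h' => hne (h0.trans h'.symm))
    rw [h0, h1, e01, e11]
    simp only [bitR_zero, bitR_one, sub_zero, sub_self, one_mul, zero_mul, mul_zero, mul_one,
      add_zero, zero_add]
    linarith
  · have h1 : s y = 0 := by
      rcases fin2_cases (s y) with h2 | h2
      · exact h2
      · exact absurd (h0.trans h2.symm) hne
    rw [h0, h1, e01, e11]
    simp only [bitR_zero, bitR_one, sub_zero, sub_self, one_mul, zero_mul, mul_zero, mul_one,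
      add_zero, zero_add]
    linarith

/-- The pair inequality in all cases. -/
theorem pair_all {x y : C} (hxy : x ≠ y) (s : C → Fin 2) :
    Real.exp (θ * wt s) * ⟪P s u, A x y u⟫
        + Real.exp (θ * wt (s + kk x y)) * ⟪P (s + kk x y) u, A x y u⟫
      ≤ GG P A u θ β x y s + GG P A u θ β x y (s + kk x y) := by
  rcases fin2_cases (s x) with h0 | h0 <;> rcases fin2_cases (s y) with h1 | h1
  · exact pair_zero h u hθ0 hθ hβ hxy s h0 h1
  · exact pair_mixed h u hθ0 hθ hβ hxy s (by rw [h0, h1]; decide)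
  · exact pair_mixed h u hθ0 hθ hβ hxy s (by rw [h0, h1]; decide)
  · exact pair_one h u hθ0 hθ hβ hxy s h0 h1

end pair

/-- Summation of a pair inequality over an involution. -/
theorem sum_le_of_pair (k : C → Fin 2) (F G : (C → Fin 2) → ℝ)
    (hpair : ∀ s, F s + F (s + k) ≤ G s + G (s + k)) : ∑ s, F s ≤ ∑ s, G s := by
  have h1 : ∀ f : (C → Fin 2) → ℝ, ∑ s, f (s + k) = ∑ s, f s := fun f =>
    Equiv.sum_comp (Equiv.addRight k) f
  have h2 := Finset.sum_le_sum (s := (univ : Finset (C → Fin 2))) fun s _ => hpair s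
  rw [Finset.sum_add_distrib, Finset.sum_add_distrib, h1, h1] at h2
  linarith

/-- Bound of the majorant summed over all pairs. -/
theorem sum_GG_le (h : SectorData P A D) (u : H) {θ β : ℝ} (hβ : 0 < β) (s : C → Fin 2) :
    ∑ x, ∑ y ∈ univ.erase x, GG P A u θ β x y s
      ≤ 3 * Real.exp (θ * wt s) * (β * (wt s + 2) / 2) * (4 * ⟪P s u, D (P s u)⟫)
        + 3 * Real.exp (θ * wt s) * ‖P s u‖ ^ 2 * wt s / (2 * β)
        + 2 * Real.exp (θ * wt s) * ‖P s u‖ ^ 2 * (2 * (Fintype.card C : ℝ) * wt s) := by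
  set w := Real.exp (θ * wt s) with hw
  have hw0 : 0 < w := Real.exp_pos _
  have hwt := wt_nonneg s
  set K := 3 * w * (β * (wt s + 2) / 2) with hK
  have hK0 : 0 ≤ K := by positivity
  set a := ‖P s u‖ ^ 2 with ha
  have ha0 : 0 ≤ a := by positivity
  set L := 3 * w * a / (2 * β * wt s) with hL
  have hL0 : 0 ≤ L := by positivity
  set M := 2 * w * a with hM
  have hM0 : 0 ≤ M := by positivity
  have hterm : ∀ x y, GG P A u θ β x y s
      ≤ K * ‖A x y (P s u)‖ ^ 2 + bitR (s x) * bitR (s y) * L + (bitR (s x) + bitR (s y)) * M := by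
    intro x y
    unfold GG
    have n1 := bitR_nonneg (s x)
    have n2 := bitR_nonneg (s y)
    have n3 := bitR_le_one (s x)
    have n4 := bitR_le_one (s y)
    have e1 : (1 - bitR (s x)) * (1 - bitR (s y)) * (K * ‖A x y (P s u)‖ ^ 2)
        ≤ 1 * (K * ‖A x y (P s u)‖ ^ 2) := by
      apply mul_le_mul_of_nonneg_right _ (by positivity)
      nlinarith
    have e2 : (bitR (s x) * (1 - bitR (s y)) + (1 - bitR (s x)) * bitR (s y)) * M
        ≤ (bitR (s x) + bitR (s y)) * M := by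
      apply mul_le_mul_of_nonneg_right _ hM0
      nlinarith
    have e3 : 3 * w * (β * (wt s + 2) / 2) * ‖A x y (P s u)‖ ^ 2 = K * ‖A x y (P s u)‖ ^ 2 := rfl
    rw [e3]
    linarith
  have hsum1 : ∑ x, ∑ y ∈ univ.erase x, ‖A x y (P s u)‖ ^ 2 ≤ 4 * ⟪P s u, D (P s u)⟫ :=
    h.energy _
  have hnn1 : ∀ x y : C, 0 ≤ bitR (s x) * bitR (s y) * L := fun x y =>
    mul_nonneg (mul_nonneg (bitR_nonneg _) (bitR_nonneg _)) hL0
  have hnn2 : ∀ x y : C, 0 ≤ (bitR (s x) + bitR (s y)) * M := fun x y =>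
    mul_nonneg (add_nonneg (bitR_nonneg _) (bitR_nonneg _)) hM0
  have hsum2 : ∑ x, ∑ y ∈ univ.erase x, bitR (s x) * bitR (s y) * L ≤ wt s ^ 2 * L := by
    calc ∑ x, ∑ y ∈ univ.erase x, bitR (s x) * bitR (s y) * L
        ≤ ∑ x, ∑ y, bitR (s x) * bitR (s y) * L :=
          Finset.sum_le_sum fun x _ => Finset.sum_le_sum_of_subset_of_nonneg
            (Finset.erase_subset _ _) fun y _ _ => hnn1 x y
      _ = wt s ^ 2 * L := by
          unfold wt
          rw [sq, Finset.sum_mul, Finset.sum_mul]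
          refine Finset.sum_congr rfl fun x _ => ?_
          rw [Finset.mul_sum, Finset.sum_mul]
  have hsum3 : ∑ x, ∑ y ∈ univ.erase x, (bitR (s x) + bitR (s y)) * M
      ≤ (2 * (Fintype.card C : ℝ) * wt s) * M := by
    calc ∑ x, ∑ y ∈ univ.erase x, (bitR (s x) + bitR (s y)) * M
        ≤ ∑ x, ∑ y, (bitR (s x) + bitR (s y)) * M :=
          Finset.sum_le_sum fun x _ => Finset.sum_le_sum_of_subset_of_nonneg
            (Finset.erase_subset _ _) fun y _ _ => hnn2 x y
      _ = (2 * (Fintype.card C : ℝ) * wt s) * M := by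
          have e : ∀ x : C, ∑ y, (bitR (s x) + bitR (s y)) * M
              = ((Fintype.card C : ℝ) * bitR (s x) + wt s) * M := by
            intro x
            rw [← Finset.sum_mul, Finset.sum_add_distrib]
            simp [wt, Finset.card_univ]
          simp_rw [e]
          rw [← Finset.sum_mul, Finset.sum_add_distrib, ← Finset.mul_sum]
          simp only [Finset.sum_const, Finset.card_univ, nsmul_eq_mul]
          unfold wt
          ring
  have hwL : wt s ^ 2 * L = 3 * w * a * wt s / (2 * β) := by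
    rw [hL]
    by_cases h0 : wt s = 0
    · simp [h0]
    · field_simp
  calc ∑ x, ∑ y ∈ univ.erase x, GG P A u θ β x y s
      ≤ ∑ x, ∑ y ∈ univ.erase x, (K * ‖A x y (P s u)‖ ^ 2 + bitR (s x) * bitR (s y) * L
          + (bitR (s x) + bitR (s y)) * M) :=
        Finset.sum_le_sum fun x _ => Finset.sum_le_sum fun y _ => hterm x y
    _ = K * (∑ x, ∑ y ∈ univ.erase x, ‖A x y (P s u)‖ ^ 2)
          + ∑ x, ∑ y ∈ univ.erase x, bitR (s x) * bitR (s y) * L
          + ∑ x, ∑ y ∈ univ.erase x, (bitR (s x) + bitR (s y)) * M := by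
        simp only [Finset.sum_add_distrib, Finset.mul_sum]
    _ ≤ K * (4 * ⟪P s u, D (P s u)⟫) + wt s ^ 2 * L + (2 * (Fintype.card C : ℝ) * wt s) * M := by
        have := mul_le_mul_of_nonneg_left hsum1 hK0
        linarith
    _ = _ := by
        rw [hwL]
        ring

/-- Inner product of a sector with the generator. -/
theorem inner_Y (h : SectorData P A D) {Y : H →L[ℝ] H} {lam : ℝ}
    (hY : ∀ u, Y u = (1 / 2 : ℝ) • (∑ x, ∑ y, A x y u) - lam • D u) (s : C → Fin 2) (u : H) :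
    ⟪P s u, Y u⟫ = wt s * ‖P s u‖ ^ 2
        + (1 / 2) * ∑ x, ∑ y ∈ univ.erase x, ⟪P s u, A x y u⟫ - lam * ⟪P s u, D (P s u)⟫ := by
  rw [hY, inner_sub_right, inner_smul_right, inner_smul_right, h.inner_P_D, inner_sum]
  have e : ∀ x : C, ⟪P s u, ∑ y, A x y u⟫
      = 2 * bitR (s x) * ‖P s u‖ ^ 2 + ∑ y ∈ univ.erase x, ⟪P s u, A x y u⟫ := by
    intro x
    rw [inner_sum, ← Finset.add_sum_erase _ _ (Finset.mem_univ x), h.inner_P_diag]
  simp_rw [e]
  rw [Finset.sum_add_distrib]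
  have e2 : ∑ x, 2 * bitR (s x) * ‖P s u‖ ^ 2 = 2 * wt s * ‖P s u‖ ^ 2 := by
    unfold wt
    rw [Finset.mul_sum, Finset.sum_mul]
  rw [e2]
  ring

/-- **The static sector inequality.** -/
theorem static_ineq (h : SectorData P A D) (hm : 1 ≤ (Fintype.card C : ℝ)) {Y : H →L[ℝ] H}
    (hY : ∀ u, Y u = (1 / 2 : ℝ) • (∑ x, ∑ y, A x y u) - (3 / (8 * (Fintype.card C : ℝ))) • D u)
    (u : H) {θ : ℝ} (hθ0 : 0 ≤ θ) (hθ : Real.exp (2 * θ) ≤ 2) :
    ∑ s, Real.exp (θ * wt s) * (2 * ⟪P s u, Y u⟫)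
      ≤ 32 * (Fintype.card C : ℝ) * ∑ s, wt s * Real.exp (θ * wt s) * ‖P s u‖ ^ 2 := by
  set m := (Fintype.card C : ℝ) with hmdef
  have hm0 : 0 < m := by linarith
  set β := 1 / (16 * m) with hβdef
  have hβ : 0 < β := by positivity
  -- the pairs
  have hp : ∀ x, ∀ y ∈ (univ : Finset C).erase x,
      ∑ s, Real.exp (θ * wt s) * ⟪P s u, A x y u⟫ ≤ ∑ s, GG P A u θ β x y s := by
    intro x y hy
    have hxy : x ≠ y := (Finset.ne_of_mem_erase hy).symm
    exact sum_le_of_pair (kk x y) _ _ fun s => pair_all h u hθ0 hθ hβ hxy s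
  have hsum : ∑ s, Real.exp (θ * wt s) * ∑ x, ∑ y ∈ univ.erase x, ⟪P s u, A x y u⟫
      ≤ ∑ s, ∑ x, ∑ y ∈ univ.erase x, GG P A u θ β x y s := by
    have e1 : ∑ s, Real.exp (θ * wt s) * ∑ x, ∑ y ∈ univ.erase x, ⟪P s u, A x y u⟫
        = ∑ x, ∑ y ∈ univ.erase x, ∑ s, Real.exp (θ * wt s) * ⟪P s u, A x y u⟫ := by
      simp_rw [Finset.mul_sum]
      rw [Finset.sum_comm]
      refine Finset.sum_congr rfl fun x _ => ?_
      rw [Finset.sum_comm]
    have e2 : ∑ s, ∑ x, ∑ y ∈ univ.erase x, GG P A u θ β x y s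
        = ∑ x, ∑ y ∈ univ.erase x, ∑ s, GG P A u θ β x y s := by
      rw [Finset.sum_comm]
      refine Finset.sum_congr rfl fun x _ => ?_
      rw [Finset.sum_comm]
    rw [e1, e2]
    exact Finset.sum_le_sum fun x _ => Finset.sum_le_sum fun y hy => hp x y hy
  -- per sector bound
  have hsec : ∀ s, Real.exp (θ * wt s) * (2 * wt s * ‖P s u‖ ^ 2
        - 2 * (3 / (8 * m)) * ⟪P s u, D (P s u)⟫)
      + ∑ x, ∑ y ∈ univ.erase x, GG P A u θ β x y s
      ≤ 32 * m * (wt s * Real.exp (θ * wt s) * ‖P s u‖ ^ 2) := by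
    intro s
    have h1 := sum_GG_le h u (θ := θ) hβ s
    have h2 := h.D_le (P s u)
    rw [← hmdef] at h1 h2
    set w := Real.exp (θ * wt s) with hw
    have hw0 : 0 < w := Real.exp_pos _
    have hwt := wt_nonneg s
    set a := ‖P s u‖ ^ 2 with ha
    have ha0 : 0 ≤ a := by positivity
    set d := ⟪P s u, D (P s u)⟫ with hd
    have e1 : 3 * w * (β * (wt s + 2) / 2) * (4 * d)
        = (3 / (8 * m)) * w * wt s * d + 2 * (3 / (8 * m)) * w * d := by
      rw [hβdef]
      field_simp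
      ring
    have e2 : 3 * w * a * wt s / (2 * β) = 24 * m * (wt s * w * a) := by
      rw [hβdef]
      field_simp
      ring
    have e3 : (3 / (8 * m)) * w * wt s * d ≤ (3 / 2) * m * (wt s * w * a) := by
      have h3 : (3 / (8 * m)) * (w * wt s) * d ≤ (3 / (8 * m)) * (w * wt s) * (4 * m ^ 2 * a) :=
        mul_le_mul_of_nonneg_left h2 (by positivity)
      have h4 : (3 / (8 * m)) * (w * wt s) * (4 * m ^ 2 * a) = (3 / 2) * m * (wt s * w * a) := by
        field_simp
        ring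
      calc (3 / (8 * m)) * w * wt s * d = (3 / (8 * m)) * (w * wt s) * d := by ring
        _ ≤ _ := h3
        _ = _ := h4
    have hnn : 0 ≤ wt s * w * a := by positivity
    rw [e1, e2] at h1
    have e4 : w * (2 * wt s * a - 2 * (3 / (8 * m)) * d) = 2 * (wt s * w * a)
        - 2 * (3 / (8 * m)) * w * d := by ring
    rw [e4]
    have e5 : 2 * w * a * (2 * m * wt s) = 4 * m * (wt s * w * a) := by ring
    rw [e5] at h1
    have e6 : 32 * m * (wt s * w * a) = 32 * m * (wt s * w * a) := rfl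
    nlinarith
  -- assemble
  have hform : ∀ s, Real.exp (θ * wt s) * (2 * ⟪P s u, Y u⟫)
      = Real.exp (θ * wt s) * (2 * wt s * ‖P s u‖ ^ 2
        - 2 * (3 / (8 * m)) * ⟪P s u, D (P s u)⟫)
      + Real.exp (θ * wt s) * ∑ x, ∑ y ∈ univ.erase x, ⟪P s u, A x y u⟫ := by
    intro s
    rw [inner_Y h hY s u]
    ring
  simp_rw [hform]
  rw [Finset.sum_add_distrib]
  have h3 := Finset.sum_le_sum (s := (univ : Finset (C → Fin 2))) fun s _ => hsec s
  rw [Finset.sum_add_distrib, ← Finset.mul_sum] at h3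
  linarith

end Vale.Agent.Lib.P162
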